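/-
P189 basic framework.

`𝒢` is a countable group acting on `Z`.  All relations are `Setoid Z`.
`RR H Y` : orbit relation of the subgroup `H` restricted to `Y` (points off `Y` are singletons).
`E : 𝒢 → Set Z` is a system of arcs: an arc joins `z` to `g • z` for every `z ∈ E g`.
`edge E` is the setoid generated by the arcs, `cost μ E = ∑' g, μ (E g)`.
`MS 𝒢 r` says `r` is measurable: `{z | r z (g • z)}` is measurable for all `g`.
-/
import Mathlib

open MeasureTheory Set
open scoped Pointwise ENNReal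

namespace Vale.Agent.P189

section Defs

variable {𝒢 : Type} [Group 𝒢] {Z : Type} [MulAction 𝒢 Z]

/-- The action is free (everywhere). -/
class FreeAct (𝒢 Z : Type) [Group 𝒢] [MulAction 𝒢 Z] : Prop where
  free : ∀ (g : 𝒢) (z : Z), g • z = z → g = 1

/-- One-step relation of an arc system. -/
def arc (E : 𝒢 → Set Z) (z w : Z) : Prop := ∃ g, z ∈ E g ∧ w = g • z

/-- Setoid generated by an arc system. -/
def edge (E : 𝒢 → Set Z) : Setoid Z := Relation.EqvGen.setoid (arc E)

/-- Orbit relation of `H` restricted to `Y`; points off `Y` are singletons. -/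
def RR (H : Subgroup 𝒢) (Y : Set Z) : Setoid Z where
  r z w := z = w ∨ (z ∈ Y ∧ w ∈ Y ∧ ∃ h ∈ H, w = h • z)
  iseqv := by
    refine ⟨fun z => Or.inl rfl, ?_, ?_⟩
    · rintro z w (rfl | ⟨hz, hw, h, hh, rfl⟩)
      · exact Or.inl rfl
      · exact Or.inr ⟨hw, hz, h⁻¹, H.inv_mem hh, by simp⟩
    · rintro z w v (rfl | ⟨hz, hw, h, hh, rfl⟩) (rfl | ⟨hz', hw', h', hh', rfl⟩)
      · exact Or.inl rfl
      · exact Or.inr ⟨hz', hw', h', hh', rfl⟩
      · exact Or.inr ⟨hz, hw, h, hh, rfl⟩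
      · exact Or.inr ⟨hz, hw', h' * h, H.mul_mem hh' hh, by simp [mul_smul]⟩

/-- Total measure of an arc system. -/
noncomputable def cost [MeasurableSpace Z] (μ : Measure Z) (E : 𝒢 → Set Z) : ℝ≥0∞ := ∑' g, μ (E g)

variable (𝒢) in
/-- Measurability of a setoid. -/
def MS [MeasurableSpace Z] (r : Setoid Z) : Prop := ∀ g : 𝒢, MeasurableSet {z | r z (g • z)}

/-- Arc systems that are measurable in every group coordinate. -/
def ME [MeasurableSpace Z] (E : 𝒢 → Set Z) : Prop := ∀ g, MeasurableSet (E g)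

/-- The arc system with one arc `z → f z • z` for every `z ∈ U`. -/
def arcsOf (U : Set Z) (f : Z → 𝒢) : 𝒢 → Set Z := fun g => {z | z ∈ U ∧ f z = g}

end Defs

section RRlemmas

variable {𝒢 : Type} [Group 𝒢] {Z : Type} [MulAction 𝒢 Z]

theorem rr_mono {H K : Subgroup 𝒢} {Y Y' : Set Z} (h : H ≤ K) (hY : Y ⊆ Y') :
    RR H Y ≤ RR K Y' := by
  intro z w hzw
  rcases hzw with rfl | ⟨hz, hw, g, hg, rfl⟩
  · exact Or.inl rfl
  · exact Or.inr ⟨hY hz, hY hw, g, h hg, rfl⟩

theorem rr_iff {H : Subgroup 𝒢} {Y : Set Z} {z w : Z} :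
    RR H Y z w ↔ z = w ∨ (z ∈ Y ∧ w ∈ Y ∧ ∃ h ∈ H, w = h • z) := Iff.rfl

/-- For a free action the group element joining two related points lies in `H`. -/
theorem rr_smul_iff [FreeAct 𝒢 Z] {H : Subgroup 𝒢} {Y : Set Z} {z : Z} {g : 𝒢} :
    RR H Y z (g • z) ↔ g = 1 ∨ (z ∈ Y ∧ g • z ∈ Y ∧ g ∈ H) := by
  rw [rr_iff]
  constructor
  · rintro (h | ⟨hz, hg, h, hh, he⟩)
    · exact Or.inl (FreeAct.free g z h.symm)
    · refine Or.inr ⟨hz, hg, ?_⟩
      have h1 : (h⁻¹ * g) • z = z := by rw [mul_smul, he, inv_smul_smul]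
      have h2 := FreeAct.free _ _ h1
      have h3 : g = h := by
        rw [inv_mul_eq_one] at h2
        exact h2.symm
      rw [h3]
      exact hh
  · rintro (rfl | ⟨hz, hg, hh⟩)
    · exact Or.inl (one_smul _ _).symm
    · exact Or.inr ⟨hz, hg, g, hh, rfl⟩

theorem smul_left_cancel_free [FreeAct 𝒢 Z] {g h : 𝒢} {z : Z} (e : g • z = h • z) : g = h := by
  have h1 : (h⁻¹ * g) • z = z := by rw [mul_smul, e, inv_smul_smul]
  have h2 := FreeAct.free _ _ h1
  rw [inv_mul_eq_one] at h2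
  exact h2.symm

theorem exists_smul_of_le_orb {r : Setoid Z} (hr : r ≤ RR (⊤ : Subgroup 𝒢) univ) {z w : Z}
    (h : r z w) : ∃ g : 𝒢, w = g • z := by
  rcases hr h with rfl | ⟨_, _, g, _, hg⟩
  · exact ⟨1, (one_smul _ _).symm⟩
  · exact ⟨g, hg⟩

end RRlemmas

section EdgeLemmas

variable {𝒢 : Type} [Group 𝒢] {Z : Type} [MulAction 𝒢 Z]

theorem edge_of_mem {E : 𝒢 → Set Z} {g : 𝒢} {z : Z} (h : z ∈ E g) : edge E z (g • z) :=
  Relation.EqvGen.rel _ _ ⟨g, h, rfl⟩

theorem edge_le_iff {E : 𝒢 → Set Z} {r : Setoid Z} : edge E ≤ r ↔ ∀ g, ∀ z ∈ E g, r z (g • z) := by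
  constructor
  · intro h g z hz
    exact h (edge_of_mem hz)
  · intro h z w hzw
    have hzw' : Relation.EqvGen (arc E) z w := hzw
    induction hzw' with
    | rel x y hxy =>
      obtain ⟨g, hg, rfl⟩ := hxy
      exact h g x hg
    | refl x => exact r.refl x
    | symm x y hxy ih => exact r.symm (ih hxy)
    | trans x y z hxy hyz ih1 ih2 => exact r.trans (ih1 hxy) (ih2 hyz)

theorem edge_le_orb (E : 𝒢 → Set Z) : edge E ≤ RR (⊤ : Subgroup 𝒢) univ := by
  rw [edge_le_iff]
  intro g z _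
  exact Or.inr ⟨mem_univ _, mem_univ _, g, Subgroup.mem_top g, rfl⟩

theorem edge_mono {E F : 𝒢 → Set Z} (h : ∀ g, E g ⊆ F g) : edge E ≤ edge F := by
  rw [edge_le_iff]
  intro g z hz
  exact edge_of_mem (h g hz)

theorem edge_union (E F : 𝒢 → Set Z) : edge (fun g => E g ∪ F g) = edge E ⊔ edge F := by
  apply le_antisymm
  · rw [edge_le_iff]
    rintro g z (hz | hz)
    · exact (le_sup_left : edge E ≤ edge E ⊔ edge F) (edge_of_mem hz)
    · exact (le_sup_right : edge F ≤ edge E ⊔ edge F) (edge_of_mem hz)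
  · exact sup_le (edge_mono fun g => subset_union_left) (edge_mono fun g => subset_union_right)

theorem edge_iUnion {ι : Type} (E : ι → 𝒢 → Set Z) :
    edge (fun g => ⋃ i, E i g) = ⨆ i, edge (E i) := by
  apply le_antisymm
  · rw [edge_le_iff]
    intro g z hz
    obtain ⟨i, hi⟩ := mem_iUnion.1 hz
    exact (le_iSup (fun i => edge (E i)) i) (edge_of_mem hi)
  · exact iSup_le fun i => edge_mono fun g => subset_iUnion (fun i => E i g) i

theorem edge_arcsOf_of_mem {U : Set Z} {f : Z → 𝒢} {z : Z} (h : z ∈ U) :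
    edge (arcsOf U f) z (f z • z) :=
  edge_of_mem (E := arcsOf U f) ⟨h, rfl⟩

/-- In a supremum of two setoids, membership is a finite alternating chain; induction principle. -/
theorem sup_induction {r s : Setoid Z} {P : Z → Z → Prop} (hrefl : ∀ z, P z z)
    (htrans : ∀ x y z, P x y → P y z → P x z)
    (hr : ∀ x y, r x y → P x y) (hs : ∀ x y, s x y → P x y) {x y : Z} (h : (r ⊔ s) x y) :
    P x y := by
  have key : ∀ a b, Relation.EqvGen (fun u v => r u v ∨ s u v) a b → P a b ∧ P b a := by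
    intro a b hab
    induction hab with
    | rel u v huv =>
      rcases huv with huv | huv
      · exact ⟨hr _ _ huv, hr _ _ (r.symm huv)⟩
      · exact ⟨hs _ _ huv, hs _ _ (s.symm huv)⟩
    | refl u => exact ⟨hrefl u, hrefl u⟩
    | symm u v _ ih => exact ⟨ih.2, ih.1⟩
    | trans u v w _ _ ih1 ih2 => exact ⟨htrans _ _ _ ih1.1 ih2.1, htrans _ _ _ ih2.2 ih1.2⟩
  have h' : Relation.EqvGen (fun u v => r u v ∨ s u v) x y := by
    rw [Setoid.sup_eq_eqvGen] at h
    exact h
  exact (key x y h').1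

end EdgeLemmas

section MeasLemmas

variable {𝒢 : Type} [Group 𝒢] [Countable 𝒢] {Z : Type} [MeasurableSpace Z] [MulAction 𝒢 Z]
  [MeasurableConstSMul 𝒢 Z]

omit [Countable 𝒢] in
theorem MS.pair {r : Setoid Z} (hr : MS 𝒢 r) (g h : 𝒢) :
    MeasurableSet {z | r (g • z) (h • z)} := by
  have e : {z : Z | r (g • z) (h • z)} = (fun z => g • z) ⁻¹' {w | r w ((h * g⁻¹) • w)} := by
    ext z
    simp [mul_smul]
  rw [e]
  exact measurable_const_smul g (hr _)

omit [Countable 𝒢] in
theorem ms_rr [FreeAct 𝒢 Z] (H : Subgroup 𝒢) {Y : Set Z} (hY : MeasurableSet Y) :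
    MS 𝒢 (RR H Y) := by
  intro g
  have e : {z : Z | RR H Y z (g • z)} =
      {z | g = 1} ∪ (Y ∩ (fun z => g • z) ⁻¹' Y ∩ {z | g ∈ H}) := by
    ext z
    rw [Set.mem_ofPred_eq, rr_smul_iff]
    simp only [Set.mem_union, Set.mem_ofPred_eq, Set.mem_inter_iff, Set.mem_preimage]
    tauto
  rw [e]
  exact (MeasurableSet.const _).union
    ((hY.inter (measurable_const_smul g hY)).inter (MeasurableSet.const _))

omit [Countable 𝒢] [MeasurableConstSMul 𝒢 Z] in
theorem MS.inf {r s : Setoid Z} (hr : MS 𝒢 r) (hs : MS 𝒢 s) : MS 𝒢 (r ⊓ s) := by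
  intro g
  have e : {z : Z | (r ⊓ s) z (g • z)} = {z | r z (g • z)} ∩ {z | s z (g • z)} := by
    ext z
    exact Iff.rfl
  rw [e]
  exact (hr g).inter (hs g)

/-- Alternating chains `r (s r)^n`. -/
def altRel (r s : Setoid Z) : ℕ → Z → Z → Prop
  | 0 => fun z w => r z w
  | n + 1 => fun z w => ∃ u, altRel r s n z u ∧ ∃ v, s u v ∧ r v w

omit [MeasurableSpace Z] in
theorem altRel_trans {r s : Setoid Z} {m n : ℕ} {x y z : Z} (h : altRel r s m x y)
    (h' : altRel r s n y z) : altRel r s (m + n) x z := by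
  induction n generalizing z with
  | zero =>
    cases m with
    | zero => exact r.trans' h h'
    | succ m =>
      obtain ⟨u, hu, v, hv, hw⟩ := h
      exact ⟨u, hu, v, hv, r.trans' hw h'⟩
  | succ n ih =>
    obtain ⟨u, hu, v, hv, hw⟩ := h'
    exact ⟨u, ih hu, v, hv, hw⟩

omit [MeasurableSpace Z] in
theorem sup_iff_altRel {r s : Setoid Z} {z w : Z} : (r ⊔ s) z w ↔ ∃ n, altRel r s n z w := by
  constructor
  · intro h
    refine sup_induction (P := fun z w => ∃ n, altRel r s n z w) (fun z => ⟨0, r.refl' z⟩)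
      (fun x y z hx hy => ?_) (fun x y hxy => ⟨0, hxy⟩)
      (fun x y hxy => ⟨1, x, r.refl' x, y, hxy, r.refl' y⟩) h
    obtain ⟨m, hm⟩ := hx
    obtain ⟨n, hn⟩ := hy
    exact ⟨m + n, altRel_trans hm hn⟩
  · rintro ⟨n, hn⟩
    have hr : r ≤ r ⊔ s := le_sup_left
    have hs : s ≤ r ⊔ s := le_sup_right
    induction n generalizing w with
    | zero => exact hr hn
    | succ n ih =>
      obtain ⟨u, hu, v, hv, hw⟩ := hn
      exact (r ⊔ s).trans' (ih hu) ((r ⊔ s).trans' (hs hv) (hr hw))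

theorem measurableSet_altRel {r s : Setoid Z} (hr : MS 𝒢 r) (hs : MS 𝒢 s)
    (hr' : r ≤ RR (⊤ : Subgroup 𝒢) univ) (hs' : s ≤ RR (⊤ : Subgroup 𝒢) univ) (n : ℕ) (g : 𝒢) :
    MeasurableSet {z : Z | altRel r s n z (g • z)} := by
  induction n generalizing g with
  | zero => exact hr g
  | succ n ih =>
    have e : {z : Z | altRel r s (n + 1) z (g • z)} =
        ⋃ k : 𝒢, ⋃ l : 𝒢, {z : Z | altRel r s n z (k • z)} ∩
          ({z | s (k • z) (l • z)} ∩ {z | r (l • z) (g • z)}) := by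
      ext z
      simp only [Set.mem_iUnion, Set.mem_inter_iff, Set.mem_ofPred_eq]
      constructor
      · rintro ⟨u, hu, v, hv, hw⟩
        obtain ⟨a, ha⟩ := exists_smul_of_le_orb hr' hw
        have hv' : v = (a⁻¹ * g) • z := by
          rw [mul_smul, ha]
          simp
        obtain ⟨c, hc⟩ := exists_smul_of_le_orb hs' hv
        have hu' : u = (c⁻¹ * (a⁻¹ * g)) • z := by
          rw [mul_smul, ← hv', hc]
          simp
        subst hv'
        subst hu'
        exact ⟨_, _, hu, hv, hw⟩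
      · rintro ⟨k, l, h1, h2, h3⟩
        exact ⟨_, h1, _, h2, h3⟩
    rw [e]
    exact MeasurableSet.iUnion fun k => MeasurableSet.iUnion fun l =>
      (ih k).inter ((hs.pair k l).inter (hr.pair l g))

theorem MS.sup {r s : Setoid Z} (hr : MS 𝒢 r) (hs : MS 𝒢 s)
    (hr' : r ≤ RR (⊤ : Subgroup 𝒢) univ) (hs' : s ≤ RR (⊤ : Subgroup 𝒢) univ) :
    MS 𝒢 (r ⊔ s) := by
  intro g
  have e : {z : Z | (r ⊔ s) z (g • z)} = ⋃ n, {z : Z | altRel r s n z (g • z)} := by
    ext z
    rw [Set.mem_iUnion]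
    exact sup_iff_altRel
  rw [e]
  exact MeasurableSet.iUnion fun n => measurableSet_altRel hr hs hr' hs' n g

omit [Group 𝒢] [Countable 𝒢] [MeasurableSpace Z] [MulAction 𝒢 Z] [MeasurableConstSMul 𝒢 Z] in
theorem iSup_mono_apply {r : ℕ → Setoid Z} (hm : Monotone r) (z w : Z) :
    (⨆ n, r n) z w ↔ ∃ n, r n z w := by
  constructor
  · intro h
    let t : Setoid Z :=
      { r := fun z w => ∃ n, r n z w
        iseqv := by
          refine ⟨fun z => ⟨0, (r 0).refl' z⟩, ?_, ?_⟩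
          · rintro z w ⟨n, hn⟩
            exact ⟨n, (r n).symm' hn⟩
          · rintro z w v ⟨n, hn⟩ ⟨k, hk⟩
            exact ⟨max n k, (r (max n k)).trans' (hm (le_max_left n k) hn)
              (hm (le_max_right n k) hk)⟩ }
    have ht : (⨆ n, r n) ≤ t := iSup_le fun n => fun z w hzw => ⟨n, hzw⟩
    exact ht h
  · rintro ⟨n, hn⟩
    exact le_iSup r n hn

omit [Countable 𝒢] [MeasurableConstSMul 𝒢 Z] in
/-- Increasing unions. -/
theorem MS.iSup_mono {r : ℕ → Setoid Z} (hr : ∀ n, MS 𝒢 (r n)) (hm : Monotone r) :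
    MS 𝒢 (⨆ n, r n) := by
  intro g
  have e : {z : Z | (⨆ n, r n) z (g • z)} = ⋃ n, {z | r n z (g • z)} := by
    ext z
    simp only [Set.mem_iUnion, Set.mem_ofPred_eq, iSup_mono_apply hm]
  rw [e]
  exact MeasurableSet.iUnion fun n => hr n g

/-- Chains of `n` arcs, in either direction. -/
def chainRel (E : 𝒢 → Set Z) : ℕ → Z → Z → Prop
  | 0 => fun z w => z = w
  | n + 1 => fun z w => ∃ u, chainRel E n z u ∧ (arc E u w ∨ arc E w u)

omit [Countable 𝒢] [MeasurableSpace Z] [MeasurableConstSMul 𝒢 Z] in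
theorem chainRel_trans {E : 𝒢 → Set Z} {m n : ℕ} {x y z : Z} (h : chainRel E m x y)
    (h' : chainRel E n y z) : chainRel E (m + n) x z := by
  induction n generalizing z with
  | zero =>
    have e : y = z := h'
    subst e
    exact h
  | succ n ih =>
    obtain ⟨u, hu, hw⟩ := h'
    exact ⟨u, ih hu, hw⟩

omit [Countable 𝒢] [MeasurableSpace Z] [MeasurableConstSMul 𝒢 Z] in
theorem chainRel_symm {E : 𝒢 → Set Z} {n : ℕ} {x y : Z} (h : chainRel E n x y) :
    chainRel E n y x := by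
  induction n generalizing y with
  | zero => exact Eq.symm h
  | succ n ih =>
    obtain ⟨u, hu, hw⟩ := h
    have h1 : chainRel E 1 y u := ⟨y, rfl, hw.symm⟩
    have h2 := chainRel_trans h1 (ih hu)
    rwa [add_comm] at h2

omit [Countable 𝒢] [MeasurableSpace Z] [MeasurableConstSMul 𝒢 Z] in
theorem edge_iff_chainRel {E : 𝒢 → Set Z} {z w : Z} :
    edge E z w ↔ ∃ n, chainRel E n z w := by
  constructor
  · intro h
    have h' : Relation.EqvGen (arc E) z w := h
    induction h' with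
    | rel x y hxy => exact ⟨1, x, rfl, Or.inl hxy⟩
    | refl x => exact ⟨0, rfl⟩
    | symm x y hxy ih =>
      obtain ⟨n, hn⟩ := ih hxy
      exact ⟨n, chainRel_symm hn⟩
    | trans x y z hxy hyz ih1 ih2 =>
      obtain ⟨m, hm⟩ := ih1 hxy
      obtain ⟨n, hn⟩ := ih2 hyz
      exact ⟨m + n, chainRel_trans hm hn⟩
  · rintro ⟨n, hn⟩
    induction n generalizing w with
    | zero =>
      have e : z = w := hn
      subst e
      exact (edge E).refl' z
    | succ n ih =>
      obtain ⟨u, hu, hw⟩ := hn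
      refine (edge E).trans' (ih hu) ?_
      rcases hw with hw | hw
      · exact Relation.EqvGen.rel _ _ hw
      · exact (edge E).symm' (Relation.EqvGen.rel _ _ hw)

omit [Countable 𝒢] [MeasurableSpace Z] [MeasurableConstSMul 𝒢 Z] in
theorem arc_smul_iff [FreeAct 𝒢 Z] {E : 𝒢 → Set Z} {g k : 𝒢} {z : Z} :
    arc E (k • z) (g • z) ↔ k • z ∈ E (g * k⁻¹) := by
  constructor
  · rintro ⟨h, h1, h2⟩
    have h3 : g • z = (h * k) • z := by rw [h2, mul_smul]
    have h4 : g = h * k := smul_left_cancel_free h3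
    subst h4
    simpa using h1
  · intro h
    exact ⟨g * k⁻¹, h, by simp [mul_smul]⟩

theorem measurableSet_chainRel [FreeAct 𝒢 Z] {E : 𝒢 → Set Z} (hE : ME E) (n : ℕ) (g : 𝒢) :
    MeasurableSet {z : Z | chainRel E n z (g • z)} := by
  induction n generalizing g with
  | zero =>
    have e : {z : Z | chainRel E 0 z (g • z)} = {z | g = 1} := by
      ext z
      simp only [Set.mem_ofPred_eq]
      constructor
      · intro h
        exact FreeAct.free g z (Eq.symm h)
      · rintro rfl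
        exact (one_smul 𝒢 z).symm
    rw [e]
    exact MeasurableSet.const _
  | succ n ih =>
    have e : {z : Z | chainRel E (n + 1) z (g • z)} =
        ⋃ k : 𝒢, {z : Z | chainRel E n z (k • z)} ∩
          ((fun z => k • z) ⁻¹' (E (g * k⁻¹)) ∪ (fun z => g • z) ⁻¹' (E (k * g⁻¹))) := by
      ext z
      simp only [Set.mem_iUnion, Set.mem_inter_iff, Set.mem_ofPred_eq, Set.mem_union,
        Set.mem_preimage]
      constructor
      · rintro ⟨u, hu, hw⟩
        have hk : ∃ k : 𝒢, u = k • z :=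
          exists_smul_of_le_orb (edge_le_orb E) (edge_iff_chainRel.2 ⟨n, hu⟩)
        obtain ⟨k, rfl⟩ := hk
        refine ⟨k, hu, ?_⟩
        rcases hw with hw | hw
        · exact Or.inl (arc_smul_iff.1 hw)
        · exact Or.inr (arc_smul_iff.1 hw)
      · rintro ⟨k, hk, hw⟩
        refine ⟨k • z, hk, ?_⟩
        rcases hw with hw | hw
        · exact Or.inl (arc_smul_iff.2 hw)
        · exact Or.inr (arc_smul_iff.2 hw)
    rw [e]
    exact MeasurableSet.iUnion fun k => (ih k).inter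
      ((measurable_const_smul k (hE _)).union (measurable_const_smul g (hE _)))

theorem ms_edge [FreeAct 𝒢 Z] {E : 𝒢 → Set Z} (hE : ME E) : MS 𝒢 (edge E) := by
  intro g
  have e : {z : Z | edge E z (g • z)} = ⋃ n, {z : Z | chainRel E n z (g • z)} := by
    ext z
    simp only [Set.mem_iUnion, Set.mem_ofPred_eq, edge_iff_chainRel]
  rw [e]
  exact MeasurableSet.iUnion fun n => measurableSet_chainRel hE n g

/-- saturation of a measurable set. -/
theorem MS.measurableSet_sat {r : Setoid Z} (hr : MS 𝒢 r) (hr' : r ≤ RR (⊤ : Subgroup 𝒢) univ)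
    {M : Set Z} (hM : MeasurableSet M) : MeasurableSet {z | ∃ m ∈ M, r z m} := by
  have e : {z | ∃ m ∈ M, r z m} = ⋃ g : 𝒢, (fun z => g • z) ⁻¹' M ∩ {z | r z (g • z)} := by
    ext z
    simp only [Set.mem_iUnion, Set.mem_inter_iff, Set.mem_ofPred_eq, Set.mem_preimage]
    constructor
    · rintro ⟨m, hm, h⟩
      obtain ⟨g, rfl⟩ := exists_smul_of_le_orb hr' h
      exact ⟨g, hm, h⟩
    · rintro ⟨g, hg, h⟩
      exact ⟨_, hg, h⟩
  rw [e]
  exact MeasurableSet.iUnion fun g => (measurable_const_smul g hM).inter (hr g)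

omit [Group 𝒢] [Countable 𝒢] [MulAction 𝒢 Z] [MeasurableConstSMul 𝒢 Z] in
theorem me_arcsOf {U : Set Z} (hU : MeasurableSet U) {f : Z → 𝒢}
    (hf : ∀ g, MeasurableSet {z | f z = g}) : ME (arcsOf U f) := fun g => hU.inter (hf g)

omit [Group 𝒢] [MulAction 𝒢 Z] [MeasurableConstSMul 𝒢 Z] in
theorem cost_arcsOf (μ : Measure Z) {U : Set Z} (hU : MeasurableSet U) {f : Z → 𝒢}
    (hf : ∀ g, MeasurableSet {z | f z = g}) : cost μ (arcsOf U f) = μ U := by
  have e : (⋃ g, arcsOf U f g) = U := by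
    ext z
    simp [arcsOf]
  rw [cost, ← measure_iUnion _ (me_arcsOf hU hf), e]
  intro g h hne
  rw [Function.onFun, Set.disjoint_left]
  rintro z ⟨_, h1⟩ ⟨_, h2⟩
  exact hne (h1.symm.trans h2)

omit [Group 𝒢] [MulAction 𝒢 Z] [MeasurableConstSMul 𝒢 Z] [Countable 𝒢] in
theorem cost_mono (μ : Measure Z) {E F : 𝒢 → Set Z} (h : ∀ g, E g ⊆ F g) :
    cost μ E ≤ cost μ F :=
  ENNReal.tsum_le_tsum fun g => measure_mono (h g)

omit [Group 𝒢] [MulAction 𝒢 Z] [MeasurableConstSMul 𝒢 Z] [Countable 𝒢] in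
theorem cost_union_le (μ : Measure Z) (E F : 𝒢 → Set Z) :
    cost μ (fun g => E g ∪ F g) ≤ cost μ E + cost μ F := by
  unfold cost
  rw [← ENNReal.tsum_add]
  exact ENNReal.tsum_le_tsum fun g => measure_union_le _ _

omit [Group 𝒢] [MulAction 𝒢 Z] [MeasurableConstSMul 𝒢 Z] [Countable 𝒢] in
theorem cost_iUnion_le (μ : Measure Z) (E : ℕ → 𝒢 → Set Z) :
    cost μ (fun g => ⋃ n, E n g) ≤ ∑' n, cost μ (E n) := by
  unfold cost
  rw [ENNReal.tsum_comm]
  exact ENNReal.tsum_le_tsum fun g => measure_iUnion_le _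

omit [MulAction 𝒢 Z] [MeasurableConstSMul 𝒢 Z] in
/-- Countable choice of a group element, measurably. -/
theorem exists_measurable_choice {P : 𝒢 → Z → Prop} (hP : ∀ g, MeasurableSet {z | P g z}) :
    ∃ f : Z → 𝒢, (∀ g, MeasurableSet {z | f z = g}) ∧ ∀ z, (∃ g, P g z) → P (f z) z := by
  classical
  obtain ⟨e, he⟩ := exists_injective_nat 𝒢
  have key : ∀ z, (∃ g, P g z) → ∃ g, P g z ∧ ∀ g', P g' z → e g ≤ e g' := by
    rintro z ⟨g, hg⟩
    obtain ⟨g0, h0, hmin⟩ := (measure e).wf.has_min {g | P g z} ⟨g, hg⟩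
    exact ⟨g0, h0, fun g' hg' => not_lt.1 (hmin g' hg')⟩
  let f : Z → 𝒢 := fun z => if h : ∃ g, P g z ∧ ∀ g', P g' z → e g ≤ e g' then h.choose else 1
  have hf1 : ∀ z g, (P g z ∧ ∀ g', P g' z → e g ≤ e g') → f z = g := by
    intro z g hg
    have h : ∃ g, P g z ∧ ∀ g', P g' z → e g ≤ e g' := ⟨g, hg⟩
    have h1 : f z = h.choose := dif_pos h
    rw [h1]
    exact he (le_antisymm (h.choose_spec.2 g hg.1) (hg.2 _ h.choose_spec.1))
  have hf2 : ∀ z, (¬ ∃ g, P g z) → f z = 1 := by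
    intro z hz
    refine dif_neg ?_
    rintro ⟨g, hg⟩
    exact hz ⟨g, hg.1⟩
  refine ⟨f, ?_, ?_⟩
  · intro g
    have e1 : {z | f z = g} =
        ({z | P g z} ∩ ⋂ g', ({z | P g' z}ᶜ ∪ {z | e g ≤ e g'})) ∪
          ({z | g = 1} ∩ ⋂ g', {z | P g' z}ᶜ) := by
      ext z
      simp only [Set.mem_union, Set.mem_inter_iff, Set.mem_iInter, Set.mem_compl_iff,
        Set.mem_ofPred_eq]
      constructor
      · intro h
        by_cases hz : ∃ g, P g z
        · obtain ⟨g0, hg0⟩ := key z hz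
          have := hf1 z g0 hg0
          rw [h] at this
          subst this
          left
          exact ⟨hg0.1, fun g' => by
            by_cases h' : P g' z
            · exact Or.inr (hg0.2 g' h')
            · exact Or.inl h'⟩
        · right
          refine ⟨?_, fun g' hg' => hz ⟨g', hg'⟩⟩
          rw [← h]
          exact hf2 z hz
      · rintro (⟨h1, h2⟩ | ⟨h1, h2⟩)
        · refine hf1 z g ⟨h1, fun g' hg' => ?_⟩
          rcases h2 g' with h | h
          · exact absurd hg' h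
          · exact h
        · rw [h1]
          exact hf2 z fun ⟨g', hg'⟩ => h2 g' hg'
    rw [e1]
    exact ((hP g).inter (MeasurableSet.iInter fun g' => (hP g').compl.union
      (MeasurableSet.const _))).union
      ((MeasurableSet.const _).inter (MeasurableSet.iInter fun g' => (hP g').compl))
  · intro z hz
    obtain ⟨g0, hg0⟩ := key z hz
    rw [hf1 z g0 hg0]
    exact hg0.1

end MeasLemmas

end Vale.Agent.P189
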