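import Vale.Agent.P189.Defs

/-!
# P189: the Bernoulli shift `{0,1}^Γ`
-/

namespace Vale.Agent.P189

open MeasureTheory
open scoped ENNReal

/-- The fair coin. -/
noncomputable def coin : Measure Bool := (PMF.uniformOfFintype Bool).toMeasure

instance coin_prob : IsProbabilityMeasure coin := by
  unfold coin; infer_instance

theorem coin_singleton (b : Bool) : coin {b} = 2⁻¹ := by
  unfold coin
  rw [PMF.toMeasure_apply_singleton _ _ (measurableSet_singleton b)]
  simp

/-- The product measure on `Γ → Bool`. -/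
noncomputable def bern (Γ : Type) : Measure (Γ → Bool) := Measure.infinitePi fun _ => coin

instance bern_prob (Γ : Type) : IsProbabilityMeasure (bern Γ) := by
  unfold bern; infer_instance

variable {Γ : Type} [Group Γ]

/-- The Bernoulli shift action `(g • x)(h) = x (g⁻¹ h)`. -/
@[reducible] def shiftAction : MulAction Γ (Γ → Bool) where
  smul g x := fun h => x (g⁻¹ * h)
  one_smul x := by
    funext h
    show x (1⁻¹ * h) = x h
    simp
  mul_smul g k x := by
    funext h
    show x ((g * k)⁻¹ * h) = x (k⁻¹ * (g⁻¹ * h))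
    rw [mul_inv_rev, mul_assoc]

theorem bern_pi (s : Finset Γ) (t : Γ → Set Bool) :
    bern Γ (Set.pi s t) = ∏ i ∈ s, coin (t i) :=
  Measure.infinitePi_pi _ (fun _ _ => MeasurableSet.of_discrete)

theorem shift_isPmp : letI := shiftAction (Γ := Γ); IsPmp Γ (bern Γ) := by
  classical
  letI := shiftAction (Γ := Γ)
  intro g
  have hm : Measurable (fun x : Γ → Bool => g • x) := by
    refine measurable_pi_lambda _ fun h => ?_
    exact measurable_pi_apply (g⁻¹ * h)
  refine ⟨hm, ?_⟩
  refine Measure.eq_infinitePi _ fun s t ht => ?_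
  rw [Measure.map_apply hm (MeasurableSet.pi s.countable_toSet fun i _ => ht i)]
  have h1 : (fun x : Γ → Bool => g • x) ⁻¹' (Set.pi s t)
      = Set.pi (s.map (Equiv.mulLeft g⁻¹).toEmbedding) (fun k => t (g * k)) := by
    ext x
    simp only [Set.mem_preimage, Set.mem_pi, Finset.mem_coe, Finset.mem_map,
      Equiv.coe_toEmbedding, Equiv.coe_mulLeft]
    constructor
    · rintro hx k ⟨h, hh, rfl⟩
      have := hx h hh
      rwa [mul_inv_cancel_left]
    · intro hx h hh
      have := hx (g⁻¹ * h) ⟨h, hh, rfl⟩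
      rwa [mul_inv_cancel_left] at this
  rw [h1, bern_pi, Finset.prod_map]
  refine Finset.prod_congr rfl fun h _ => ?_
  simp

/-- In an infinite group there are arbitrarily large finite sets disjoint from their translate. -/
theorem exists_disjoint_translate [Infinite Γ] (g : Γ) (hg : g ≠ 1) (n : ℕ) :
    ∃ s : Finset Γ, s.card = n ∧ ∀ h ∈ s, g⁻¹ * h ∉ s := by
  classical
  induction n with
  | zero => exact ⟨∅, rfl, by simp⟩
  | succ n ih =>
    obtain ⟨s, hs, hd⟩ := ih
    obtain ⟨h, hh⟩ := Infinite.exists_notMem_finset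
      (s ∪ s.image (fun k => g * k) ∪ s.image (fun k => g⁻¹ * k))
    simp only [Finset.mem_union, Finset.mem_image, not_or, not_exists, not_and] at hh
    obtain ⟨⟨h1, h2⟩, h3⟩ := hh
    refine ⟨insert h s, by rw [Finset.card_insert_of_notMem h1, hs], ?_⟩
    intro k hk
    rw [Finset.mem_insert] at hk
    rw [Finset.mem_insert, not_or]
    rcases hk with rfl | hk
    · refine ⟨?_, ?_⟩
      · intro he
        apply hg
        have : g⁻¹ = 1 := by simpa using he
        simpa using this
      · intro he
        exact h2 _ he (by simp)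
    · refine ⟨fun he => h3 k hk he, hd k hk⟩

theorem shift_essFree [Infinite Γ] : letI := shiftAction (Γ := Γ); EssFree Γ (bern Γ) := by
  classical
  letI := shiftAction (Γ := Γ)
  intro g hg
  have main : ∀ n : ℕ, bern Γ {x | g • x = x} ≤ (2⁻¹ : ℝ≥0∞) ^ n := by
    intro n
    obtain ⟨s, hs, hd⟩ := exists_disjoint_translate g hg n
    let s' : Finset Γ := s.map (Equiv.mulLeft g⁻¹).toEmbedding
    have hs' : ∀ k, k ∈ s' ↔ ∃ h ∈ s, g⁻¹ * h = k := by
      intro k
      simp only [s', Finset.mem_map, Equiv.coe_toEmbedding, Equiv.coe_mulLeft]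
    have hdisj : Disjoint s s' := by
      rw [Finset.disjoint_left]
      intro k hk hk'
      obtain ⟨h, hh, rfl⟩ := (hs' k).mp hk'
      exact hd h hh hk
    have hsub : {x : Γ → Bool | g • x = x} ⊆ ⋃ T ∈ s.powerset,
        Set.pi ((s ∪ s' : Finset Γ) : Set Γ)
          (fun k => if k ∈ s then {decide (k ∈ T)} else {decide (g * k ∈ T)}) := by
      intro x hx
      have hx' : ∀ h, x (g⁻¹ * h) = x h := fun h => congrFun hx h
      rw [Set.mem_iUnion₂]
      refine ⟨s.filter (fun k => x k = true), by simp, ?_⟩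
      rw [Set.mem_pi]
      intro k hk
      rw [Finset.mem_coe, Finset.mem_union] at hk
      by_cases hks : k ∈ s
      · rw [if_pos hks]
        simp [hks]
      · rw [if_neg hks]
        rcases hk with hk | hk
        · exact absurd hk hks
        · obtain ⟨h, hh, rfl⟩ := (hs' k).mp hk
          simp [hh, hx' h]
    refine (measure_mono hsub).trans ((measure_biUnion_finset_le _ _).trans ?_)
    have hval : ∀ T ∈ s.powerset, bern Γ (Set.pi ((s ∪ s' : Finset Γ) : Set Γ)
          (fun k => if k ∈ s then {decide (k ∈ T)} else {decide (g * k ∈ T)}))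
          = (2⁻¹ : ℝ≥0∞) ^ (n + n) := by
      intro T _
      rw [bern_pi, Finset.prod_congr rfl (g := fun _ => (2⁻¹ : ℝ≥0∞))]
      · rw [Finset.prod_const, Finset.card_union_of_disjoint hdisj, Finset.card_map, hs]
      · intro k _
        split_ifs <;> exact coin_singleton _
    rw [Finset.sum_congr rfl hval, Finset.sum_const, Finset.card_powerset, hs, nsmul_eq_mul,
      pow_add, ← mul_assoc]
    have : ((2 ^ n : ℕ) : ℝ≥0∞) * (2⁻¹) ^ n = 1 := by
      push_cast
      rw [← mul_pow, ENNReal.mul_inv_cancel (by norm_num) (by norm_num), one_pow]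
    rw [this, one_mul]
  have hlim : Filter.Tendsto (fun n : ℕ => (2⁻¹ : ℝ≥0∞) ^ n) Filter.atTop (nhds 0) :=
    ENNReal.tendsto_pow_atTop_nhds_zero_of_lt_one (by norm_num)
  exact le_antisymm (ge_of_tendsto' hlim main) bot_le

end Vale.Agent.P189
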