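/-
P189, Step B: joining two classes of a finite setoid, number of classes meeting a set.
-/
import Mathlib

open Set

namespace Vale.Agent.P189

variable {L : Type}

/-- The setoid obtained from `s` by joining the classes of `u` and `v`. -/
def join (s : Setoid L) (u v : L) : Setoid L where
  r x y := s x y ∨ (s x u ∧ s v y) ∨ (s x v ∧ s u y)
  iseqv := by
    refine ⟨fun x => Or.inl (s.refl x), ?_, ?_⟩
    · rintro x y (h | ⟨h1, h2⟩ | ⟨h1, h2⟩)
      · exact Or.inl (s.symm h)
      · exact Or.inr (Or.inr ⟨s.symm h2, s.symm h1⟩)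
      · exact Or.inr (Or.inl ⟨s.symm h2, s.symm h1⟩)
    · rintro x y z (h | ⟨h1, h2⟩ | ⟨h1, h2⟩) (k | ⟨k1, k2⟩ | ⟨k1, k2⟩)
      · exact Or.inl (s.trans h k)
      · exact Or.inr (Or.inl ⟨s.trans h k1, k2⟩)
      · exact Or.inr (Or.inr ⟨s.trans h k1, k2⟩)
      · exact Or.inr (Or.inl ⟨h1, s.trans h2 k⟩)
      · exact Or.inr (Or.inl ⟨h1, k2⟩)
      · exact Or.inl (s.trans h1 k2)
      · exact Or.inr (Or.inr ⟨h1, s.trans h2 k⟩)
      · exact Or.inl (s.trans h1 k2)
      · exact Or.inr (Or.inr ⟨h1, k2⟩)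

/-- Number of classes of `s` that meet `P`. -/
noncomputable def ncl (s : Setoid L) (P : Set L) : ℕ := ((fun l => (Quotient.mk s l)) '' P).ncard

theorem join_iff {s : Setoid L} {u v x y : L} :
    join s u v x y ↔ s x y ∨ (s x u ∧ s v y) ∨ (s x v ∧ s u y) := Iff.rfl

theorem le_join (s : Setoid L) (u v : L) : s ≤ join s u v := fun _ _ h => Or.inl h

theorem join_self {s : Setoid L} {u v : L} (h : s u v) : join s u v = s := by
  ext x y
  constructor
  · rintro (h1 | ⟨h1, h2⟩ | ⟨h1, h2⟩)
    · exact h1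
    · exact s.trans (s.trans h1 h) h2
    · exact s.trans (s.trans h1 (s.symm h)) h2
  · exact fun h1 => Or.inl h1

theorem join_mem (s : Setoid L) (u v : L) : join s u v u v :=
  Or.inr (Or.inl ⟨s.refl u, s.refl v⟩)

/-- `join s u v` is the least setoid above `s` relating `u` and `v`. -/
theorem join_le {s t : Setoid L} {u v : L} (h : s ≤ t) (huv : t u v) : join s u v ≤ t := by
  rintro x y (h1 | ⟨h1, h2⟩ | ⟨h1, h2⟩)
  · exact h h1
  · exact t.trans (t.trans (h h1) huv) (h h2)
  · exact t.trans (t.trans (h h1) (t.symm huv)) (h h2)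

theorem ncl_bot [Finite L] (P : Set L) : ncl (⊥ : Setoid L) P = P.ncard := by
  unfold ncl
  apply Set.ncard_image_of_injective
  intro x y hxy
  exact Quotient.exact hxy

/-- The map between quotients induced by an inequality of setoids. -/
def joinMap {s t : Setoid L} (h : s ≤ t) : Quotient s → Quotient t :=
  Quotient.lift (fun l => (Quotient.mk t l)) (fun _ _ hab => Quotient.sound (h hab))

theorem joinMap_image {s t : Setoid L} (h : s ≤ t) (P : Set L) :
    joinMap h '' ((fun l => (Quotient.mk s l)) '' P) = (fun l => (Quotient.mk t l)) '' P := by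
  rw [Set.image_image]
  rfl

theorem ncl_le_join_add_one [Finite L] (s : Setoid L) (u v : L) (P : Set L) :
    ncl s P ≤ ncl (join s u v) P + 1 := by
  unfold ncl
  set A := (fun l => (Quotient.mk s l)) '' P with hA
  have h1 : A.ncard ≤ (A \ {Quotient.mk s v}).ncard + 1 := by
    have := Set.ncard_le_ncard_diff_add_ncard A {Quotient.mk s v} (Set.toFinite _)
    rwa [Set.ncard_singleton] at this
  have hinj : Set.InjOn (joinMap (le_join s u v)) (A \ {Quotient.mk s v}) := by
    rintro _ ⟨⟨x, hx, rfl⟩, hxv⟩ _ ⟨⟨y, hy, rfl⟩, hyv⟩ hxy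
    have hxy' : join s u v x y := Quotient.exact hxy
    rcases hxy' with h | ⟨h, h'⟩ | ⟨h, h'⟩
    · exact Quotient.sound h
    · exact absurd (Quotient.sound (s.symm h')) hyv
    · exact absurd (Quotient.sound h) hxv
  have h2 : (A \ {Quotient.mk s v}).ncard ≤
      ((fun l => (Quotient.mk (join s u v) l)) '' P).ncard := by
    rw [← joinMap_image (le_join s u v) P, ← Set.ncard_image_of_injOn hinj]
    exact Set.ncard_le_ncard (Set.image_mono Set.diff_subset) (Set.toFinite _)
  omega

theorem ncl_join_add_one_le [Finite L] {s : Setoid L} {u v : L} {P : Set L} (hu : u ∈ P)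
    (hv : v ∈ P) (h : ¬ s u v) : ncl (join s u v) P + 1 ≤ ncl s P := by
  unfold ncl
  set A := (fun l => (Quotient.mk s l)) '' P with hA
  have h1 : (A \ {Quotient.mk s v}).ncard + 1 = A.ncard :=
    Set.ncard_diff_singleton_add_one ⟨v, hv, rfl⟩ (Set.toFinite _)
  have h2 : (fun l => (Quotient.mk (join s u v) l)) '' P ⊆
      joinMap (le_join s u v) '' (A \ {Quotient.mk s v}) := by
    rintro _ ⟨x, hx, rfl⟩
    by_cases hxv : s x v
    · refine ⟨Quotient.mk s u, ⟨⟨u, hu, rfl⟩, fun he => h (Quotient.exact he)⟩, ?_⟩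
      exact Quotient.sound (Or.inr (Or.inl ⟨s.refl u, s.symm hxv⟩))
    · exact ⟨Quotient.mk s x, ⟨⟨x, hx, rfl⟩, fun he => hxv (Quotient.exact he)⟩, rfl⟩
  have h3 : ((fun l => (Quotient.mk (join s u v) l)) '' P).ncard ≤
      (A \ {Quotient.mk s v}).ncard :=
    (Set.ncard_le_ncard h2 (Set.toFinite _)).trans (Set.ncard_image_le (Set.toFinite _))
  omega

theorem ncl_anti [Finite L] {s t : Setoid L} (h : s ≤ t) (P : Set L) : ncl t P ≤ ncl s P := by
  unfold ncl
  rw [← joinMap_image h P]
  exact Set.ncard_image_le (Set.toFinite _)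

end Vale.Agent.P189
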