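/-
P189, Step B: degree count at a vertex (finite combinatorics).

At `x`: `sV` = setoid on vertex labels with present set `PV`; for every direction `d : Fin 2 × Bool`
a setoid `sD d` on the edge labels, present set `PD d`, with end map `en d : LE → LV`
(`src` for outgoing, `tgt` for incoming).
Total number of edge classes ≥ 2 * number of vertex classes + 2 + extra.
-/
import Vale.Agent.P189.Join

open Set

namespace Vale.Agent.P189

section aux

variable {LV LE : Type}

open Classical in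
/-- the edge classes in direction `d` ending in the vertex class `C` -/
noncomputable def endCls [Finite LE] (sV : Setoid LV) (sE : Setoid LE) (PE : Set LE)
    (en : LE → LV) (C : Quotient sV) : Finset (Quotient sE) :=
  (Set.toFinite ((fun k => Quotient.mk sE k) '' {k ∈ PE | Quotient.mk sV (en k) = C})).toFinset

theorem mem_endCls [Finite LE] {sV : Setoid LV} {sE : Setoid LE} {PE : Set LE}
    {en : LE → LV} {C : Quotient sV} {q : Quotient sE} :
    q ∈ endCls sV sE PE en C ↔ ∃ k ∈ PE, Quotient.mk sV (en k) = C ∧ Quotient.mk sE k = q := by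
  unfold endCls
  rw [Set.Finite.mem_toFinset]
  constructor
  · rintro ⟨k, ⟨h1, h2⟩, h3⟩
    exact ⟨k, h1, h2, h3⟩
  · rintro ⟨k, h1, h2, h3⟩
    exact ⟨k, ⟨h1, h2⟩, h3⟩

open Classical in
theorem sum_endCls_le [Finite LE] {sV : Setoid LV} {sE : Setoid LE} {PE : Set LE}
    {en : LE → LV} (hcomp : ∀ k k', k ∈ PE → k' ∈ PE → sE k k' → sV (en k) (en k'))
    (VC : Finset (Quotient sV)) :
    ∑ C ∈ VC, (endCls sV sE PE en C).card ≤ ncl sE PE := by
  have hdis : ∀ C ∈ VC, ∀ C' ∈ VC, C ≠ C' →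
      Disjoint (endCls sV sE PE en C) (endCls sV sE PE en C') := by
    intro C _ C' _ hne
    rw [Finset.disjoint_left]
    intro q h1 h2
    obtain ⟨k, hk, hkC, hkq⟩ := mem_endCls.mp h1
    obtain ⟨k', hk', hkC', hkq'⟩ := mem_endCls.mp h2
    apply hne
    rw [← hkC, ← hkC']
    have h3 : sE k k' := Quotient.exact (hkq.trans hkq'.symm)
    exact Quotient.sound (hcomp k k' hk hk' h3)
  rw [← Finset.card_biUnion (fun C hC C' hC' hne => hdis C hC C' hC' hne)]
  unfold ncl
  rw [← Set.ncard_coe_finset]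
  refine Set.ncard_le_ncard ?_ (Set.toFinite _)
  intro q hq
  rw [Finset.mem_coe, Finset.mem_biUnion] at hq
  obtain ⟨C, _, hq⟩ := hq
  obtain ⟨k, hk, _, hkq⟩ := mem_endCls.mp hq
  exact ⟨k, hk, hkq⟩

theorem one_le_endCls [Finite LE] {sV : Setoid LV} {sE : Setoid LE} {PE : Set LE}
    {en : LE → LV} {C : Quotient sV} {k : LE} (hk : k ∈ PE) (hC : Quotient.mk sV (en k) = C) :
    1 ≤ (endCls sV sE PE en C).card :=
  Finset.card_pos.mpr ⟨Quotient.mk sE k, mem_endCls.mpr ⟨k, hk, hC, rfl⟩⟩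

theorem two_le_endCls [Finite LE] {sV : Setoid LV} {sE : Setoid LE} {PE : Set LE}
    {en : LE → LV} {C : Quotient sV} {k k' : LE} (hk : k ∈ PE) (hC : Quotient.mk sV (en k) = C)
    (hk' : k' ∈ PE) (hC' : Quotient.mk sV (en k') = C) (hne : ¬ sE k k') :
    2 ≤ (endCls sV sE PE en C).card := by
  have h : 1 < (endCls sV sE PE en C).card := by
    rw [Finset.one_lt_card]
    exact ⟨Quotient.mk sE k, mem_endCls.mpr ⟨k, hk, hC, rfl⟩, Quotient.mk sE k',
      mem_endCls.mpr ⟨k', hk', hC', rfl⟩, fun hq => hne (Quotient.exact hq)⟩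
  omega

end aux

open Classical in
/-- Finite combinatorial degree count. Directions are `Fin 2 × Bool`; `(s, true)` outgoing,
`(s, false)` incoming. `kk i d` is an edge label in direction `d` at the main sheet `v i`. -/
theorem degree_count {LV LE : Type} [Finite LV] [Finite LE]
    (sV : Setoid LV) (PV : Set LV)
    (sD : Fin 2 × Bool → Setoid LE) (PD : Fin 2 × Bool → Set LE) (en : Fin 2 × Bool → LE → LV)
    (hcomp : ∀ d k k', k ∈ PD d → k' ∈ PD d → sD d k k' → sV (en d k) (en d k'))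
    (hpres : ∀ d, ∀ k ∈ PD d, en d k ∈ PV)
    (hdeg2 : ∀ l ∈ PV, ∃ d d', d ≠ d' ∧ (∃ k ∈ PD d, en d k = l) ∧ ∃ k ∈ PD d', en d' k = l)
    (v : Fin 3 → LV)
    -- sheet 0: directions c+, c-, a-;  sheet 1: a+, a-, c-;  sheet 2: a+, c+
    (e0cp e0cm e0am e1ap e1am e1cm e2ap e2cp : LE)
    (h0cp : e0cp ∈ PD (1, true) ∧ en (1, true) e0cp = v 0)
    (h0cm : e0cm ∈ PD (1, false) ∧ en (1, false) e0cm = v 0)
    (h0am : e0am ∈ PD (0, false) ∧ en (0, false) e0am = v 0)
    (h1ap : e1ap ∈ PD (0, true) ∧ en (0, true) e1ap = v 1)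
    (h1am : e1am ∈ PD (0, false) ∧ en (0, false) e1am = v 1)
    (h1cm : e1cm ∈ PD (1, false) ∧ en (1, false) e1cm = v 1)
    (h2ap : e2ap ∈ PD (0, true) ∧ en (0, true) e2ap = v 2)
    (h2cp : e2cp ∈ PD (1, true) ∧ en (1, true) e2cp = v 2) :
    2 * ncl sV PV + 2 +
      (if ¬ sV (v 0) (v 1) ∧ (sV (v 1) (v 2) ∨ sV (v 0) (v 2)) then 1 else 0) +
      (if sV (v 0) (v 1) ∧ ¬ sD (0, false) e0am e1am then 1 else 0) +
      (if sV (v 0) (v 1) ∧ ¬ sD (1, false) e0cm e1cm then 1 else 0) ≤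
    ∑ d, ncl (sD d) (PD d) := by
  -- vertex classes
  set VC : Finset (Quotient sV) :=
    (Set.toFinite ((fun l => (Quotient.mk sV l)) '' PV)).toFinset with hVC
  have hncl : ncl sV PV = VC.card := by
    unfold ncl
    rw [hVC, Set.ncard_eq_toFinset_card _ (Set.toFinite _)]
  set m : Fin 2 × Bool → Quotient sV → ℕ := fun d C =>
    (endCls sV (sD d) (PD d) (en d) C).card with hm
  have hsum : ∑ C ∈ VC, ∑ d, m d C ≤ ∑ d, ncl (sD d) (PD d) := by
    rw [Finset.sum_comm]
    exact Finset.sum_le_sum (fun d _ => sum_endCls_le (hcomp d) VC)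
  have hmem : ∀ d, ∀ k ∈ PD d, Quotient.mk sV (en d k) ∈ VC := by
    intro d k hk
    rw [hVC, Set.Finite.mem_toFinset]
    exact ⟨en d k, hpres d k hk, rfl⟩
  have hone : ∀ d k l, k ∈ PD d → sV (en d k) l → 1 ≤ m d (Quotient.mk sV l) := by
    intro d k l hk hl
    exact one_le_endCls hk (Quotient.sound hl)
  have hdeg : ∀ C ∈ VC, 2 ≤ ∑ d, m d C := by
    intro C hC
    rw [hVC, Set.Finite.mem_toFinset] at hC
    obtain ⟨l, hl, rfl⟩ := hC
    obtain ⟨d, d', hdd, ⟨k, hk, hkl⟩, ⟨k', hk', hkl'⟩⟩ := hdeg2 l hl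
    have h1 : 1 ≤ m d (Quotient.mk sV l) := hone d k l hk (by rw [hkl])
    have h2 : 1 ≤ m d' (Quotient.mk sV l) := hone d' k' l hk' (by rw [hkl'])
    calc 2 ≤ m d (Quotient.mk sV l) + m d' (Quotient.mk sV l) := by omega
      _ = ∑ e ∈ ({d, d'} : Finset (Fin 2 × Bool)), m e (Quotient.mk sV l) := by
          rw [Finset.sum_pair hdd]
      _ ≤ ∑ e, m e (Quotient.mk sV l) :=
          Finset.sum_le_sum_of_subset (Finset.subset_univ _)
  have hexp : ∀ C, ∑ d, m d C = m (0, true) C + m (0, false) C + (m (1, true) C + m (1, false) C) := by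
    intro C
    rw [Fintype.sum_prod_type, Fin.sum_univ_two, Fintype.sum_bool, Fintype.sum_bool]
  set c0 := Quotient.mk sV (v 0) with hc0
  set c1 := Quotient.mk sV (v 1) with hc1
  set c2 := Quotient.mk sV (v 2) with hc2
  have hc0V : c0 ∈ VC := by rw [hc0, ← h0cp.2]; exact hmem _ _ h0cp.1
  have hc1V : c1 ∈ VC := by rw [hc1, ← h1ap.2]; exact hmem _ _ h1ap.1
  have a0cp : 1 ≤ m (1, true) c0 := one_le_endCls h0cp.1 (by rw [h0cp.2])
  have a0cm : 1 ≤ m (1, false) c0 := one_le_endCls h0cm.1 (by rw [h0cm.2])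
  have a0am : 1 ≤ m (0, false) c0 := one_le_endCls h0am.1 (by rw [h0am.2])
  have a1ap : 1 ≤ m (0, true) c1 := one_le_endCls h1ap.1 (by rw [h1ap.2])
  have a1am : 1 ≤ m (0, false) c1 := one_le_endCls h1am.1 (by rw [h1am.2])
  have a1cm : 1 ≤ m (1, false) c1 := one_le_endCls h1cm.1 (by rw [h1cm.2])
  have a2ap : 1 ≤ m (0, true) c2 := one_le_endCls h2ap.1 (by rw [h2ap.2])
  have a2cp : 1 ≤ m (1, true) c2 := one_le_endCls h2cp.1 (by rw [h2cp.2])
  have i01 : sV (v 0) (v 1) ↔ c0 = c1 := ⟨fun h => Quotient.sound h, fun h => Quotient.exact h⟩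
  have i12 : sV (v 1) (v 2) ↔ c1 = c2 := ⟨fun h => Quotient.sound h, fun h => Quotient.exact h⟩
  have i02 : sV (v 0) (v 2) ↔ c0 = c2 := ⟨fun h => Quotient.sound h, fun h => Quotient.exact h⟩
  rw [hncl]
  by_cases h01 : c0 = c1
  · -- one class
    have hs01 := i01.mpr h01
    rw [if_neg (by tauto)]
    set x : ℕ := (if sV (v 0) (v 1) ∧ ¬ sD (0, false) e0am e1am then 1 else 0) +
      (if sV (v 0) (v 1) ∧ ¬ sD (1, false) e0cm e1cm then 1 else 0) with hx
    have hx1 : (if sV (v 0) (v 1) ∧ ¬ sD (0, false) e0am e1am then 1 else 0) + 1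
        ≤ m (0, false) c0 := by
      by_cases h : sV (v 0) (v 1) ∧ ¬ sD (0, false) e0am e1am
      · rw [if_pos h]
        exact two_le_endCls h0am.1 (by rw [h0am.2]) h1am.1 (by rw [h1am.2]; exact h01.symm) h.2
      · rw [if_neg h]; exact a0am
    have hx2 : (if sV (v 0) (v 1) ∧ ¬ sD (1, false) e0cm e1cm then 1 else 0) + 1
        ≤ m (1, false) c0 := by
      by_cases h : sV (v 0) (v 1) ∧ ¬ sD (1, false) e0cm e1cm
      · rw [if_pos h]
        exact two_le_endCls h0cm.1 (by rw [h0cm.2]) h1cm.1 (by rw [h1cm.2]; exact h01.symm) h.2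
      · rw [if_neg h]; exact a0cm
    have a1ap' : 1 ≤ m (0, true) c0 := by rw [h01]; exact a1ap
    have hC0 : 4 + x ≤ ∑ d, m d c0 := by
      rw [hexp]
      omega
    have hall : ∀ C ∈ VC, 2 + (if C = c0 then 2 + x else 0) ≤ ∑ d, m d C := by
      intro C hC
      split_ifs with h
      · rw [h]; omega
      · have := hdeg C hC
        omega
    have h3 := Finset.sum_le_sum hall
    rw [Finset.sum_add_distrib, Finset.sum_const, smul_eq_mul, Finset.sum_ite_eq' VC c0,
      if_pos hc0V] at h3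
    omega
  · -- two classes
    have hs01 : ¬ sV (v 0) (v 1) := fun h => h01 (i01.mp h)
    have e1 : (if sV (v 0) (v 1) ∧ ¬ sD (0, false) e0am e1am then 1 else 0) = 0 :=
      if_neg (fun h => hs01 h.1)
    have e2 : (if sV (v 0) (v 1) ∧ ¬ sD (1, false) e0cm e1cm then 1 else 0) = 0 :=
      if_neg (fun h => hs01 h.1)
    rw [e1, e2]
    have hC0 : 3 + (if c0 = c2 then 1 else 0) ≤ ∑ d, m d c0 := by
      rw [hexp]
      split_ifs with h
      · have : 1 ≤ m (0, true) c0 := by rw [h]; exact a2ap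
        omega
      · omega
    have hC1 : 3 + (if c1 = c2 then 1 else 0) ≤ ∑ d, m d c1 := by
      rw [hexp]
      split_ifs with h
      · have : 1 ≤ m (1, true) c1 := by rw [h]; exact a2cp
        omega
      · omega
    have hall : ∀ C ∈ VC, 2 + ((if C = c0 then 1 + (if c0 = c2 then 1 else 0) else 0)
        + (if C = c1 then 1 + (if c1 = c2 then 1 else 0) else 0)) ≤ ∑ d, m d C := by
      intro C hC
      by_cases h0 : C = c0
      · have h1 : C ≠ c1 := fun h => h01 (h0.symm.trans h)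
        rw [if_pos h0, if_neg h1, h0]
        omega
      · rw [if_neg h0]
        by_cases h1 : C = c1
        · rw [if_pos h1, h1]
          omega
        · rw [if_neg h1]
          have := hdeg C hC
          omega
    have h3 := Finset.sum_le_sum hall
    rw [Finset.sum_add_distrib, Finset.sum_add_distrib, Finset.sum_const, smul_eq_mul,
      Finset.sum_ite_eq' VC c0, if_pos hc0V, Finset.sum_ite_eq' VC c1, if_pos hc1V] at h3
    have h4 : (if ¬ sV (v 0) (v 1) ∧ (sV (v 1) (v 2) ∨ sV (v 0) (v 2)) then 1 else 0) ≤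
        (if c0 = c2 then 1 else 0) + (if c1 = c2 then 1 else 0) := by
      rw [i12, i02]
      split_ifs <;> first | omega | (exfalso; tauto)
    omega

end Vale.Agent.P189
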