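/-
P189, Step B: systems of sheets over the Cayley tree of the free group `F2`.

`F2` acts on `X`.  Over every `x : X` there are finitely many vertex sheets (labels `LV`, present on
`PV l`) and edge sheets (labels `LE`, present on `PE k`).  The edge sheet `k` over `y` joins
`(y, src k)` to `(of (ty k) • y, tgt k)`.
Main vertex sheets `v 0, v 1, v 2` over `x`: the cosets `C x, C a x, C a^2 x`.
Main edge sheets: a: `(y, v 1) → (a y, v 0)`, a: `(y, v 2) → (a y, v 1)`,
                  c: `(y, v 0) → (c y, v 0)`, c: `(y, v 2) → (c y, v 1)`   (b a^2 = a c, b = a c a^-2).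
-/
import Vale.Agent.P189.Basic
import Vale.Agent.P189.Join

open MeasureTheory Set
open scoped Pointwise ENNReal

namespace Vale.Agent.P189

/-- The free group on two generators. -/
abbrev F2 : Type := FreeGroup (Fin 2)

/-- generators: `ge 0 = a`, `ge 1 = c`. -/
abbrev ge (s : Fin 2) : F2 := FreeGroup.of s

/-- `b = a c a⁻²`. -/
def gb : F2 := ge 0 * ge 1 * (ge 0)⁻¹ * (ge 0)⁻¹

/-- `C = ⟨b, c⟩`. -/
def CC : Subgroup F2 := Subgroup.closure {gb, ge 1}

structure Sheets (X : Type) [MulAction F2 X] [MeasurableSpace X] where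
  LV : Type
  LE : Type
  fLV : Fintype LV
  fLE : Fintype LE
  ty : LE → Fin 2
  src : LE → LV
  tgt : LE → LV
  PV : LV → Set X
  PE : LE → Set X
  measPV : ∀ l, MeasurableSet (PV l)
  measPE : ∀ k, MeasurableSet (PE k)
  src_mem : ∀ k, ∀ y ∈ PE k, y ∈ PV (src k)
  tgt_mem : ∀ k, ∀ y ∈ PE k, ge (ty k) • y ∈ PV (tgt k)
  /-- main vertex sheets -/
  v : Fin 3 → LV
  v_inj : Function.Injective v
  PV_v : ∀ i, PV (v i) = univ
  /-- main edge sheets -/
  e : Fin 4 → LE
  PE_e : ∀ j, PE (e j) = univ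
  ty_e : ∀ j, ty (e j) = if j = 0 ∨ j = 1 then 0 else 1
  src_e : ∀ j, src (e j) = v (if j = 0 then 1 else if j = 1 then 2 else if j = 2 then 0 else 2)
  tgt_e : ∀ j, tgt (e j) = v (if j = 0 then 0 else if j = 1 then 1 else if j = 2 then 0 else 1)
  /-- every present vertex sheet has edges in two distinct directions; a direction is `(s, true)`
  (outgoing along generator `s`) or `(s, false)` (incoming along generator `s`). -/
  deg2 : ∀ l, ∀ x ∈ PV l, ∃ d d' : Fin 2 × Bool, d ≠ d' ∧
    (∀ i ∈ ({d, d'} : Set (Fin 2 × Bool)), ∃ k, ty k = i.1 ∧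
      ((i.2 = true ∧ src k = l ∧ x ∈ PE k) ∨ (i.2 = false ∧ tgt k = l ∧ (ge i.1)⁻¹ • x ∈ PE k)))

namespace Sheets

variable {X : Type} [MulAction F2 X] [MeasurableSpace X]

attribute [instance] Sheets.fLV Sheets.fLE

/-- A family of setoids on vertex sheets is closed (completely folded): edge sheets with the same
base and type have equivalent sources iff they have equivalent targets. -/
def Closed (S : Sheets X) (sV : X → Setoid S.LV) : Prop :=
  ∀ y k k', S.ty k = S.ty k' → y ∈ S.PE k → y ∈ S.PE k' →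
    (sV y (S.src k) (S.src k') ↔ sV (ge (S.ty k) • y) (S.tgt k) (S.tgt k'))

/-- Walks along a word; the first letter of the list is applied first.  Over every vertex we may
change the sheet within its `sV`-class. -/
def Walk (S : Sheets X) (sV : X → Setoid S.LV) : List (Fin 2 × Bool) → X → S.LV → S.LV → Prop
  | [], x, l, l' => sV x l l'
  | (s, true) :: w, x, l, l' => ∃ k, S.ty k = s ∧ x ∈ S.PE k ∧ sV x l (S.src k) ∧
      Walk S sV w (ge s • x) (S.tgt k) l'
  | (s, false) :: w, x, l, l' => ∃ k, S.ty k = s ∧ (ge s)⁻¹ • x ∈ S.PE k ∧ sV x l (S.tgt k) ∧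
      Walk S sV w ((ge s)⁻¹ • x) (S.src k) l'

/-- `(x, l)` is joined to `(g • x, l')` by a walk with group element `g`. -/
def Conn (S : Sheets X) (sV : X → Setoid S.LV) (g : F2) (x : X) (l l' : S.LV) : Prop :=
  ∃ w : List (Fin 2 × Bool), FreeGroup.mk w.reverse = g ∧ S.Walk sV w x l l'

end Sheets

end Vale.Agent.P189
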