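/-
P189, Step B: the folding process.

State: setoids `sV x` on vertex labels and `sE y` on edge labels, for all points.
A move `(k, k', i)` with `ty k = ty k'`: on `Q = {y ∈ Λ i | y ∈ PE k, y ∈ PE k', sV y (src k) (src k')
or sV (ge (ty k) • y) (tgt k) (tgt k')}` join `k, k'` in `sE y`, `src k, src k'` in `sV y` and
`tgt k, tgt k'` in `sV (ge (ty k) • y)`.
Every move keeps `Inv`; it changes `μ {x | sV x (v 0) (v 1)}` by at most ... (see note): the set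
`K` grows only inside `Q ∪ ge (ty k) • Q`, measure at most `2 μ (Λ i)`.
Moves are performed in a sequence hitting every move infinitely often; the limit is `Closed`.
-/
import Vale.Agent.P189.Sheets

open MeasureTheory Set
open scoped Pointwise ENNReal

namespace Vale.Agent.P189

section Cj

variable {L : Type}

open Classical in
/-- Conditional join. -/
noncomputable def cj (p : Prop) (s : Setoid L) (u v : L) : Setoid L := if p then join s u v else s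

theorem cj_iff {p : Prop} {s : Setoid L} {u v x y : L} :
    cj p s u v x y ↔ s x y ∨ (p ∧ ((s x u ∧ s v y) ∨ (s x v ∧ s u y))) := by
  unfold cj
  by_cases h : p
  · rw [if_pos h]
    simp only [join_iff, h, true_and]
  · rw [if_neg h]
    simp only [h, false_and, or_false]

theorem le_cj (p : Prop) (s : Setoid L) (u v : L) : s ≤ cj p s u v :=
  fun _ _ h => cj_iff.2 (Or.inl h)

theorem cj_mem {p : Prop} (hp : p) (s : Setoid L) (u v : L) : cj p s u v u v :=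
  cj_iff.2 (Or.inr ⟨hp, Or.inl ⟨s.refl u, s.refl v⟩⟩)

theorem cj_le {p : Prop} {s t : Setoid L} {u v : L} (h : s ≤ t) (huv : p → t u v) :
    cj p s u v ≤ t := by
  unfold cj
  split_ifs with hp
  · exact join_le h (huv hp)
  · exact h

theorem ncl_cj_of_mem {p : Prop} {s : Setoid L} {u v : L} (h : s u v) : cj p s u v = s := by
  unfold cj
  split_ifs
  · exact join_self h
  · rfl

theorem ncl_le_cj [Finite L] (p : Prop) (s : Setoid L) (u v : L) (P : Set L) :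
    ncl s P ≤ ncl (cj p s u v) P + 1 := by
  unfold cj
  split_ifs with hp
  · exact ncl_le_join_add_one s u v P
  · omega

theorem ncl_cj_of_not {p : Prop} (hp : ¬ p) (s : Setoid L) (u v : L) : cj p s u v = s := by
  unfold cj
  rw [if_neg hp]

/-- upper estimate of the loss -/
theorem ncl_le_cj_ind [Finite L] {X : Type} {A : Set X} {x : X} (p : Prop) (s : Setoid L)
    (u v : L) (P : Set L) (hA : p → ¬ s u v → x ∈ A) :
    (ncl s P : ℝ≥0∞) ≤ (ncl (cj p s u v) P : ℝ≥0∞) + A.indicator (fun _ => 1) x := by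
  by_cases hp : p
  · by_cases h : s u v
    · rw [ncl_cj_of_mem h]
      exact le_self_add
    · rw [indicator_of_mem (hA hp h)]
      exact_mod_cast ncl_le_cj p s u v P
  · rw [ncl_cj_of_not hp]
    exact le_self_add

/-- lower estimate of the loss -/
theorem ncl_cj_ind_le [Finite L] {X : Type} {A : Set X} {x : X} (p : Prop) (s : Setoid L)
    (u v : L) (P : Set L) (hP : p → u ∈ P ∧ v ∈ P) (hA : x ∈ A → p ∧ ¬ s u v) :
    (ncl (cj p s u v) P : ℝ≥0∞) + A.indicator (fun _ => 1) x ≤ (ncl s P : ℝ≥0∞) := by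
  by_cases hx : x ∈ A
  · obtain ⟨hp, h⟩ := hA hx
    rw [indicator_of_mem hx]
    have := ncl_join_add_one_le (hP hp).1 (hP hp).2 h
    unfold cj
    rw [if_pos hp]
    exact_mod_cast this
  · rw [indicator_of_notMem hx, add_zero]
    exact_mod_cast ncl_anti (le_cj p s u v) P

theorem meas_cj {X : Type} [MeasurableSpace X] {Q : Set X} (hQ : MeasurableSet Q)
    {s : X → Setoid L} (hs : ∀ l l', MeasurableSet {x | s x l l'}) (u v l l' : L) :
    MeasurableSet {x | cj (x ∈ Q) (s x) u v l l'} := by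
  have : {x | cj (x ∈ Q) (s x) u v l l'} = {x | s x l l'} ∪ (Q ∩
      (({x | s x l u} ∩ {x | s x v l'}) ∪ ({x | s x l v} ∩ {x | s x u l'}))) := by
    ext x
    simp only [mem_ofPred_eq, cj_iff, mem_union, mem_inter_iff]
  rw [this]
  exact (hs _ _).union (hQ.inter (((hs _ _).inter (hs _ _)).union ((hs _ _).inter (hs _ _))))

theorem pres_cj {p : Prop} {s : Setoid L} {u v : L} {P : L → Prop}
    (hs : ∀ l l', s l l' → l = l' ∨ (P l ∧ P l')) (hp : p → P u ∧ P v) (l l' : L)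
    (h : cj p s u v l l') : l = l' ∨ (P l ∧ P l') := by
  have key : ∀ {a b : L}, s a b → P b → P a := by
    intro a b hab hb
    rcases hs a b hab with rfl | ⟨h1, _⟩
    · exact hb
    · exact h1
  rcases cj_iff.1 h with h | ⟨hp', ⟨h1, h2⟩ | ⟨h1, h2⟩⟩
  · exact hs l l' h
  · exact Or.inr ⟨key h1 (hp hp').1, key (s.symm h2) (hp hp').2⟩
  · exact Or.inr ⟨key h1 (hp hp').2, key (s.symm h2) (hp hp').1⟩

end Cj

namespace Sheets

variable {X : Type} [MulAction F2 X] [MeasurableSpace X]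

/-- A state of the folding process. -/
structure St (S : Sheets X) where
  sV : X → Setoid S.LV
  sE : X → Setoid S.LE

/-- Invariants of a state. -/
structure Inv (S : Sheets X) (μ : Measure X) (st : S.St) : Prop where
  measV : ∀ l l', MeasurableSet {x | st.sV x l l'}
  measE : ∀ k k', MeasurableSet {y | st.sE y k k'}
  presV : ∀ x l l', st.sV x l l' → l = l' ∨ (x ∈ S.PV l ∧ x ∈ S.PV l')
  compat : ∀ y k k', st.sE y k k' → k = k' ∨ (S.ty k = S.ty k' ∧ y ∈ S.PE k ∧ y ∈ S.PE k' ∧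
    st.sV y (S.src k) (S.src k') ∧ st.sV (ge (S.ty k) • y) (S.tgt k) (S.tgt k'))
  count : ∫⁻ y, (ncl (st.sE y) {k | y ∈ S.PE k} : ℝ≥0∞) ∂μ + ∑ l, μ (S.PV l) ≤
    ∫⁻ x, (ncl (st.sV x) {l | x ∈ S.PV l} : ℝ≥0∞) ∂μ + ∑ k, μ (S.PE k)

/-- The greatest edge setoid compatible with `sV`. -/
def tE (S : Sheets X) (sV : X → Setoid S.LV) (y : X) : Setoid S.LE where
  r k k' := k = k' ∨ (S.ty k = S.ty k' ∧ y ∈ S.PE k ∧ y ∈ S.PE k' ∧
    sV y (S.src k) (S.src k') ∧ sV (ge (S.ty k) • y) (S.tgt k) (S.tgt k'))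
  iseqv := by
    refine ⟨fun k => Or.inl rfl, ?_, ?_⟩
    · rintro k k' (rfl | ⟨h1, h2, h3, h4, h5⟩)
      · exact Or.inl rfl
      · refine Or.inr ⟨h1.symm, h3, h2, (sV _).symm h4, ?_⟩
        rw [← h1]
        exact (sV _).symm h5
    · rintro k k' k'' (rfl | ⟨h1, h2, h3, h4, h5⟩) (rfl | ⟨k1, k2, k3, k4, k5⟩)
      · exact Or.inl rfl
      · exact Or.inr ⟨k1, k2, k3, k4, k5⟩
      · exact Or.inr ⟨h1, h2, h3, h4, h5⟩
      · refine Or.inr ⟨h1.trans k1, h2, k3, (sV _).trans h4 k4, (sV _).trans h5 ?_⟩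
        rw [h1]
        exact k5

theorem tE_iff (S : Sheets X) (sV : X → Setoid S.LV) (y : X) (k k' : S.LE) :
    S.tE sV y k k' ↔ k = k' ∨ (S.ty k = S.ty k' ∧ y ∈ S.PE k ∧ y ∈ S.PE k' ∧
    sV y (S.src k) (S.src k') ∧ sV (ge (S.ty k) • y) (S.tgt k) (S.tgt k')) := Iff.rfl

/-- The set on which the move `(k, k', i)` acts. -/
def Qs (S : Sheets X) (Λ : ℕ → Set X) (st : S.St) (k k' : S.LE) (i : ℕ) : Set X :=
  {y | S.ty k = S.ty k' ∧ y ∈ Λ i ∧ y ∈ S.PE k ∧ y ∈ S.PE k' ∧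
    (st.sV y (S.src k) (S.src k') ∨ st.sV (ge (S.ty k) • y) (S.tgt k) (S.tgt k'))}

/-- The move `(k, k', i)`. -/
noncomputable def mv (S : Sheets X) (Λ : ℕ → Set X) (st : S.St) (k k' : S.LE) (i : ℕ) : S.St where
  sV x := cj (x ∈ (fun x => (ge (S.ty k))⁻¹ • x) ⁻¹' S.Qs Λ st k k' i)
    (cj (x ∈ S.Qs Λ st k k' i) (st.sV x) (S.src k) (S.src k')) (S.tgt k) (S.tgt k')
  sE y := cj (y ∈ S.Qs Λ st k k' i) (st.sE y) k k'

section Move

variable (S : Sheets X) (Λ : ℕ → Set X) (st : S.St) (k k' : S.LE) (i : ℕ)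

theorem mv_mono (x : X) : st.sV x ≤ (S.mv Λ st k k' i).sV x :=
  le_trans (le_cj _ _ _ _) (le_cj _ _ _ _)

theorem mv_src {y : X} (hy : y ∈ S.Qs Λ st k k' i) :
    (S.mv Λ st k k' i).sV y (S.src k) (S.src k') :=
  le_cj _ _ _ _ (cj_mem hy _ _ _)

theorem mv_tgt {y : X} (hy : y ∈ S.Qs Λ st k k' i) :
    (S.mv Λ st k k' i).sV (ge (S.ty k) • y) (S.tgt k) (S.tgt k') := by
  refine cj_mem ?_ _ _ _
  simpa using hy

variable [MeasurableConstSMul F2 X]

theorem meas_Qs (hΛ : ∀ i, MeasurableSet (Λ i)) (hV : ∀ l l', MeasurableSet {x | st.sV x l l'}) :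
    MeasurableSet (S.Qs Λ st k k' i) := by
  by_cases h : S.ty k = S.ty k'
  · have : S.Qs Λ st k k' i = Λ i ∩ (S.PE k ∩ (S.PE k' ∩ ({y | st.sV y (S.src k) (S.src k')} ∪
        (fun y => ge (S.ty k) • y) ⁻¹' {x | st.sV x (S.tgt k) (S.tgt k')}))) := by
      ext y
      simp only [Qs, mem_ofPred_eq, mem_inter_iff, mem_union, mem_preimage]
      exact ⟨fun h2 => h2.2, fun h2 => ⟨h, h2⟩⟩
    rw [this]
    exact (hΛ i).inter ((S.measPE k).inter ((S.measPE k').inter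
      ((hV _ _).union (measurable_const_smul _ (hV _ _)))))
  · have : S.Qs Λ st k k' i = ∅ := by
      ext y
      simp only [Qs, mem_ofPred_eq, h, false_and, mem_empty_iff_false]
    rw [this]
    exact MeasurableSet.empty

variable {S st} {μ : Measure X}

theorem mv_measV (hΛ : ∀ i, MeasurableSet (Λ i)) (h : S.Inv μ st) (l l' : S.LV) :
    MeasurableSet {x | (S.mv Λ st k k' i).sV x l l'} := by
  have hQ := S.meas_Qs Λ st k k' i hΛ h.measV
  exact meas_cj (measurable_const_smul _ hQ) (fun l l' => meas_cj hQ h.measV _ _ l l') _ _ _ _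

theorem mv_measE (hΛ : ∀ i, MeasurableSet (Λ i)) (h : S.Inv μ st) (l l' : S.LE) :
    MeasurableSet {x | (S.mv Λ st k k' i).sE x l l'} :=
  meas_cj (S.meas_Qs Λ st k k' i hΛ h.measV) h.measE _ _ _ _

omit [MeasurableConstSMul F2 X] in
theorem mv_presV (h : S.Inv μ st) (x : X) (l l' : S.LV)
    (hl : (S.mv Λ st k k' i).sV x l l') : l = l' ∨ (x ∈ S.PV l ∧ x ∈ S.PV l') := by
  refine pres_cj (P := fun l => x ∈ S.PV l) (pres_cj (h.presV x) ?_) ?_ l l' hl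
  · rintro ⟨_, _, h1, h2, _⟩
    exact ⟨S.src_mem k x h1, S.src_mem k' x h2⟩
  · rintro ⟨h0, _, h1, h2, _⟩
    constructor
    · have := S.tgt_mem k _ h1
      simpa using this
    · have := S.tgt_mem k' _ h2
      rw [← h0] at this
      simpa using this

omit [MeasurableConstSMul F2 X] in
theorem mv_compat (h : S.Inv μ st) (y : X) :
    (S.mv Λ st k k' i).sE y ≤ S.tE (S.mv Λ st k k' i).sV y := by
  refine cj_le ?_ ?_
  · intro l l' hl
    rcases h.compat y l l' hl with h1 | ⟨h1, h2, h3, h4, h5⟩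
    · exact Or.inl h1
    · exact Or.inr ⟨h1, h2, h3, S.mv_mono Λ st k k' i _ h4, S.mv_mono Λ st k k' i _ h5⟩
  · intro hy
    exact Or.inr ⟨hy.1, hy.2.2.1, hy.2.2.2.1, S.mv_src Λ st k k' i hy, S.mv_tgt Λ st k k' i hy⟩

theorem mv_ab (h : S.Inv μ st) (hΛ : ∀ i, MeasurableSet (Λ i)) :
    μ {y | y ∈ S.Qs Λ st k k' i ∧ ¬ st.sV y (S.src k) (S.src k')} +
      μ {y | y ∈ S.Qs Λ st k k' i ∧ ¬ st.sV (ge (S.ty k) • y) (S.tgt k) (S.tgt k')} ≤
    μ {y | y ∈ S.Qs Λ st k k' i ∧ ¬ st.sE y k k'} := by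
  have hQ := S.meas_Qs Λ st k k' i hΛ h.measV
  rw [← measure_union]
  · refine measure_mono ?_
    rintro y (⟨h1, h2⟩ | ⟨h1, h2⟩)
    · refine ⟨h1, fun h3 => h2 ?_⟩
      rcases h.compat y k k' h3 with rfl | h4
      · exact (st.sV y).refl _
      · exact h4.2.2.2.1
    · refine ⟨h1, fun h3 => h2 ?_⟩
      rcases h.compat y k k' h3 with rfl | h4
      · exact (st.sV _).refl _
      · exact h4.2.2.2.2
  · rw [Set.disjoint_left]
    rintro y ⟨h1, h2⟩ ⟨h3, h4⟩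
    rcases h1.2.2.2.2 with h5 | h5
    · exact h2 h5
    · exact h4 h5
  · exact hQ.inter (measurable_const_smul (ge (S.ty k)) (h.measV (S.tgt k) (S.tgt k'))).compl

theorem mv_lossV [SMulInvariantMeasure F2 X μ] (h : S.Inv μ st) (hΛ : ∀ i, MeasurableSet (Λ i)) :
    ∫⁻ x, (ncl (st.sV x) {l | x ∈ S.PV l} : ℝ≥0∞) ∂μ ≤
    ∫⁻ x, (ncl ((S.mv Λ st k k' i).sV x) {l | x ∈ S.PV l} : ℝ≥0∞) ∂μ +
      (μ {y | y ∈ S.Qs Λ st k k' i ∧ ¬ st.sV y (S.src k) (S.src k')} +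
      μ {y | y ∈ S.Qs Λ st k k' i ∧ ¬ st.sV (ge (S.ty k) • y) (S.tgt k) (S.tgt k')}) := by
  have hQ := S.meas_Qs Λ st k k' i hΛ h.measV
  have hA : MeasurableSet {y | y ∈ S.Qs Λ st k k' i ∧ ¬ st.sV y (S.src k) (S.src k')} :=
    hQ.inter (h.measV _ _).compl
  have hB : MeasurableSet {y | y ∈ S.Qs Λ st k k' i ∧
      ¬ st.sV (ge (S.ty k) • y) (S.tgt k) (S.tgt k')} :=
    hQ.inter (measurable_const_smul (ge (S.ty k)) (h.measV (S.tgt k) (S.tgt k'))).compl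
  have hB' := measurable_const_smul (ge (S.ty k))⁻¹ hB
  rw [← measure_preimage_smul μ (ge (S.ty k))⁻¹ {y | y ∈ S.Qs Λ st k k' i ∧
      ¬ st.sV (ge (S.ty k) • y) (S.tgt k) (S.tgt k')}]
  rw [← one_mul (μ {y | y ∈ S.Qs Λ st k k' i ∧ ¬ st.sV y (S.src k) (S.src k')}),
    ← lintegral_indicator_const hA 1]
  rw [← one_mul (μ ((fun x => (ge (S.ty k))⁻¹ • x) ⁻¹' _)), ← lintegral_indicator_const hB' 1]
  rw [← add_assoc, ← lintegral_add_right _ (measurable_const.indicator hA),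
    ← lintegral_add_right _ (measurable_const.indicator hB')]
  refine lintegral_mono fun x => ?_
  refine le_trans (ncl_le_cj_ind (A := {y | y ∈ S.Qs Λ st k k' i ∧
    ¬ st.sV y (S.src k) (S.src k')}) (x := x) (x ∈ S.Qs Λ st k k' i) (st.sV x) (S.src k)
    (S.src k') _ fun h1 h2 => ⟨h1, h2⟩) ?_
  rw [add_right_comm]
  refine add_le_add ?_ le_rfl
  refine ncl_le_cj_ind (A := (fun x => (ge (S.ty k))⁻¹ • x) ⁻¹' {y | y ∈ S.Qs Λ st k k' i ∧
      ¬ st.sV (ge (S.ty k) • y) (S.tgt k) (S.tgt k')}) (x := x)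
      (x ∈ (fun x => (ge (S.ty k))⁻¹ • x) ⁻¹' S.Qs Λ st k k' i)
      (cj (x ∈ S.Qs Λ st k k' i) (st.sV x) (S.src k) (S.src k')) (S.tgt k) (S.tgt k') _ ?_
  intro h1 h2
  refine ⟨h1, fun h3 => h2 (le_cj _ _ _ _ ?_)⟩
  rwa [smul_inv_smul] at h3

theorem mv_lossE (h : S.Inv μ st) (hΛ : ∀ i, MeasurableSet (Λ i)) :
    ∫⁻ y, (ncl ((S.mv Λ st k k' i).sE y) {k | y ∈ S.PE k} : ℝ≥0∞) ∂μ +
      μ {y | y ∈ S.Qs Λ st k k' i ∧ ¬ st.sE y k k'} ≤
    ∫⁻ y, (ncl (st.sE y) {k | y ∈ S.PE k} : ℝ≥0∞) ∂μ := by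
  have hQ := S.meas_Qs Λ st k k' i hΛ h.measV
  have hR : MeasurableSet {y | y ∈ S.Qs Λ st k k' i ∧ ¬ st.sE y k k'} :=
    hQ.inter (h.measE _ _).compl
  rw [← one_mul (μ _), ← lintegral_indicator_const hR 1,
    ← lintegral_add_right _ (measurable_const.indicator hR)]
  refine lintegral_mono fun y => ?_
  exact ncl_cj_ind_le (y ∈ S.Qs Λ st k k' i) (st.sE y) k k' _ (fun h => ⟨h.2.2.1, h.2.2.2.1⟩)
    fun h => ⟨h.1, h.2⟩

theorem mv_inv [IsProbabilityMeasure μ] [SMulInvariantMeasure F2 X μ] (h : S.Inv μ st)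
    (hΛ : ∀ i, MeasurableSet (Λ i)) : S.Inv μ (S.mv Λ st k k' i) where
  measV := mv_measV Λ k k' i hΛ h
  measE := mv_measE Λ k k' i hΛ h
  presV := mv_presV Λ k k' i h
  compat := fun y l l' hl => mv_compat Λ k k' i h y hl
  count := by
    have h1 := mv_ab Λ k k' i h hΛ
    have h2 := mv_lossV Λ k k' i h hΛ
    have h3 := mv_lossE Λ k k' i h hΛ
    have h4 := h.count
    have hfin : μ {y | y ∈ S.Qs Λ st k k' i ∧ ¬ st.sE y k k'} ≠ ∞ := measure_ne_top _ _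
    rw [← ENNReal.add_le_add_iff_right hfin]
    calc ∫⁻ y, (ncl ((S.mv Λ st k k' i).sE y) {k | y ∈ S.PE k} : ℝ≥0∞) ∂μ + ∑ l, μ (S.PV l) +
        μ {y | y ∈ S.Qs Λ st k k' i ∧ ¬ st.sE y k k'}
        = (∫⁻ y, (ncl ((S.mv Λ st k k' i).sE y) {k | y ∈ S.PE k} : ℝ≥0∞) ∂μ +
        μ {y | y ∈ S.Qs Λ st k k' i ∧ ¬ st.sE y k k'}) + ∑ l, μ (S.PV l) := add_right_comm _ _ _
      _ ≤ ∫⁻ y, (ncl (st.sE y) {k | y ∈ S.PE k} : ℝ≥0∞) ∂μ + ∑ l, μ (S.PV l) :=
        add_le_add h3 le_rfl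
      _ ≤ _ := h4
      _ ≤ _ := add_le_add h2 le_rfl
      _ ≤ _ := add_le_add (add_le_add le_rfl h1) le_rfl
      _ = _ := add_right_comm _ _ _

omit [MeasurableConstSMul F2 X] in
theorem mv_K [SMulInvariantMeasure F2 X μ] (hm : ∀ i, μ (Λ i) ≤ 1 / 12) (l l' : S.LV) :
    μ {x | (S.mv Λ st k k' i).sV x l l'} ≤ μ {x | st.sV x l l'} + 1 / 6 := by
  have hQ : μ (S.Qs Λ st k k' i) ≤ 1 / 12 :=
    le_trans (measure_mono fun y hy => hy.2.1) (hm i)
  have hsub : {x | (S.mv Λ st k k' i).sV x l l'} ⊆ {x | st.sV x l l'} ∪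
      (S.Qs Λ st k k' i ∪ (fun x => (ge (S.ty k))⁻¹ • x) ⁻¹' S.Qs Λ st k k' i) := by
    intro x hx
    by_cases h1 : x ∈ S.Qs Λ st k k' i
    · exact Or.inr (Or.inl h1)
    by_cases h2 : x ∈ (fun x => (ge (S.ty k))⁻¹ • x) ⁻¹' S.Qs Λ st k k' i
    · exact Or.inr (Or.inr h2)
    · left
      change cj (x ∈ (fun x => (ge (S.ty k))⁻¹ • x) ⁻¹' S.Qs Λ st k k' i)
        (cj (x ∈ S.Qs Λ st k k' i) (st.sV x) (S.src k) (S.src k')) (S.tgt k) (S.tgt k') l l' at hx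
      rw [ncl_cj_of_not h2, ncl_cj_of_not h1] at hx
      exact hx
  calc μ {x | (S.mv Λ st k k' i).sV x l l'} ≤ μ ({x | st.sV x l l'} ∪
      (S.Qs Λ st k k' i ∪ (fun x => (ge (S.ty k))⁻¹ • x) ⁻¹' S.Qs Λ st k k' i)) :=
        measure_mono hsub
    _ ≤ μ {x | st.sV x l l'} + (μ (S.Qs Λ st k k' i) +
        μ ((fun x => (ge (S.ty k))⁻¹ • x) ⁻¹' S.Qs Λ st k k' i)) :=
        (measure_union_le _ _).trans (add_le_add le_rfl (measure_union_le _ _))
    _ ≤ μ {x | st.sV x l l'} + (1 / 12 + 1 / 12) := by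
        rw [measure_preimage_smul]
        exact add_le_add le_rfl (add_le_add hQ hQ)
    _ = μ {x | st.sV x l l'} + 1 / 6 := by
        congr 1
        rw [ENNReal.div_add_div_same, show (1 : ℝ≥0∞) + 1 = 2 by norm_num]
        rw [ENNReal.div_eq_div_iff (by norm_num) (by norm_num) (by norm_num) (by norm_num)]
        norm_num

end Move

/-- The initial state. -/
def st0 (S : Sheets X) : S.St := ⟨fun _ => ⊥, fun _ => ⊥⟩

omit [MulAction F2 X] in
theorem lintegral_count {L : Type} [Fintype L] (P : L → Set X) (hP : ∀ l, MeasurableSet (P l))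
    (μ : Measure X) :
    ∫⁻ x, (ncl (⊥ : Setoid L) {l | x ∈ P l} : ℝ≥0∞) ∂μ = ∑ l, μ (P l) := by
  classical
  have h : ∀ x, (ncl (⊥ : Setoid L) {l | x ∈ P l} : ℝ≥0∞) = ∑ l, (P l).indicator (fun _ => 1) x := by
    intro x
    rw [ncl_bot, Set.ncard_eq_toFinset_card']
    simp only [Set.indicator_apply, Finset.sum_boole]
    congr 2
    ext l
    simp
  simp_rw [h]
  rw [lintegral_finsetSum _ fun l _ => measurable_const.indicator (hP l)]
  refine Finset.sum_congr rfl fun l _ => ?_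
  rw [lintegral_indicator_const (hP l), one_mul]

theorem st0_inv (S : Sheets X) (μ : Measure X) : S.Inv μ S.st0 where
  measV := fun l l' => MeasurableSet.const (l = l')
  measE := fun l l' => MeasurableSet.const (l = l')
  presV := fun x l l' h => Or.inl h
  compat := fun x l l' h => Or.inl h
  count := by
    have h1 : ∫⁻ y, (ncl (S.st0.sE y) {k | y ∈ S.PE k} : ℝ≥0∞) ∂μ = ∑ k, μ (S.PE k) :=
      lintegral_count S.PE S.measPE μ
    have h2 : ∫⁻ y, (ncl (S.st0.sV y) {k | y ∈ S.PV k} : ℝ≥0∞) ∂μ = ∑ k, μ (S.PV k) :=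
      lintegral_count S.PV S.measPV μ
    rw [h1, h2, add_comm]

/-- The sequence of states. -/
noncomputable def sq (S : Sheets X) (Λ : ℕ → Set X) (m : ℕ → S.LE × S.LE × ℕ) : ℕ → S.St
  | 0 => S.st0
  | n + 1 => S.mv Λ (sq S Λ m n) (m n).1 (m n).2.1 (m n).2.2

theorem sq_mono (S : Sheets X) (Λ : ℕ → Set X) (m : ℕ → S.LE × S.LE × ℕ) (x : X) :
    Monotone fun n => (S.sq Λ m n).sV x :=
  monotone_nat_of_le_succ fun n => S.mv_mono Λ (S.sq Λ m n) (m n).1 (m n).2.1 (m n).2.2 x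

/-- The limit. -/
def lim (S : Sheets X) (Λ : ℕ → Set X) (m : ℕ → S.LE × S.LE × ℕ) (x : X) : Setoid S.LV where
  r l l' := ∃ n, (S.sq Λ m n).sV x l l'
  iseqv := by
    refine ⟨fun l => ⟨0, Setoid.refl' _ l⟩, ?_, ?_⟩
    · rintro l l' ⟨n, h⟩
      exact ⟨n, Setoid.symm' _ h⟩
    · rintro l l' l'' ⟨n, h⟩ ⟨n', h'⟩
      exact ⟨max n n', Setoid.trans' _ (S.sq_mono Λ m x (le_max_left n n') h)
        (S.sq_mono Λ m x (le_max_right n n') h')⟩

theorem lim_closed (S : Sheets X) (Λ : ℕ → Set X) (hcov : ∀ x, ∃ i, x ∈ Λ i)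
    (m : ℕ → S.LE × S.LE × ℕ) (hm : ∀ a n, ∃ n', n ≤ n' ∧ m n' = a) :
    S.Closed (S.lim Λ m) := by
  intro y k k' hk h1 h2
  obtain ⟨i, hi⟩ := hcov y
  constructor
  · rintro ⟨n, h⟩
    obtain ⟨n', hn, hn'⟩ := hm (k, k', i) n
    refine ⟨n' + 1, ?_⟩
    have h3 : y ∈ S.Qs Λ (S.sq Λ m n') k k' i :=
      ⟨hk, hi, h1, h2, Or.inl (S.sq_mono Λ m y hn h)⟩
    have h4 := S.mv_tgt Λ (S.sq Λ m n') k k' i h3
    rw [sq, hn']
    exact h4
  · rintro ⟨n, h⟩
    obtain ⟨n', hn, hn'⟩ := hm (k, k', i) n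
    refine ⟨n' + 1, ?_⟩
    have h3 : y ∈ S.Qs Λ (S.sq Λ m n') k k' i :=
      ⟨hk, hi, h1, h2, Or.inr (S.sq_mono Λ m _ hn h)⟩
    have h4 := S.mv_src Λ (S.sq Λ m n') k k' i h3
    rw [sq, hn']
    exact h4

theorem exists_seq (M : Type) [Countable M] [Nonempty M] :
    ∃ m : ℕ → M, ∀ a n, ∃ n', n ≤ n' ∧ m n' = a := by
  obtain ⟨f, hf⟩ := exists_surjective_nat M
  refine ⟨fun n => f n.unpair.1, fun a n => ?_⟩
  obtain ⟨j, hj⟩ := hf a
  refine ⟨Nat.pair j n, Nat.right_le_pair j n, ?_⟩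
  simp [hj]

variable [MeasurableConstSMul F2 X]

/-- There is a state with the invariants and `1/3 ≤ μ K ≤ 1/2`, `K = {x | sV x (v 0) (v 1)}`,
provided closedness forces `v 0 ~ v 1` on a set of measure `> 1/3`. -/
theorem process (S : Sheets X) (μ : Measure X) [IsProbabilityMeasure μ]
    [SMulInvariantMeasure F2 X μ]
    (hcover : ∃ Λ : ℕ → Set X, (∀ i, MeasurableSet (Λ i)) ∧ (∀ i, μ (Λ i) ≤ 1 / 12) ∧
      ∀ x, ∃ i, x ∈ Λ i)
    {Facts : Set X} (hFacts : 1 / 3 < μ Facts)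
    (hcl : ∀ sV : X → Setoid S.LV, S.Closed sV → ∀ x ∈ Facts, sV x (S.v 0) (S.v 1)) :
    ∃ st : S.St, S.Inv μ st ∧ 1 / 3 ≤ μ {x | st.sV x (S.v 0) (S.v 1)} ∧
      μ {x | st.sV x (S.v 0) (S.v 1)} ≤ 1 / 2 := by
  obtain ⟨Λ, hΛ, hm, hcov⟩ := hcover
  have : Nonempty S.LE := ⟨S.e 0⟩
  obtain ⟨m, hm'⟩ := exists_seq (S.LE × S.LE × ℕ)
  have hinv : ∀ n, S.Inv μ (S.sq Λ m n) := by
    intro n
    induction n with
    | zero => exact S.st0_inv μ
    | succ n ih => exact mv_inv Λ _ _ _ ih hΛ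
  have hF : Facts ⊆ ⋃ n, {x | (S.sq Λ m n).sV x (S.v 0) (S.v 1)} := by
    intro x hx
    obtain ⟨n, hn⟩ := hcl _ (S.lim_closed Λ hcov m hm') x hx
    exact mem_iUnion.2 ⟨n, hn⟩
  have hmono : Monotone fun n => {x | (S.sq Λ m n).sV x (S.v 0) (S.v 1)} := by
    intro n n' hn x hx
    exact S.sq_mono Λ m x hn hx
  have hsup : 1 / 3 < ⨆ n, μ {x | (S.sq Λ m n).sV x (S.v 0) (S.v 1)} := by
    rw [← hmono.measure_iUnion]
    exact lt_of_lt_of_le hFacts (measure_mono hF)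
  obtain ⟨n0, hn0⟩ := lt_iSup_iff.1 hsup
  classical
  have hex : ∃ n, 1 / 3 ≤ μ {x | (S.sq Λ m n).sV x (S.v 0) (S.v 1)} := ⟨n0, hn0.le⟩
  refine ⟨S.sq Λ m (Nat.find hex), hinv _, Nat.find_spec hex, ?_⟩
  rcases hN : Nat.find hex with _ | n
  · have h0 : {x | (S.sq Λ m 0).sV x (S.v 0) (S.v 1)} = ∅ := by
      ext x
      simp only [mem_ofPred_eq, mem_empty_iff_false, iff_false]
      intro h
      have h' : S.v 0 = S.v 1 := h
      have := S.v_inj h'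
      simp at this
    rw [h0]
    simp
  · have hlt : n < Nat.find hex := by omega
    have h1 := Nat.find_min hex hlt
    rw [not_le] at h1
    have h2 := mv_K (st := S.sq Λ m n) Λ (m n).1 (m n).2.1 (m n).2.2 hm (μ := μ) (S.v 0) (S.v 1)
    refine le_trans h2 (le_trans (add_le_add h1.le le_rfl) ?_)
    have e1 : (1 : ℝ≥0∞) / 3 = ENNReal.ofReal (1 / 3) := by
      rw [ENNReal.ofReal_div_of_pos (by norm_num)]
      simp
    have e2 : (1 : ℝ≥0∞) / 6 = ENNReal.ofReal (1 / 6) := by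
      rw [ENNReal.ofReal_div_of_pos (by norm_num)]
      simp
    have e3 : (1 : ℝ≥0∞) / 2 = ENNReal.ofReal (1 / 2) := by
      rw [ENNReal.ofReal_div_of_pos (by norm_num)]
      simp
    rw [e1, e2, e3, ← ENNReal.ofReal_add (by norm_num) (by norm_num)]
    exact ENNReal.ofReal_le_ofReal (by norm_num)

end Sheets

end Vale.Agent.P189
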