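/-
P189, Step B: boundary inequality for a state with the invariants (integrate `degree_count`).
-/
import Vale.Agent.P189.Process
import Vale.Agent.P189.Degree

open MeasureTheory Set
open scoped Pointwise ENNReal

namespace Vale.Agent.P189

/-- The number of classes meeting a varying set is a measurable function. -/
theorem measurable_nclB {X L : Type} [MeasurableSpace X] [Finite L] {s : X → Setoid L}
    {P : X → Set L} (hs : ∀ l l', MeasurableSet {x | s x l l'})
    (hP : ∀ l, MeasurableSet {x | l ∈ P x}) : Measurable fun x => ncl (s x) (P x) := by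
  let Φ : X → (L × L → Prop) × (L → Prop) := fun x => (fun p => s x p.1 p.2, fun l => l ∈ P x)
  have hΦ : Measurable Φ := by
    refine Measurable.prodMk ?_ ?_
    · refine measurable_pi_lambda _ fun p => ?_
      exact measurableSet_setOf.mp (hs p.1 p.2)
    · refine measurable_pi_lambda _ fun l => ?_
      exact measurableSet_setOf.mp (hP l)
  let G : (L × L → Prop) × (L → Prop) → ℕ := fun q =>
    ncl (Relation.EqvGen.setoid (fun a b => q.1 (a, b))) {l | q.2 l}
  have hG : Measurable G := measurable_of_countable G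
  have : (fun x => ncl (s x) (P x)) = G ∘ Φ := by
    funext x
    show ncl (s x) (P x) = ncl (Relation.EqvGen.setoid (fun a b => s x a b)) {l | l ∈ P x}
    have h1 : Relation.EqvGen.setoid (fun a b => s x a b) = s x := Setoid.eqvGen_of_setoid (s x)
    rw [h1]
    rfl
  rw [this]
  exact hG.comp hΦ

theorem ncl_two_types_le {LE : Type} [Finite LE] (s : Setoid LE) (ty : LE → Fin 2) (P : Set LE)
    (hty : ∀ k ∈ P, ∀ k' ∈ P, s k k' → ty k = ty k') :
    ncl s {k | ty k = 0 ∧ k ∈ P} + ncl s {k | ty k = 1 ∧ k ∈ P} ≤ ncl s P := by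
  classical
  unfold ncl
  rw [← Set.ncard_union_eq]
  · refine Set.ncard_le_ncard ?_ (Set.toFinite _)
    rintro _ (⟨k, ⟨-, hk⟩, rfl⟩ | ⟨k, ⟨-, hk⟩, rfl⟩)
    · exact ⟨k, hk, rfl⟩
    · exact ⟨k, hk, rfl⟩
  · rw [Set.disjoint_left]
    rintro _ ⟨k, ⟨h0, hk⟩, rfl⟩ ⟨k', ⟨h1, hk'⟩, h⟩
    have h2 : s k' k := Quotient.exact h
    have h3 := hty k' hk' k hk h2
    rw [h0, h1] at h3
    exact absurd h3 (by decide)

variable {X : Type} [MulAction F2 X] [MeasurableSpace X] [MeasurableConstSMul F2 X]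

/-- Boundary inequality for a state with the invariants (integrate `degree_count`). -/
theorem Sheets.boundary_le (S : Sheets X) (μ : Measure X) [IsProbabilityMeasure μ]
    [SMulInvariantMeasure F2 X μ] (st : S.St) (h : S.Inv μ st) {κ : ℝ≥0∞}
    (hcount : ∑ k, μ (S.PE k) ≤ ∑ l, μ (S.PV l) + 1 + κ) :
    μ ({x | ge 0 • x ∈ {x | st.sV x (S.v 0) (S.v 1)} ∨ ge 1 • x ∈ {x | st.sV x (S.v 0) (S.v 1)}} \
        {x | st.sV x (S.v 0) (S.v 1)}) ≤ 2 * κ := by
  classical
  let K : Set X := {x | st.sV x (S.v 0) (S.v 1)}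
  have hK : MeasurableSet K := h.measV _ _
  -- base point of the edges in direction d at x
  let base : Fin 2 × Bool → F2 := fun d => if d.2 then 1 else (ge d.1)⁻¹
  let PD : X → Fin 2 × Bool → Set S.LE := fun x d => {k | S.ty k = d.1 ∧ base d • x ∈ S.PE k}
  let en : Fin 2 × Bool → S.LE → S.LV := fun d => if d.2 then S.src else S.tgt
  let I1 : Set X := {x | ¬ st.sV x (S.v 0) (S.v 1) ∧
    (st.sV x (S.v 1) (S.v 2) ∨ st.sV x (S.v 0) (S.v 2))}
  let I2 : Set X := {x | st.sV x (S.v 0) (S.v 1) ∧ ¬ st.sE ((ge 0)⁻¹ • x) (S.e 0) (S.e 1)}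
  let I3 : Set X := {x | st.sV x (S.v 0) (S.v 1) ∧ ¬ st.sE ((ge 1)⁻¹ • x) (S.e 2) (S.e 3)}
  have hI1 : MeasurableSet I1 := (h.measV _ _).compl.inter ((h.measV _ _).union (h.measV _ _))
  have hI2 : MeasurableSet I2 :=
    (h.measV _ _).inter ((measurable_const_smul ((ge 0)⁻¹ : F2)) (h.measE _ _)).compl
  have hI3 : MeasurableSet I3 :=
    (h.measV _ _).inter ((measurable_const_smul ((ge 1)⁻¹ : F2)) (h.measE _ _)).compl
  have hpt : ∀ x, 2 * ncl (st.sV x) {l | x ∈ S.PV l} + 2 + (if x ∈ I1 then 1 else 0)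
      + (if x ∈ I2 then 1 else 0) + (if x ∈ I3 then 1 else 0)
      ≤ ∑ d, ncl (st.sE (base d • x)) (PD x d) := by
    intro x
    have hPE : ∀ (j : Fin 4) (y : X), y ∈ S.PE (S.e j) := fun j y => by rw [S.PE_e]; trivial
    have := degree_count (st.sV x) {l | x ∈ S.PV l} (fun d => st.sE (base d • x)) (PD x) en
      ?_ ?_ ?_ S.v (S.e 2) (S.e 2) (S.e 0) (S.e 0) (S.e 1) (S.e 3) (S.e 1) (S.e 3)
      ?_ ?_ ?_ ?_ ?_ ?_ ?_ ?_
    · exact this
    · rintro ⟨s, b⟩ k k' ⟨hk, hk2⟩ ⟨hk', hk2'⟩ hkk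
      rcases h.compat _ _ _ hkk with rfl | ⟨h1, h2, h3, h4, h5⟩
      · exact (st.sV x).refl _
      · cases b
        · have e1 : ge (S.ty k) • base (s, false) • x = x := by
            have : S.ty k = s := hk
            rw [this]
            exact smul_inv_smul (ge s) x
          rw [e1] at h5
          exact h5
        · have e1 : base (s, true) • x = x := one_smul _ _
          rw [e1] at h4
          exact h4
    · rintro ⟨s, b⟩ k ⟨hk, hk2⟩
      cases b
      · have h1 := S.tgt_mem k _ hk2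
        have e1 : ge (S.ty k) • base (s, false) • x = x := by
          have : S.ty k = s := hk
          rw [this]
          exact smul_inv_smul (ge s) x
        rw [e1] at h1
        exact h1
      · have h1 := S.src_mem k _ hk2
        have e1 : base (s, true) • x = x := one_smul _ _
        rw [e1] at h1
        exact h1
    · intro l hl
      obtain ⟨d, d', hdd, hd⟩ := S.deg2 l x hl
      refine ⟨d, d', hdd, ?_, ?_⟩
      · obtain ⟨k, hk, hk2⟩ := hd d (by simp)
        obtain ⟨s, b⟩ := d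
        rcases hk2 with ⟨rfl, h1, h2⟩ | ⟨rfl, h1, h2⟩
        · refine ⟨k, ⟨hk, ?_⟩, h1⟩
          have e1 : base (s, true) • x = x := one_smul _ _
          rw [e1]; exact h2
        · exact ⟨k, ⟨hk, h2⟩, h1⟩
      · obtain ⟨k, hk, hk2⟩ := hd d' (by simp)
        obtain ⟨s, b⟩ := d'
        rcases hk2 with ⟨rfl, h1, h2⟩ | ⟨rfl, h1, h2⟩
        · refine ⟨k, ⟨hk, ?_⟩, h1⟩
          have e1 : base (s, true) • x = x := one_smul _ _
          rw [e1]; exact h2
        · exact ⟨k, ⟨hk, h2⟩, h1⟩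
    all_goals refine ⟨⟨?_, hPE _ _⟩, ?_⟩
    all_goals simp [en, S.ty_e, S.src_e, S.tgt_e]
  -- integrate
  have hnE : ∀ s : Fin 2, Measurable fun y => ncl (st.sE y) {k | S.ty k = s ∧ y ∈ S.PE k} := by
    intro s
    refine measurable_nclB h.measE fun k => ?_
    by_cases hk : S.ty k = s
    · simpa [hk] using S.measPE k
    · simp [hk]
  have hnEd : ∀ d : Fin 2 × Bool, Measurable fun x => (ncl (st.sE (base d • x)) (PD x d) : ℝ≥0∞) := by
    intro d
    exact (measurable_of_countable (fun n : ℕ => (n : ℝ≥0∞))).comp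
      ((hnE d.1).comp (measurable_const_smul (base d)))
  have hnV : Measurable fun x => ncl (st.sV x) {l | x ∈ S.PV l} :=
    measurable_nclB h.measV fun l => S.measPV l
  have hnVe : Measurable fun x => (ncl (st.sV x) {l | x ∈ S.PV l} : ℝ≥0∞) :=
    (measurable_of_countable (fun n : ℕ => (n : ℝ≥0∞))).comp hnV
  have hR : ∫⁻ x, ∑ d, (ncl (st.sE (base d • x)) (PD x d) : ℝ≥0∞) ∂μ
      ≤ 2 * ∫⁻ y, (ncl (st.sE y) {k | y ∈ S.PE k} : ℝ≥0∞) ∂μ := by
    rw [lintegral_finsetSum _ (fun d _ => hnEd d)]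
    have h1 : ∀ d : Fin 2 × Bool, ∫⁻ x, (ncl (st.sE (base d • x)) (PD x d) : ℝ≥0∞) ∂μ
        = ∫⁻ y, (ncl (st.sE y) {k | S.ty k = d.1 ∧ y ∈ S.PE k} : ℝ≥0∞) ∂μ := by
      intro d
      exact (measurePreserving_smul (base d) μ).lintegral_comp
        (f := fun y => (ncl (st.sE y) {k | S.ty k = d.1 ∧ y ∈ S.PE k} : ℝ≥0∞))
        ((measurable_of_countable (fun n : ℕ => (n : ℝ≥0∞))).comp (hnE d.1))
    rw [Finset.sum_congr rfl (fun d _ => h1 d), Fintype.sum_prod_type]
    simp only [Fintype.sum_bool]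
    rw [Fin.sum_univ_two]
    have h2 : ∫⁻ y, (ncl (st.sE y) {k | S.ty k = 0 ∧ y ∈ S.PE k} : ℝ≥0∞) ∂μ
        + ∫⁻ y, (ncl (st.sE y) {k | S.ty k = 1 ∧ y ∈ S.PE k} : ℝ≥0∞) ∂μ
        ≤ ∫⁻ y, (ncl (st.sE y) {k | y ∈ S.PE k} : ℝ≥0∞) ∂μ := by
      rw [← lintegral_add_left]
      · refine lintegral_mono fun y => ?_
        have := ncl_two_types_le (st.sE y) S.ty {k | y ∈ S.PE k} (by
          intro k _ k' _ hkk
          rcases h.compat _ _ _ hkk with rfl | ⟨h1, -⟩
          · rfl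
          · exact h1)
        simp only [mem_setOf_eq] at this
        show (ncl (st.sE y) {k | S.ty k = 0 ∧ y ∈ S.PE k} : ℝ≥0∞)
          + (ncl (st.sE y) {k | S.ty k = 1 ∧ y ∈ S.PE k} : ℝ≥0∞)
          ≤ (ncl (st.sE y) {k | y ∈ S.PE k} : ℝ≥0∞)
        rw [← Nat.cast_add]
        exact Nat.cast_le.mpr this
      · exact (measurable_of_countable (fun n : ℕ => (n : ℝ≥0∞))).comp (hnE 0)
    calc _ = 2 * (∫⁻ y, (ncl (st.sE y) {k | S.ty k = 0 ∧ y ∈ S.PE k} : ℝ≥0∞) ∂μ
        + ∫⁻ y, (ncl (st.sE y) {k | S.ty k = 1 ∧ y ∈ S.PE k} : ℝ≥0∞) ∂μ) := by ring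
      _ ≤ _ := by gcongr
  set V : ℝ≥0∞ := ∫⁻ x, (ncl (st.sV x) {l | x ∈ S.PV l} : ℝ≥0∞) ∂μ with hV
  set W : ℝ≥0∞ := ∫⁻ y, (ncl (st.sE y) {k | y ∈ S.PE k} : ℝ≥0∞) ∂μ with hW
  have hVfin : V ≠ ∞ := by
    have hb : ∀ x, (ncl (st.sV x) {l | x ∈ S.PV l} : ℝ≥0∞) ≤ (Nat.card S.LV : ℝ≥0∞) := by
      intro x
      have h1 : ncl (st.sV x) {l | x ∈ S.PV l} ≤ Nat.card S.LV := by
        unfold ncl
        refine (Set.ncard_image_le (Set.toFinite _)).trans ?_
        exact Set.ncard_le_card _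
      exact_mod_cast h1
    refine ne_of_lt ((lintegral_mono hb).trans_lt ?_)
    rw [lintegral_const, measure_univ, mul_one]
    exact ENNReal.natCast_lt_top _
  have hL : 2 * V + 2 + μ I1 + μ I2 + μ I3
      ≤ ∫⁻ x, ∑ d, (ncl (st.sE (base d • x)) (PD x d) : ℝ≥0∞) ∂μ := by
    have e1 : 2 * V + 2 + μ I1 + μ I2 + μ I3 = ∫⁻ x, (2 * (ncl (st.sV x) {l | x ∈ S.PV l} : ℝ≥0∞)
        + 2 + I1.indicator 1 x + I2.indicator 1 x + I3.indicator 1 x) ∂μ := by
      rw [lintegral_add_right _ ((measurable_one.indicator hI3)),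
        lintegral_add_right _ ((measurable_one.indicator hI2)),
        lintegral_add_right _ ((measurable_one.indicator hI1)),
        lintegral_add_right _ measurable_const, lintegral_const_mul _ hnVe,
        lintegral_const, measure_univ, mul_one, lintegral_indicator_one hI1,
        lintegral_indicator_one hI2, lintegral_indicator_one hI3]
    rw [e1]
    refine lintegral_mono fun x => ?_
    have h1 := hpt x
    have e2 : ∀ I : Set X, x ∈ I → I.indicator (1 : X → ℝ≥0∞) x = 1 := by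
      intro I hx
      simp [hx]
    have e3 : ∀ I : Set X, x ∉ I → I.indicator (1 : X → ℝ≥0∞) x = 0 := by
      intro I hx
      simp [hx]
    by_cases a1 : x ∈ I1 <;> by_cases a2 : x ∈ I2 <;> by_cases a3 : x ∈ I3 <;>
      simp only [a1, a2, a3, if_true, if_false, e2, e3, not_false_eq_true] at h1 ⊢ <;>
      exact_mod_cast h1
  have hc := h.count
  have hPfin : (∑ l, μ (S.PV l)) ≠ ∞ := by
    refine ne_of_lt ?_
    exact ENNReal.sum_lt_top.mpr fun l _ => measure_lt_top μ _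
  have hWV : W ≤ V + 1 + κ := by
    have h1 : W + ∑ l, μ (S.PV l) ≤ (V + 1 + κ) + ∑ l, μ (S.PV l) := by
      calc W + ∑ l, μ (S.PV l) ≤ V + ∑ k, μ (S.PE k) := hc
        _ ≤ V + (∑ l, μ (S.PV l) + 1 + κ) := by gcongr
        _ = (V + 1 + κ) + ∑ l, μ (S.PV l) := by ring
    exact (ENNReal.add_le_add_iff_right hPfin).mp h1
  have hI : μ I1 + μ I2 + μ I3 ≤ 2 * κ := by
    have h1 : (2 * V + 2) + (μ I1 + μ I2 + μ I3) ≤ (2 * V + 2) + 2 * κ := by
      calc (2 * V + 2) + (μ I1 + μ I2 + μ I3) = 2 * V + 2 + μ I1 + μ I2 + μ I3 := by ring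
        _ ≤ 2 * W := hL.trans hR
        _ ≤ 2 * (V + 1 + κ) := by gcongr
        _ = (2 * V + 2) + 2 * κ := by ring
    refine (ENNReal.add_le_add_iff_left ?_).mp h1
    exact ENNReal.add_ne_top.mpr ⟨ENNReal.mul_ne_top (by simp) hVfin, by simp⟩
  refine le_trans ?_ hI
  have hsub : ({x | ge 0 • x ∈ K ∨ ge 1 • x ∈ K} \ K) ⊆
      I1 ∪ (fun x => ge 0 • x) ⁻¹' I2 ∪ (fun x => ge 1 • x) ⁻¹' I3 := by
    rintro y ⟨hy | hy, hyK⟩
    · by_cases he : st.sE y (S.e 0) (S.e 1)
      · left; left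
        rcases h.compat _ _ _ he with h0 | ⟨-, -, -, h4, -⟩
        · exact ⟨hyK, Or.inl (by
            have := S.src_e 0
            rw [h0, S.src_e] at this
            have h5 := S.v_inj this
            exact absurd h5 (by decide))⟩
        · rw [S.src_e, S.src_e] at h4
          exact ⟨hyK, Or.inl h4⟩
      · left; right
        refine ⟨hy, ?_⟩
        rw [inv_smul_smul]
        exact he
    · by_cases he : st.sE y (S.e 2) (S.e 3)
      · left; left
        rcases h.compat _ _ _ he with h0 | ⟨-, -, -, h4, -⟩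
        · exact ⟨hyK, Or.inl (by
            have := S.src_e 2
            rw [h0, S.src_e] at this
            have h5 := S.v_inj this
            exact absurd h5 (by decide))⟩
        · rw [S.src_e, S.src_e] at h4
          exact ⟨hyK, Or.inr h4⟩
      · right
        refine ⟨hy, ?_⟩
        rw [inv_smul_smul]
        exact he
  refine (measure_mono hsub).trans ((measure_union_le _ _).trans ?_)
  refine add_le_add ((measure_union_le _ _).trans ?_) ?_
  · rw [measure_preimage_smul_of_nullMeasurableSet hI2.nullMeasurableSet]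
  · rw [measure_preimage_smul_of_nullMeasurableSet hI3.nullMeasurableSet]

end Vale.Agent.P189
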