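/-
P189: the contraction lemma.
Every `y ∈ Y \ M` picks the first arc of a shortest path (in the arc system) to `M`; these arcs are
distinct (one per point of `Y \ M`), form a forest rooted in `M`; all the other arcs are slid to the
roots of their end points.
-/
import Vale.Agent.P189.Basic

open MeasureTheory Set
open scoped Pointwise ENNReal

namespace Vale.Agent.P189

variable {𝒢 : Type} [Group 𝒢] {Z : Type} [MulAction 𝒢 Z]

namespace CL

/-- Measurable choice from a countable type. -/
theorem exists_choice {Z : Type} [MeasurableSpace Z] {ι : Type} [Countable ι] [Nonempty ι]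
    {P : ι → Z → Prop} (hP : ∀ i, MeasurableSet {z | P i z}) :
    ∃ f : Z → ι, (∀ i, MeasurableSet {z | f z = i}) ∧ ∀ z, (∃ i, P i z) → P (f z) z := by
  classical
  obtain ⟨e, he⟩ := exists_surjective_nat ι
  let f : Z → ι := fun z => if h : ∃ n, P (e n) z then e (Nat.find h) else e 0
  have hfirst : ∀ n, MeasurableSet {z | P (e n) z ∧ ∀ m < n, ¬ P (e m) z} := by
    intro n
    have : {z | P (e n) z ∧ ∀ m < n, ¬ P (e m) z}
        = {z | P (e n) z} ∩ ⋂ m : ℕ, ⋂ (_ : m < n), {z | P (e m) z}ᶜ := by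
      ext z; simp
    rw [this]
    exact (hP _).inter (MeasurableSet.iInter fun m => MeasurableSet.iInter fun _ => (hP _).compl)
  have hnone : MeasurableSet {z | ∀ n, ¬ P (e n) z} := by
    have : {z | ∀ n, ¬ P (e n) z} = ⋂ n, {z | P (e n) z}ᶜ := by ext z; simp
    rw [this]
    exact MeasurableSet.iInter fun n => (hP _).compl
  refine ⟨f, fun i => ?_, fun z hz => ?_⟩
  · have : {z | f z = i} = (⋃ (n : ℕ) (_ : e n = i), {z | P (e n) z ∧ ∀ m < n, ¬ P (e m) z})
        ∪ (if e 0 = i then {z | ∀ n, ¬ P (e n) z} else ∅) := by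
      ext z
      simp only [mem_union, mem_iUnion, mem_ofPred_eq]
      by_cases h : ∃ n, P (e n) z
      · have hf : f z = e (Nat.find h) := dif_pos h
        rw [hf]
        constructor
        · intro hi
          exact Or.inl ⟨Nat.find h, hi, Nat.find_spec h, fun m hm => Nat.find_min h hm⟩
        · rintro (⟨n, hn, h1, h2⟩ | h1)
          · rw [(Nat.find_eq_iff h).mpr ⟨h1, h2⟩, hn]
          · split_ifs at h1
            · obtain ⟨n, hn⟩ := h
              exact absurd hn (h1 n)
            · exact absurd h1 (notMem_empty _)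
      · have hf : f z = e 0 := dif_neg h
        rw [hf]
        push Not at h
        constructor
        · intro hi
          right
          rw [if_pos hi]
          exact h
        · rintro (⟨n, hn, h1, h2⟩ | h1)
          · exact absurd h1 (h n)
          · split_ifs at h1 with h3
            · exact h3
            · exact absurd h1 (notMem_empty _)
    rw [this]
    refine MeasurableSet.union (MeasurableSet.iUnion fun n => MeasurableSet.iUnion fun _ => hfirst n) ?_
    split_ifs
    · exact hnone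
    · exact MeasurableSet.empty
  · have h : ∃ n, P (e n) z := by
      obtain ⟨i, hi⟩ := hz
      obtain ⟨n, rfl⟩ := he i
      exact ⟨n, hi⟩
    have hf : f z = e (Nat.find h) := dif_pos h
    rw [hf]
    exact Nat.find_spec h

/-- The group element of a direction. -/
def mv (d : 𝒢 × Bool) : 𝒢 := if d.2 then d.1 else d.1⁻¹

/-- The set of points at which the direction is available. -/
def Av (E : 𝒢 → Set Z) (d : 𝒢 × Bool) : Set Z :=
  if d.2 then E d.1 else {z | d.1⁻¹ • z ∈ E d.1}

@[simp] theorem mv_true (g : 𝒢) : mv (g, true) = g := rfl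
@[simp] theorem mv_false (g : 𝒢) : mv (g, false) = g⁻¹ := rfl
theorem mem_Av_true {E : 𝒢 → Set Z} {g : 𝒢} {z : Z} : z ∈ Av E (g, true) ↔ z ∈ E g := Iff.rfl
theorem mem_Av_false {E : 𝒢 → Set Z} {g : 𝒢} {z : Z} :
    z ∈ Av E (g, false) ↔ g⁻¹ • z ∈ E g := Iff.rfl

theorem edge_of_Av {E : 𝒢 → Set Z} {d : 𝒢 × Bool} {z : Z} (h : z ∈ Av E d) :
    edge E z (mv d • z) := by
  obtain ⟨g, b⟩ := d
  cases b
  · rw [mem_Av_false] at h
    have := edge_of_mem h
    rw [smul_inv_smul] at this
    exact (edge E).symm this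
  · exact edge_of_mem h

/-- points at distance at most `n` from `M`. -/
def lev (E : 𝒢 → Set Z) (M : Set Z) : ℕ → Set Z
  | 0 => M
  | n + 1 => lev E M n ∪ {z | ∃ d : 𝒢 × Bool, z ∈ Av E d ∧ mv d • z ∈ lev E M n}

theorem lev_mono (E : 𝒢 → Set Z) (M : Set Z) : Monotone (lev E M) :=
  monotone_nat_of_le_succ fun _ => subset_union_left

/-- All points connected with `M` lie on some level. -/
theorem mem_lev_of_conn {E : 𝒢 → Set Z} {M : Set Z} {r : Setoid Z}
    (hr : ∀ z w, r z w → z = w ∨ (z ∈ M ∧ w ∈ M)) {y m : Z} (hm : m ∈ M)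
    (h : (r ⊔ edge E) y m) : ∃ n, y ∈ lev E M n := by
  let s : Setoid Z :=
    { r := fun z w => (∃ n, z ∈ lev E M n) ↔ (∃ n, w ∈ lev E M n)
      iseqv := ⟨fun _ => Iff.rfl, fun h => h.symm, fun h k => h.trans k⟩ }
  have h1 : r ≤ s := by
    intro z w hzw
    rcases hr z w hzw with rfl | ⟨hz, hw⟩
    · exact Iff.rfl
    · exact ⟨fun _ => ⟨0, hw⟩, fun _ => ⟨0, hz⟩⟩
  have h2 : edge E ≤ s := by
    rw [edge_le_iff]
    intro g z hz
    constructor
    · rintro ⟨n, hn⟩
      refine ⟨n + 1, Or.inr ⟨(g, false), ?_, ?_⟩⟩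
      · rw [mem_Av_false, inv_smul_smul]; exact hz
      · rw [mv_false, inv_smul_smul]; exact hn
    · rintro ⟨n, hn⟩
      exact ⟨n + 1, Or.inr ⟨(g, true), hz, hn⟩⟩
  have h3 : (r ⊔ edge E) ≤ s := sup_le h1 h2
  exact (h3 h).mpr ⟨0, hm⟩

/-- The root element after following `n` parents. -/
def gam (M : Set Z) [DecidablePred (· ∈ M)] (par : Z → 𝒢 × Bool) : ℕ → Z → 𝒢
  | 0, _ => 1
  | n + 1, z => if z ∈ M then 1 else gam M par n (mv (par z) • z) * mv (par z)

end CL

open CL in
theorem contraction [Countable 𝒢] [MeasurableSpace Z] [MeasurableConstSMul 𝒢 Z]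
    (μ : Measure Z) [SMulInvariantMeasure 𝒢 Z μ] [FreeAct 𝒢 Z]
    {M Y : Set Z} (hM : MeasurableSet M) (hY : MeasurableSet Y) (hMY : M ⊆ Y)
    {E : 𝒢 → Set Z} (hE : ME E) (hEY : ∀ g, ∀ z ∈ E g, z ∈ Y ∧ g • z ∈ Y)
    {r : Setoid Z} (hr : ∀ z w, r z w → z = w ∨ (z ∈ M ∧ w ∈ M))
    (hconn : ∀ y ∈ Y, ∃ m ∈ M, (r ⊔ edge E) y m) :
    ∃ E' : 𝒢 → Set Z, ME E' ∧ (∀ g, ∀ z ∈ E' g, z ∈ M ∧ g • z ∈ M) ∧
      edge E' ≤ edge E ∧
      cost μ E' + μ (Y \ M) ≤ cost μ E ∧
      ∀ z ∈ M, ∀ w ∈ M, (r ⊔ edge E) z w → (r ⊔ edge E') z w := by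
  classical
  -- measurability of directions and levels
  have hsm : ∀ (g : 𝒢) (S : Set Z), MeasurableSet S → MeasurableSet {z | g • z ∈ S} :=
    fun g S hS => measurable_const_smul g hS
  have hAv : ∀ d, MeasurableSet (Av E d) := by
    rintro ⟨g, b⟩
    cases b
    · exact hsm _ _ (hE g)
    · exact hE g
  have hlev : ∀ n, MeasurableSet (lev E M n) := by
    intro n
    induction n with
    | zero => exact hM
    | succ n ih =>
      refine ih.union ?_
      have : {z | ∃ d : 𝒢 × Bool, z ∈ Av E d ∧ mv d • z ∈ lev E M n}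
          = ⋃ d : 𝒢 × Bool, (Av E d ∩ {z | mv d • z ∈ lev E M n}) := by
        ext z; simp
      rw [this]
      exact MeasurableSet.iUnion fun d => (hAv d).inter (hsm _ _ ih)
  -- parents
  let P : 𝒢 × Bool → Z → Prop := fun d z => z ∈ Av E d ∧ ∃ n, mv d • z ∈ lev E M n ∧ z ∉ lev E M n
  have hP : ∀ d, MeasurableSet {z | P d z} := by
    intro d
    have : {z | P d z} = Av E d ∩ ⋃ n, ({z | mv d • z ∈ lev E M n} ∩ (lev E M n)ᶜ) := by
      ext z; simp [P]
    rw [this]
    exact (hAv d).inter (MeasurableSet.iUnion fun n => (hsm _ _ (hlev n)).inter (hlev n).compl)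
  obtain ⟨par, hparm, hpar⟩ := exists_choice hP
  have hYlev : ∀ y ∈ Y, ∃ n, y ∈ lev E M n := by
    intro y hy
    obtain ⟨m, hm, h⟩ := hconn y hy
    exact mem_lev_of_conn hr hm h
  -- parent property
  have hparP : ∀ z, (∃ n, z ∈ lev E M n) → z ∉ M → P (par z) z := by
    intro z hz hzM
    apply hpar
    have hfind := Nat.find_spec hz
    have hmin : ∀ m < Nat.find hz, z ∉ lev E M m := fun m hm => Nat.find_min hz hm
    rcases h0 : Nat.find hz with _ | n
    · rw [h0] at hfind; exact absurd hfind hzM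
    · rw [h0] at hfind hmin
      have hn : z ∉ lev E M n := hmin n (Nat.lt_succ_self n)
      rcases hfind with h | ⟨d, hd, hd'⟩
      · exact absurd h hn
      · exact ⟨d, hd, n, hd', hn⟩
  -- the root elements
  let G : ℕ → Z → 𝒢 := gam M par
  have hG0 : ∀ z, G 0 z = 1 := fun z => rfl
  have hGs : ∀ n z, G (n + 1) z = if z ∈ M then 1 else G n (mv (par z) • z) * mv (par z) :=
    fun n z => rfl
  have hGM : ∀ n, ∀ z ∈ M, G n z = 1 := by
    intro n z hz
    cases n with
    | zero => rfl
    | succ n => rw [hGs, if_pos hz]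
  have hGmeas : ∀ n g, MeasurableSet {z | G n z = g} := by
    intro n
    induction n with
    | zero =>
      intro g
      by_cases hg : (1 : 𝒢) = g
      · have : {z : Z | G 0 z = g} = univ := by ext z; simp [hG0, hg]
        rw [this]; exact MeasurableSet.univ
      · have : {z : Z | G 0 z = g} = ∅ := by ext z; simp [hG0, hg]
        rw [this]; exact MeasurableSet.empty
    | succ n ih =>
      intro g
      have : {z | G (n + 1) z = g} = (M ∩ {z | (1 : 𝒢) = g}) ∪
          (Mᶜ ∩ ⋃ d : 𝒢 × Bool, ({z | par z = d} ∩ {z | mv d • z ∈ {w | G n w = g * (mv d)⁻¹}})) := by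
        ext z
        simp only [mem_ofPred_eq, mem_union, mem_inter_iff, mem_compl_iff, mem_iUnion]
        rw [hGs]
        by_cases hz : z ∈ M
        · simp [hz]
        · rw [if_neg hz]
          simp only [hz, false_and, not_false_eq_true, true_and, false_or]
          constructor
          · intro h
            exact ⟨par z, rfl, by rw [← h]; group⟩
          · rintro ⟨d, hd, h⟩
            rw [hd, h]; group
      rw [this]
      refine (hM.inter (MeasurableSet.const _)).union (hM.compl.inter ?_)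
      exact MeasurableSet.iUnion fun d => (hparm d).inter (hsm _ _ (ih _))
  have hstab : ∀ n, ∀ z ∈ lev E M n, G n z • z ∈ M ∧ edge E z (G n z • z) ∧
      ∀ m, n ≤ m → G m z = G n z := by
    intro n
    induction n with
    | zero =>
      intro z hz
      have hz' : z ∈ M := hz
      refine ⟨by rw [hG0, one_smul]; exact hz', ?_, fun m _ => by rw [hGM m z hz', hG0]⟩
      rw [hG0, one_smul]
    | succ n ih =>
      intro z hz
      by_cases hzM : z ∈ M
      · rw [hGM _ z hzM, one_smul]
        exact ⟨hzM, (edge E).refl z, fun m _ => hGM m z hzM⟩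
      · obtain ⟨h1, k, h2, h3⟩ := hparP z ⟨_, hz⟩ hzM
        have hk : k ≤ n := by
          by_contra hcon
          push Not at hcon
          exact h3 (lev_mono E M hcon hz)
        have hw : mv (par z) • z ∈ lev E M n := lev_mono E M hk h2
        obtain ⟨i1, i2, i3⟩ := ih _ hw
        have hval : G (n + 1) z • z = G n (mv (par z) • z) • (mv (par z) • z) := by
          rw [hGs, if_neg hzM, mul_smul]
        refine ⟨by rw [hval]; exact i1, ?_, ?_⟩
        · rw [hval]
          exact (edge E).trans (edge_of_Av h1) i2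
        · intro m hm
          obtain ⟨m', rfl⟩ : ∃ m', m = m' + 1 := ⟨m - 1, by omega⟩
          rw [hGs, hGs, if_neg hzM, if_neg hzM, i3 m' (by omega)]
  let γ : Z → 𝒢 := fun z => if h : ∃ n, z ∈ lev E M n then G (Nat.find h) z else 1
  have hγ : ∀ n, ∀ z ∈ lev E M n, γ z = G n z := by
    intro n z hz
    have h : ∃ n, z ∈ lev E M n := ⟨n, hz⟩
    have : γ z = G (Nat.find h) z := dif_pos h
    rw [this]
    exact ((hstab _ z (Nat.find_spec h)).2.2 n (Nat.find_min' h hz)).symm
  have hγM : ∀ z ∈ M, γ z = 1 := fun z hz => by rw [hγ 0 z hz, hG0]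
  have hγroot : ∀ z, (∃ n, z ∈ lev E M n) → γ z • z ∈ M := by
    rintro z ⟨n, hn⟩
    rw [hγ n z hn]; exact (hstab n z hn).1
  have hγedge : ∀ z, (∃ n, z ∈ lev E M n) → edge E z (γ z • z) := by
    rintro z ⟨n, hn⟩
    rw [hγ n z hn]; exact (hstab n z hn).2.1
  have hγpar : ∀ z, (∃ n, z ∈ lev E M n) → z ∉ M →
      γ z • z = γ (mv (par z) • z) • (mv (par z) • z) := by
    rintro z ⟨n, hn⟩ hzM
    obtain ⟨h1, k, h2, h3⟩ := hparP z ⟨n, hn⟩ hzM
    have hw : mv (par z) • z ∈ lev E M (max k n) := lev_mono E M (le_max_left _ _) h2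
    have hz : z ∈ lev E M (max k n + 1) := lev_mono E M (by omega) hn
    rw [hγ _ z hz, hγ _ _ hw, hGs, if_neg hzM, mul_smul]
  have hγmeas : ∀ g, MeasurableSet {z | γ z = g} := by
    intro g
    have : {z | γ z = g} = (⋃ n, (lev E M n ∩ {z | G n z = g})) ∪
        ((⋃ n, lev E M n)ᶜ ∩ {z | (1 : 𝒢) = g}) := by
      ext z
      simp only [mem_ofPred_eq, mem_union, mem_inter_iff, mem_compl_iff, mem_iUnion]
      by_cases h : ∃ n, z ∈ lev E M n
      · simp only [h, not_true_eq_false, false_and, or_false]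
        constructor
        · intro hg
          obtain ⟨n, hn⟩ := h
          exact ⟨n, hn, by rw [← hγ n z hn]; exact hg⟩
        · rintro ⟨n, hn, hg⟩
          rw [hγ n z hn]; exact hg
      · have hg1 : γ z = 1 := dif_neg h
        rw [hg1]
        simp only [h, not_false_eq_true, true_and]
        constructor
        · intro h'; exact Or.inr h'
        · rintro (⟨n, hn, _⟩ | h')
          · exact absurd ⟨n, hn⟩ h
          · exact h'
    rw [this]
    refine (MeasurableSet.iUnion fun n => (hlev n).inter (hGmeas n g)).union ?_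
    exact (MeasurableSet.iUnion hlev).compl.inter (MeasurableSet.const _)
  -- picked arcs
  let P1 : 𝒢 → Set Z := fun g => {z | z ∈ Y \ M ∧ par z = (g, true)}
  let P2 : 𝒢 → Set Z := fun g => {z | z ∈ Y \ M ∧ par z = (g, false)}
  have hYM : MeasurableSet (Y \ M) := hY.diff hM
  have hP1m : ∀ g, MeasurableSet (P1 g) := fun g => hYM.inter (hparm _)
  have hP2m : ∀ g, MeasurableSet (P2 g) := fun g => hYM.inter (hparm _)
  let P2' : 𝒢 → Set Z := fun g => {z | g • z ∈ P2 g}
  have hP2'm : ∀ g, MeasurableSet (P2' g) := fun g => hsm g _ (hP2m g)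
  have hP1E : ∀ g, P1 g ⊆ E g := by
    rintro g z ⟨⟨hzY, hzM⟩, hz⟩
    have := (hparP z (hYlev z hzY) hzM).1
    rwa [hz] at this
  have hP2E : ∀ g, P2' g ⊆ E g := by
    rintro g z ⟨⟨hzY, hzM⟩, hz⟩
    have := (hparP (g • z) (hYlev _ hzY) hzM).1
    rw [hz, mem_Av_false, inv_smul_smul] at this
    exact this
  have hdisj : ∀ g, Disjoint (P1 g) (P2' g) := by
    intro g
    rw [Set.disjoint_left]
    rintro z ⟨⟨hzY, hzM⟩, hz⟩ ⟨⟨hwY, hwM⟩, hw⟩
    obtain ⟨_, k, hk1, hk2⟩ := hparP z (hYlev z hzY) hzM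
    obtain ⟨_, l, hl1, hl2⟩ := hparP (g • z) (hYlev _ hwY) hwM
    rw [hz, mv_true] at hk1
    rw [hw, mv_false, inv_smul_smul] at hl1
    rcases le_total k l with h | h
    · exact hl2 (lev_mono E M h hk1)
    · exact hk2 (lev_mono E M h hl1)
  let U : 𝒢 → Set Z := fun g => E g \ (P1 g ∪ P2' g)
  have hUm : ∀ g, MeasurableSet (U g) := fun g => (hE g).diff ((hP1m g).union (hP2'm g))
  have hμE : ∀ g, μ (E g) = μ (U g) + (μ (P1 g) + μ (P2 g)) := by
    intro g
    have h1 : μ (P2' g) = μ (P2 g) :=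
      measure_preimage_smul_of_nullMeasurableSet (hP2m g).nullMeasurableSet g
    rw [← h1, ← measure_union (hdisj g) (hP2'm g)]
    have h2 : P1 g ∪ P2' g ⊆ E g := union_subset (hP1E g) (hP2E g)
    have h3 := measure_inter_add_sdiff (μ := μ) (E g) ((hP1m g).union (hP2'm g))
    rw [inter_eq_self_of_subset_right h2] at h3
    rw [add_comm]
    exact h3.symm
  have hYMsum : μ (Y \ M) = ∑' g, (μ (P1 g) + μ (P2 g)) := by
    have hcov : Y \ M = ⋃ g, (P1 g ∪ P2 g) := by
      ext z
      simp only [mem_iUnion, mem_union]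
      constructor
      · intro hz
        rcases hpz : par z with ⟨g, b⟩
        refine ⟨g, ?_⟩
        cases b
        · exact Or.inr ⟨hz, hpz⟩
        · exact Or.inl ⟨hz, hpz⟩
      · rintro ⟨g, h | h⟩
        · exact h.1
        · exact h.1
    have hd12 : ∀ g, Disjoint (P1 g) (P2 g) := by
      intro g
      rw [Set.disjoint_left]
      rintro z ⟨_, h⟩ ⟨_, h'⟩
      rw [h] at h'
      simp at h'
    conv_lhs => rw [hcov]
    rw [measure_iUnion]
    · congr 1; ext g
      rw [measure_union (hd12 g) (hP2m g)]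
    · intro g h hgh
      rw [Function.onFun, Set.disjoint_left]
      rintro z (⟨_, h1⟩ | ⟨_, h1⟩) (⟨_, h2⟩ | ⟨_, h2⟩) <;> rw [h1] at h2 <;>
        exact hgh (congrArg Prod.fst h2)
    · exact fun g => (hP1m g).union (hP2m g)
  -- the new arc system
  let E' : 𝒢 → Set Z := fun g' => ⋃ (g : 𝒢) (h : 𝒢),
    {w | h⁻¹ • w ∈ {z | z ∈ U g ∧ γ z = h ∧ γ (g • z) = g' * h * g⁻¹}}
  have hSm : ∀ g h g', MeasurableSet {z | z ∈ U g ∧ γ z = h ∧ γ (g • z) = g' * h * g⁻¹} := by
    intro g h g'
    exact (hUm g).inter ((hγmeas h).inter (hsm g _ (hγmeas _)))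
  have hE'mem : ∀ g' w, w ∈ E' g' ↔ ∃ g, ∃ z ∈ U g, w = γ z • z ∧ g' • w = γ (g • z) • (g • z) ∧
      γ (g • z) = g' * γ z * g⁻¹ := by
    intro g' w
    simp only [E', mem_iUnion, mem_ofPred_eq]
    constructor
    · rintro ⟨g, h, hz, hh, hg⟩
      refine ⟨g, h⁻¹ • w, hz, ?_, ?_, ?_⟩
      · rw [hh, smul_inv_smul]
      · rw [hg, ← mul_smul, ← mul_smul]
        congr 1
        group
      · rw [hg, hh]
    · rintro ⟨g, z, hz, rfl, -, hg⟩
      refine ⟨g, γ z, ?_⟩
      rw [inv_smul_smul]
      exact ⟨hz, rfl, hg⟩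
  have hUY : ∀ g, ∀ z ∈ U g, (∃ n, z ∈ lev E M n) ∧ (∃ n, g • z ∈ lev E M n) := by
    intro g z hz
    obtain ⟨h1, h2⟩ := hEY g z hz.1
    exact ⟨hYlev z h1, hYlev _ h2⟩
  refine ⟨E', ?_, ?_, ?_, ?_, ?_⟩
  · intro g'
    exact MeasurableSet.iUnion fun g => MeasurableSet.iUnion fun h => hsm _ _ (hSm g h g')
  · intro g' w hw
    obtain ⟨g, z, hz, h1, h2, -⟩ := (hE'mem g' w).mp hw
    obtain ⟨hz1, hz2⟩ := hUY g z hz
    exact ⟨by rw [h1]; exact hγroot z hz1, by rw [h2]; exact hγroot _ hz2⟩
  · rw [edge_le_iff]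
    intro g' w hw
    obtain ⟨g, z, hz, h1, h2, -⟩ := (hE'mem g' w).mp hw
    obtain ⟨hz1, hz2⟩ := hUY g z hz
    rw [h2, h1]
    exact (edge E).trans ((edge E).symm (hγedge z hz1))
      ((edge E).trans (edge_of_mem hz.1) (hγedge _ hz2))
  · have hcost' : cost μ E' ≤ ∑' g, μ (U g) := by
      unfold cost
      calc ∑' g', μ (E' g')
          ≤ ∑' g', ∑' g, ∑' h, μ {w | h⁻¹ • w ∈
              {z | z ∈ U g ∧ γ z = h ∧ γ (g • z) = g' * h * g⁻¹}} := by
            refine ENNReal.tsum_le_tsum fun g' => (measure_iUnion_le _).trans ?_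
            exact ENNReal.tsum_le_tsum fun g => measure_iUnion_le _
        _ = ∑' g', ∑' g, ∑' h, μ {z | z ∈ U g ∧ γ z = h ∧ γ (g • z) = g' * h * g⁻¹} := by
            congr 1; ext g'
            congr 1; ext g
            congr 1; ext h
            exact measure_preimage_smul_of_nullMeasurableSet (hSm g h g').nullMeasurableSet h⁻¹
        _ = ∑' g, ∑' h, ∑' g', μ {z | z ∈ U g ∧ γ z = h ∧ γ (g • z) = g' * h * g⁻¹} := by
            rw [ENNReal.tsum_comm]
            congr 1; ext g
            rw [ENNReal.tsum_comm]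
        _ = ∑' g, μ (U g) := by
            congr 1; ext g
            have hU1 : U g = ⋃ h, {z | z ∈ U g ∧ γ z = h} := by
              ext z; simp
            have hU2 : ∀ h, {z | z ∈ U g ∧ γ z = h}
                = ⋃ g', {z | z ∈ U g ∧ γ z = h ∧ γ (g • z) = g' * h * g⁻¹} := by
              intro h
              ext z
              simp only [mem_ofPred_eq, mem_iUnion]
              constructor
              · rintro ⟨h1, h2⟩
                exact ⟨γ (g • z) * g * h⁻¹, h1, h2, by group⟩
              · rintro ⟨g', h1, h2, _⟩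
                exact ⟨h1, h2⟩
            conv_rhs => rw [hU1]
            rw [measure_iUnion]
            · congr 1; ext h
              rw [hU2 h, measure_iUnion]
              · intro g' g'' hne
                rw [Function.onFun, Set.disjoint_left]
                rintro z ⟨_, _, h1⟩ ⟨_, _, h2⟩
                apply hne
                rw [h1] at h2
                exact mul_right_cancel (mul_right_cancel h2)
              · exact fun g' => hSm g h g'
            · intro h h' hne
              rw [Function.onFun, Set.disjoint_left]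
              rintro z ⟨_, h1⟩ ⟨_, h2⟩
              exact hne (h1.symm.trans h2)
            · exact fun h => (hUm g).inter (hγmeas h)
    calc cost μ E' + μ (Y \ M) ≤ ∑' g, μ (U g) + ∑' g, (μ (P1 g) + μ (P2 g)) := by
          rw [hYMsum]; gcongr
      _ = ∑' g, (μ (U g) + (μ (P1 g) + μ (P2 g))) := ENNReal.tsum_add.symm
      _ = cost μ E := by
          unfold cost
          congr 1; ext g
          exact (hμE g).symm
  · -- the relation
    let s : Setoid Z :=
      { r := fun z w => (r ⊔ edge E') (γ z • z) (γ w • w)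
        iseqv := ⟨fun _ => (r ⊔ edge E').refl _, fun h => (r ⊔ edge E').symm h,
          fun h k => (r ⊔ edge E').trans h k⟩ }
    have h1 : r ≤ s := by
      intro z w hzw
      rcases hr z w hzw with rfl | ⟨hz, hw⟩
      · exact s.refl z
      · show (r ⊔ edge E') (γ z • z) (γ w • w)
        rw [hγM z hz, hγM w hw, one_smul, one_smul]
        exact (le_sup_left : r ≤ r ⊔ edge E') hzw
    have h2 : edge E ≤ s := by
      rw [edge_le_iff]
      intro g z hz
      show (r ⊔ edge E') (γ z • z) (γ (g • z) • (g • z))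
      by_cases hp1 : z ∈ P1 g
      · obtain ⟨⟨hzY, hzM⟩, hpz⟩ := hp1
        have := hγpar z (hYlev z hzY) hzM
        rw [hpz, mv_true] at this
        rw [this]
      · by_cases hp2 : z ∈ P2' g
        · obtain ⟨⟨hzY, hzM⟩, hpz⟩ := hp2
          have := hγpar (g • z) (hYlev _ hzY) hzM
          rw [hpz, mv_false, inv_smul_smul] at this
          rw [this]
        · have hzU : z ∈ U g := ⟨hz, fun h => h.elim hp1 hp2⟩
          refine (le_sup_right : edge E' ≤ r ⊔ edge E') ?_
          have hmem : γ z • z ∈ E' (γ (g • z) * g * (γ z)⁻¹) := by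
            rw [hE'mem]
            refine ⟨g, z, hzU, rfl, ?_, by group⟩
            rw [← mul_smul, ← mul_smul]
            congr 1
            group
          have := edge_of_mem hmem
          have heq : (γ (g • z) * g * (γ z)⁻¹) • γ z • z = γ (g • z) • (g • z) := by
            rw [← mul_smul, ← mul_smul]
            congr 1
            group
          rwa [heq] at this
    intro z hz w hw hzw
    have h3 : (r ⊔ edge E) ≤ s := sup_le h1 h2
    have h4 : (r ⊔ edge E') (γ z • z) (γ w • w) := h3 hzw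
    rwa [hγM z hz, hγM w hw, one_smul, one_smul] at h4

end Vale.Agent.P189
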