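import Vale.Agent.P189.Defs

/-!
# P189: the cheap action
-/

namespace Vale.Agent.P189

open MeasureTheory
open scoped ENNReal

section arcs

variable {Γ : Type} [Group Γ] {X : Type} [MeasurableSpace X] [MulAction Γ X] {μ : Measure X}

/-- The partial automorphism `x ↦ g • x` on `A`. -/
def PartialAut.ofSMul (hp : IsPmp Γ μ) (g : Γ) (A : Set X) (hA : MeasurableSet A) :
    PartialAut μ where
  dom := A
  cod := (fun x => g⁻¹ • x) ⁻¹' A
  map := fun x => g • x
  dom_meas := hA
  cod_meas := (hp g⁻¹).measurable hA
  bij := by
    refine ⟨?_, ?_, ?_⟩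
    · intro x hx
      show g⁻¹ • (g • x) ∈ A
      rwa [inv_smul_smul]
    · intro x _ y _ hxy
      exact MulAction.injective g hxy
    · intro y hy
      exact ⟨g⁻¹ • y, hy, smul_inv_smul g y⟩
  preserving := by
    have h := (hp g).restrict_preimage (s := (fun x => g⁻¹ • x) ⁻¹' A) ((hp g⁻¹).measurable hA)
    have h2 : (fun x : X => g • x) ⁻¹' ((fun x => g⁻¹ • x) ⁻¹' A) = A := by
      ext x
      show g⁻¹ • (g • x) ∈ A ↔ x ∈ A
      rw [inv_smul_smul]
    rwa [h2] at h

/-- Upper bound for the cost by a family of arcs which connects everything. -/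
theorem cost_le_of_arcs (hp : IsPmp Γ μ) (g : ℕ → Γ) (A : ℕ → Set X)
    (hA : ∀ i, MeasurableSet (A i))
    (hgen : ∀ (r : X → X → Prop), Equivalence r → (∀ i, ∀ x ∈ A i, r x (g i • x)) →
      ∀ (h : Γ) (x : X), r x (h • x)) :
    Cost Γ μ ≤ ∑' i, μ (A i) := by
  let Φ : ℕ → PartialAut μ := fun i => PartialAut.ofSMul hp (g i) (A i) (hA i)
  have h1 : IsGraphing Γ Φ := fun i x _ => ⟨g i, rfl⟩
  have h2 : Generates Γ Φ := by
    refine Filter.Eventually.of_forall fun x h => ?_
    exact hgen (Relation.EqvGen (Step Φ)) (Relation.EqvGen.is_equivalence _)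
      (fun i x hx => Relation.EqvGen.rel _ _ ⟨i, hx, rfl⟩) h x
  exact (iInf_le_of_le Φ (iInf_le_of_le h1 (iInf_le_of_le h2 le_rfl)))

end arcs

section circle

/-- The circle `ℝ/ℤ` has measure one. -/
theorem circle_prob : IsProbabilityMeasure (volume : Measure UnitAddCircle) :=
  ⟨UnitAddCircle.measure_univ⟩

/-- The irrational rotation number. -/
noncomputable def alpha : UnitAddCircle := ((Real.sqrt 2 : ℝ) : UnitAddCircle)

theorem exists_rotate_mem (z : UnitAddCircle) {r : ℝ} (hr : 0 < r) :
    ∃ n : ℤ, z + n • alpha ∈ Metric.ball (0 : UnitAddCircle) r := by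
  have hd : DenseRange (fun n : ℤ => n • alpha) := by
    have := (AddCircle.denseRange_zsmul_coe_iff (a := Real.sqrt 2) (p := 1)).mpr
      (by simpa using irrational_sqrt_two)
    exact this
  have ho : IsOpen ((fun w : UnitAddCircle => z + w) ⁻¹' Metric.ball (0 : UnitAddCircle) r) :=
    Metric.isOpen_ball.preimage (continuous_const.add continuous_id)
  obtain ⟨n, hn⟩ := hd.exists_mem_open ho ⟨-z, by simp [hr]⟩
  exact ⟨n, hn⟩

theorem volume_ball_le (r : ℝ) :
    volume (Metric.ball (0 : UnitAddCircle) r) ≤ ENNReal.ofReal (2 * r) := by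
  refine (measure_mono Metric.ball_subset_closedBall).trans ?_
  rw [AddCircle.volume_closedBall]
  exact ENNReal.ofReal_le_ofReal (min_le_right _ _)

end circle

section product

variable {Γ : Type} [Group Γ] {X : Type} [MulAction Γ X]

/-- The action of `Γ` on `X × 𝕋 × 𝕋` through two homomorphisms `θ, τ : Γ → ℤ` and the
irrational rotation. -/
@[reducible] noncomputable def circleAction (θ τ : Γ →* Multiplicative ℤ) :
    MulAction Γ (X × UnitAddCircle × UnitAddCircle) where
  smul g p := (g • p.1, p.2.1 + (Multiplicative.toAdd (θ g)) • alpha,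
    p.2.2 + (Multiplicative.toAdd (τ g)) • alpha)
  one_smul p := by
    show ((1 : Γ) • p.1, p.2.1 + (Multiplicative.toAdd (θ 1)) • alpha,
      p.2.2 + (Multiplicative.toAdd (τ 1)) • alpha) = p
    simp
  mul_smul g h p := by
    show ((g * h) • p.1, p.2.1 + (Multiplicative.toAdd (θ (g * h))) • alpha,
      p.2.2 + (Multiplicative.toAdd (τ (g * h))) • alpha)
      = (g • (h • p.1), (p.2.1 + (Multiplicative.toAdd (θ h)) • alpha)
          + (Multiplicative.toAdd (θ g)) • alpha,
        (p.2.2 + (Multiplicative.toAdd (τ h)) • alpha) + (Multiplicative.toAdd (τ g)) • alpha)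
    refine Prod.ext (mul_smul g h p.1) (Prod.ext ?_ ?_)
    · simp only [map_mul, toAdd_mul, add_smul]
      abel
    · simp only [map_mul, toAdd_mul, add_smul]
      abel

end product

section cheap

variable {Γ : Type} [Group Γ] {X : Type} [MeasurableSpace X] [MulAction Γ X] {μ : Measure X}
  [IsProbabilityMeasure μ]

/-- The product measure. -/
noncomputable abbrev circleMeasure (μ : Measure X) :
    Measure (X × UnitAddCircle × UnitAddCircle) :=
  μ.prod ((volume : Measure UnitAddCircle).prod (volume : Measure UnitAddCircle))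

theorem circle_isPmp (hp : IsPmp Γ μ) (θ τ : Γ →* Multiplicative ℤ) :
    letI := circleAction (X := X) θ τ
    IsPmp Γ (circleMeasure μ) := by
  intro g
  exact (hp g).prod ((measurePreserving_add_right volume _).prod
    (measurePreserving_add_right volume _))

theorem circle_essFree (hf : EssFree Γ μ) (θ τ : Γ →* Multiplicative ℤ) :
    letI := circleAction (X := X) θ τ
    EssFree Γ (circleMeasure μ) := by
  intro g hg
  refine measure_mono_null (t := {x | g • x = x} ×ˢ Set.univ) ?_ ?_
  · intro p hp
    exact ⟨congrArg Prod.fst hp, trivial⟩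
  · rw [Measure.prod_prod, hf g hg, zero_mul]

/-- **The cheap action has cost at most `1`.** -/
theorem cheap (hp : IsPmp Γ μ) (a c t : Γ)
    (hgen : Subgroup.closure ({a, c, t} : Set Γ) = ⊤)
    (htc : t * c = c * t) (htb : t * (a * c * a⁻¹ * a⁻¹) = (a * c * a⁻¹ * a⁻¹) * t)
    (θ τ : Γ →* Multiplicative ℤ)
    (hθa : θ a = Multiplicative.ofAdd 1) (hθc : θ c = Multiplicative.ofAdd 2)
    (hτt : τ t = Multiplicative.ofAdd 1) :
    letI := circleAction (X := X) θ τ
    Cost Γ (circleMeasure μ) ≤ 1 := by
  haveI := circle_prob
  letI := circleAction (X := X) θ τ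
  set b : Γ := a * c * a⁻¹ * a⁻¹ with hb
  have hpm := circle_isPmp hp θ τ
  have main : ∀ r : ℝ, 0 < r → Cost Γ (circleMeasure μ) ≤ 1 + ENNReal.ofReal (8 * r) := by
    intro r hr
    -- sets
    let E : Set (X × UnitAddCircle × UnitAddCircle) := {p | p.2.2 ∈ Metric.ball 0 r}
    let D : Set (X × UnitAddCircle × UnitAddCircle) :=
      {p | p.2.1 ∈ Metric.ball 0 r} ∪ {p | p.2.1 - alpha ∈ Metric.ball 0 r}
    have hEm : MeasurableSet E := (measurable_snd.comp measurable_snd) Metric.isOpen_ball.measurableSet
    have hD1 : MeasurableSet {p : X × UnitAddCircle × UnitAddCircle | p.2.1 ∈ Metric.ball 0 r} :=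
      (measurable_fst.comp measurable_snd) Metric.isOpen_ball.measurableSet
    have hD2 : MeasurableSet {p : X × UnitAddCircle × UnitAddCircle |
        p.2.1 - alpha ∈ Metric.ball 0 r} :=
      ((measurable_fst.comp measurable_snd).sub_const alpha) Metric.isOpen_ball.measurableSet
    have hDm : MeasurableSet D := hD1.union hD2
    have hEv : circleMeasure μ E ≤ ENNReal.ofReal (2 * r) := by
      have : E = Set.univ ×ˢ (Set.univ ×ˢ Metric.ball 0 r) := by
        ext p; simp [E]
      rw [this, Measure.prod_prod, Measure.prod_prod, measure_univ, measure_univ, one_mul, one_mul]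
      exact volume_ball_le r
    have hDv : circleMeasure μ D ≤ ENNReal.ofReal (2 * r) + ENNReal.ofReal (2 * r) := by
      refine (measure_union_le _ _).trans (add_le_add ?_ ?_)
      · have : {p : X × UnitAddCircle × UnitAddCircle | p.2.1 ∈ Metric.ball 0 r}
            = Set.univ ×ˢ (Metric.ball 0 r ×ˢ Set.univ) := by
          ext p; simp
        rw [this, Measure.prod_prod, Measure.prod_prod, measure_univ, measure_univ, one_mul, mul_one]
        exact volume_ball_le r
      · have : {p : X × UnitAddCircle × UnitAddCircle | p.2.1 - alpha ∈ Metric.ball 0 r}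
            = Set.univ ×ˢ (((fun w : UnitAddCircle => w + (-alpha)) ⁻¹' Metric.ball 0 r)
              ×ˢ Set.univ) := by
          ext p
          simp only [Set.mem_ofPred_eq, Set.mem_prod, Set.mem_univ, true_and, and_true,
            Set.mem_preimage, sub_eq_add_neg]
        rw [this, Measure.prod_prod, Measure.prod_prod, measure_univ, measure_univ, one_mul, mul_one,
          (measurePreserving_add_right (volume : Measure UnitAddCircle) (-alpha)).measure_preimage
            Metric.isOpen_ball.measurableSet.nullMeasurableSet]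
        exact volume_ball_le r
    -- the arcs
    let g : ℕ → Γ := fun i => if i = 0 then t else if i = 1 then b else if i = 2 then c else a
    let A : ℕ → Set (X × UnitAddCircle × UnitAddCircle) := fun i =>
      if i = 0 then Set.univ else if i = 1 then E else if i = 2 then E
        else if i = 3 then D else ∅
    have hA : ∀ i, MeasurableSet (A i) := by
      intro i
      simp only [A]
      split_ifs <;> first | exact MeasurableSet.univ | exact hEm | exact hDm | exact MeasurableSet.empty
    have hsum : ∑' i, circleMeasure μ (A i) ≤ 1 + ENNReal.ofReal (8 * r) := by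
      rw [tsum_eq_sum (s := Finset.range 4) (by
        intro i hi
        have : 4 ≤ i := by simpa using hi
        have h0 : A i = ∅ := by
          simp only [A]
          rw [if_neg (by omega), if_neg (by omega), if_neg (by omega), if_neg (by omega)]
        rw [h0, measure_empty])]
      have e0 : A 0 = Set.univ := rfl
      have e1 : A 1 = E := rfl
      have e2 : A 2 = E := rfl
      have e3 : A 3 = D := rfl
      simp only [Finset.sum_range_succ, Finset.sum_range_zero, zero_add, e0, e1, e2, e3,
        measure_univ]
      calc 1 + circleMeasure μ E + circleMeasure μ E + circleMeasure μ D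
          ≤ 1 + ENNReal.ofReal (2 * r) + ENNReal.ofReal (2 * r)
            + (ENNReal.ofReal (2 * r) + ENNReal.ofReal (2 * r)) := by gcongr
        _ = 1 + ENNReal.ofReal (8 * r) := by
            rw [add_assoc, add_assoc, ← ENNReal.ofReal_add (by positivity) (by positivity),
              ← ENNReal.ofReal_add (by positivity) (by positivity),
              ← ENNReal.ofReal_add (by positivity) (by positivity)]
            ring_nf
    refine (cost_le_of_arcs hpm g A hA ?_).trans hsum
    intro R hR hstep
    have st : ∀ x, R x (t • x) := fun x => hstep 0 x trivial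
    have sb : ∀ x ∈ E, R x (b • x) := fun x hx => hstep 1 x hx
    have sc : ∀ x ∈ E, R x (c • x) := fun x hx => hstep 2 x hx
    have sa : ∀ x ∈ D, R x (a • x) := fun x hx => hstep 3 x hx
    -- the elements moving everything inside R form a subgroup
    let H : Subgroup Γ :=
      { carrier := {h | ∀ x, R x (h • x)}
        one_mem' := fun x => by
          show R x ((1 : Γ) • x)
          rw [one_smul]; exact hR.refl x
        mul_mem' := by
          intro g h hg hh x
          show R x ((g * h) • x)
          rw [mul_smul]
          exact hR.trans (hh x) (hg (h • x))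
        inv_mem' := by
          intro g hg x
          have := hg (g⁻¹ • x)
          rw [smul_inv_smul] at this
          exact hR.symm this }
    have hHt : t ∈ H := st
    have hz : ∀ (n : ℤ) (x : X × UnitAddCircle × UnitAddCircle), R x (t ^ n • x) := fun n =>
      (H.zpow_mem hHt n)
    have hcoord : ∀ (n : ℤ) (x : X × UnitAddCircle × UnitAddCircle),
        (t ^ n • x).2.2 = x.2.2 + n • alpha := by
      intro n x
      show x.2.2 + (Multiplicative.toAdd (τ (t ^ n))) • alpha = _
      rw [map_zpow, hτt]
      simp
    have comm : ∀ h : Γ, t * h = h * t → (∀ x ∈ E, R x (h • x)) → h ∈ H := by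
      intro h hth hE x
      obtain ⟨n, hn⟩ := exists_rotate_mem x.2.2 hr
      have hx : t ^ n • x ∈ E := by
        show (t ^ n • x).2.2 ∈ Metric.ball 0 r
        rw [hcoord]; exact hn
      have h1 : R x (h • (t ^ n • x)) := hR.trans (hz n x) (hE _ hx)
      have h2 : h • (t ^ n • x) = t ^ n • (h • x) := by
        have hcm : Commute (t ^ n) h := (show Commute t h from hth).zpow_left n
        rw [← mul_smul, ← mul_smul, hcm.eq]
      rw [h2] at h1
      exact hR.trans h1 (hR.symm (hz n (h • x)))
    have hHc : c ∈ H := comm c htc sc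
    have hHb : b ∈ H := comm b htb sb
    -- propagation
    have key : ∀ x : X × UnitAddCircle × UnitAddCircle, b • (a • (a • x)) = a • (c • x) := by
      intro x
      rw [← mul_smul, ← mul_smul, ← mul_smul, hb]
      congr 1
      group
    have ca : ∀ x : X × UnitAddCircle × UnitAddCircle, (a • x).2.1 = x.2.1 + alpha := by
      intro x
      show x.2.1 + (Multiplicative.toAdd (θ a)) • alpha = _
      rw [hθa]; simp
    have cc : ∀ x : X × UnitAddCircle × UnitAddCircle, (c • x).2.1 = x.2.1 + (2 : ℤ) • alpha := by
      intro x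
      show x.2.1 + (Multiplicative.toAdd (θ c)) • alpha = _
      rw [hθc]; simp
    let Q : ℤ → Prop := fun n => ∀ x : X × UnitAddCircle × UnitAddCircle,
      x.2.1 - n • alpha ∈ Metric.ball (0 : UnitAddCircle) r → R x (a • x)
    have Q0 : Q 0 := by
      intro x hx
      refine sa x (Or.inl ?_)
      simpa using hx
    have Q1 : Q 1 := by
      intro x hx
      refine sa x (Or.inr ?_)
      simpa using hx
    have up : ∀ n, Q n → Q (n + 1) → Q (n + 2) := by
      intro n h0 h1 x hx
      -- x = c • y
      set y := c⁻¹ • x with hy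
      have hcy : c • y = x := smul_inv_smul c x
      have hy1 : x.2.1 = y.2.1 + (2 : ℤ) • alpha := by rw [← hcy, cc]
      have e1 : y.2.1 - n • alpha = x.2.1 - (n + 2) • alpha := by
        rw [hy1, add_smul]; abel
      have e2 : (a • y).2.1 - (n + 1) • alpha = x.2.1 - (n + 2) • alpha := by
        rw [hy1, ca, add_smul, add_smul, one_smul, two_smul]; abel
      have r1 : R y (a • y) := h0 y (by rw [e1]; exact hx)
      have r2 : R (a • y) (a • (a • y)) := h1 (a • y) (by rw [e2]; exact hx)
      have r3 : R (a • (a • y)) (a • (c • y)) := by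
        have := hHb (a • (a • y))
        rwa [key] at this
      have r4 : R y (c • y) := hHc y
      rw [hcy] at r3 r4
      exact hR.trans (hR.symm r4) (hR.trans r1 (hR.trans r2 r3))
    have down : ∀ n, Q (n + 1) → Q (n + 2) → Q n := by
      intro n h1 h2 x hx
      have e1 : (a • x).2.1 - (n + 1) • alpha = x.2.1 - n • alpha := by
        rw [ca, add_smul, one_smul]; abel
      have e2 : (c • x).2.1 - (n + 2) • alpha = x.2.1 - n • alpha := by
        rw [cc, add_smul]; abel
      have r1 : R (a • x) (a • (a • x)) := h1 (a • x) (by rw [e1]; exact hx)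
      have r2 : R (c • x) (a • (c • x)) := h2 (c • x) (by rw [e2]; exact hx)
      have r3 : R (a • (a • x)) (a • (c • x)) := by
        have := hHb (a • (a • x))
        rwa [key] at this
      have r4 : R x (c • x) := hHc x
      exact hR.trans r4 (hR.trans r2 (hR.trans (hR.symm r3) (hR.symm r1)))
    have Qall : ∀ n : ℤ, Q n ∧ Q (n + 1) := by
      intro n
      induction n using Int.induction_on with
      | zero => exact ⟨Q0, by simpa using Q1⟩
      | succ n ih =>
        refine ⟨ih.2, ?_⟩
        have := up _ ih.1 ih.2
        rwa [show (n : ℤ) + 1 + 1 = n + 2 by ring]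
      | pred n ih =>
        refine ⟨?_, ?_⟩
        · have := down (-(n : ℤ) - 1) (by
            rw [show -(n : ℤ) - 1 + 1 = -n by ring]; exact ih.1) (by
            rw [show -(n : ℤ) - 1 + 2 = -n + 1 by ring]; exact ih.2)
          exact this
        · rw [show -(n : ℤ) - 1 + 1 = -n by ring]; exact ih.1
    have hHa : a ∈ H := by
      intro x
      obtain ⟨n, hn⟩ := exists_rotate_mem x.2.1 hr
      refine (Qall (-n)).1 x ?_
      rwa [neg_smul, sub_neg_eq_add]
    have htop : H = ⊤ := by
      rw [eq_top_iff, ← hgen, Subgroup.closure_le]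
      rintro x (rfl | rfl | rfl)
      · exact hHa
      · exact hHc
      · exact hHt
    intro h x
    have : h ∈ H := by rw [htop]; trivial
    exact this x
  refine ENNReal.le_of_forall_pos_le_add fun ε hε _ => ?_
  have := main ((ε : ℝ) / 8) (by positivity)
  rwa [show (8 : ℝ) * ((ε : ℝ) / 8) = ε by ring, ENNReal.ofReal_coe_nnreal] at this

end cheap

end Vale.Agent.P189
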