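import Mathlib

/-!
# P189: Gaboriau's fixed price problem — definitions

A countable group `Γ` acts by measure-preserving Borel automorphisms on a standard probability
space `(X, μ)` (the action is written on the left; `x g` of the problem file is `g⁻¹ • x`, the
orbit equivalence relation is the same).
-/

namespace Vale.Agent.P189

open MeasureTheory
open scoped ENNReal

/-- A measure-preserving Borel bijection `dom → cod` between Borel subsets of `X`.  It is given by
a Borel map `X → X` of which only the restriction to `dom` is used. -/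
structure PartialAut {X : Type} [MeasurableSpace X] (μ : Measure X) where
  /-- the domain `A` -/
  dom : Set X
  /-- the range `B` -/
  cod : Set X
  /-- the map `φ : A → B` -/
  map : X → X
  dom_meas : MeasurableSet dom
  cod_meas : MeasurableSet cod
  bij : Set.BijOn map dom cod
  preserving : MeasurePreserving map (μ.restrict dom) (μ.restrict cod)

variable {X : Type} [MeasurableSpace X] {μ : Measure X}

/-- The countable family `Φ` is a graphing of the orbit equivalence relation of `Γ ↷ X`:
`(x, φ_i(x))` lies in the relation for every `x` in the domain of `φ_i`.  (The family is indexed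
by `ℕ`; domains may be empty, so finite families are included.) -/
def IsGraphing (Γ : Type) [Group Γ] [MulAction Γ X] (Φ : ℕ → PartialAut μ) : Prop :=
  ∀ i, ∀ x ∈ (Φ i).dom, ∃ g : Γ, (Φ i).map x = g • x

/-- `y = φ_i(x)` for some `i`. -/
def Step (Φ : ℕ → PartialAut μ) (x y : X) : Prop :=
  ∃ i, x ∈ (Φ i).dom ∧ (Φ i).map x = y

/-- `Φ` generates the orbit relation: for almost every `x`, every point `y = g • x` of the orbit
of `x` is reached from `x` by a finite chain of the maps `φ_i^{±1}`. -/
def Generates (Γ : Type) [Group Γ] [MulAction Γ X] (Φ : ℕ → PartialAut μ) : Prop :=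
  ∀ᵐ x ∂μ, ∀ g : Γ, Relation.EqvGen (Step Φ) x (g • x)

/-- The cost of the graphing `Φ`. -/
noncomputable def graphingCost (Φ : ℕ → PartialAut μ) : ℝ≥0∞ :=
  ∑' i, μ (Φ i).dom

/-- The cost of the action `Γ ↷ (X, μ)`: the infimum of the costs of the generating graphings. -/
noncomputable def Cost (Γ : Type) [Group Γ] [MulAction Γ X] (μ : Measure X) : ℝ≥0∞ :=
  ⨅ (Φ : ℕ → PartialAut μ) (_ : IsGraphing Γ Φ) (_ : Generates Γ Φ), graphingCost Φ

/-- `Γ` acts on `(X, μ)` by measure-preserving Borel automorphisms. -/
def IsPmp (Γ : Type) [Group Γ] [MulAction Γ X] (μ : Measure X) : Prop :=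
  ∀ g : Γ, MeasurePreserving (fun x : X => g • x) μ μ

/-- The action is essentially free: each `g ≠ 1` fixes only a null set of points. -/
def EssFree (Γ : Type) [Group Γ] [MulAction Γ X] (μ : Measure X) : Prop :=
  ∀ g : Γ, g ≠ 1 → μ {x | g • x = x} = 0

/-- `Γ` has fixed price: all its essentially free p.m.p. actions on standard probability spaces
have the same cost. -/
def FixedPrice (Γ : Type) [Group Γ] : Prop :=
  ∀ (X Y : Type) [MeasurableSpace X] [StandardBorelSpace X] [MeasurableSpace Y]
    [StandardBorelSpace Y] (μ : Measure X) (ν : Measure Y) [IsProbabilityMeasure μ]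
    [IsProbabilityMeasure ν] [MulAction Γ X] [MulAction Γ Y],
    IsPmp Γ μ → IsPmp Γ ν → EssFree Γ μ → EssFree Γ ν → Cost Γ μ = Cost Γ ν

end Vale.Agent.P189
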