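import Vale.Agent.P189.Gap
import Vale.Agent.P189.Cheap

/-!
# P189: the two actions are ergodic
-/

namespace Vale.Agent.P189

open MeasureTheory
open scoped ENNReal symmDiff

variable {Γ : Type} [Group Γ]

omit [Group Γ] in
/-- Cylinder sets over disjoint finite sets are independent. -/
theorem bern_indep [DecidableEq Γ] {s s' : Finset Γ} (hss : Disjoint s s')
    {A : Set (s → Bool)} {B : Set (s' → Bool)} :
    bern Γ (s.restrict ⁻¹' A ∩ s'.restrict ⁻¹' B)
      = bern Γ (s.restrict ⁻¹' A) * bern Γ (s'.restrict ⁻¹' B) := by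
  have h1 : ProbabilityTheory.iIndepFun (fun (i : Γ) (ω : Γ → Bool) => ω i) (bern Γ) :=
    ProbabilityTheory.iIndepFun_infinitePi (P := fun _ : Γ => coin) (X := fun _ b => b)
      (fun _ => measurable_id)
  have h2 := h1.indepFun_finset s s' hss (fun i => measurable_pi_apply i)
  exact h2.measure_inter_preimage_eq_mul A B MeasurableSet.of_discrete MeasurableSet.of_discrete

/-- Zero-one law for sets invariant under infinitely many elements. -/
theorem bern_zero_one {N : Set Γ} (hN : N.Infinite) {K : Set (Γ → Bool)}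
    (hK : MeasurableSet K)
    (hinv : letI := shiftAction (Γ := Γ);
      ∀ g ∈ N, bern Γ (K ∆ ((fun x => g • x) ⁻¹' K)) = 0) :
    (bern Γ).real K = 0 ∨ (bern Γ).real K = 1 := by
  classical
  letI := shiftAction (Γ := Γ)
  have key : (bern Γ).real K = (bern Γ).real K ^ 2 := by
    have habs : |(bern Γ).real K - (bern Γ).real K ^ 2| ≤ 0 := by
      refine le_of_forall_pos_le_add fun ε hε => ?_
      obtain ⟨L, hL, hKL⟩ := (bern_dense (Γ := Γ)).approx K hK (measure_ne_top _ _) (ε / 10)
        (by positivity)
      have hLm : MeasurableSet L := MeasurableSet.of_mem_measurableCylinders hL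
      set δ : ℝ := ε / 10 with hδ
      have hd : (bern Γ).real (K ∆ L) ≤ δ := by
        rw [Measure.real]
        exact ENNReal.toReal_le_of_le_ofReal (by positivity) hKL.le
      obtain ⟨s, A, -, heq0⟩ := (mem_measurableCylinders L).mp hL
      have heq : L = s.restrict ⁻¹' A := heq0
      -- choose g
      obtain ⟨g, hgN, hg⟩ : ∃ g ∈ N, ∀ h ∈ s, g * h ∉ s := by
        have hfin : ((s ×ˢ s).image (fun p : Γ × Γ => p.2 * p.1⁻¹) : Set Γ).Finite :=
          Finset.finite_toSet _
        obtain ⟨g, hgN, hg⟩ := hN.exists_notMem_finite hfin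
        refine ⟨g, hgN, fun h hh hgh => hg ?_⟩
        rw [Finset.mem_coe, Finset.mem_image]
        exact ⟨(h, g * h), Finset.mem_product.mpr ⟨hh, hgh⟩, by simp⟩
      set s' : Finset Γ := s.map (Equiv.mulLeft g⁻¹).toEmbedding with hs'
      have hdisj : Disjoint s s' := by
        rw [Finset.disjoint_left]
        intro k hk hk'
        simp only [hs', Finset.mem_map, Equiv.coe_toEmbedding, Equiv.coe_mulLeft] at hk'
        obtain ⟨h, hh, rfl⟩ := hk'
        exact hg _ hk (by rwa [mul_inv_cancel_left])
      set gL : Set (Γ → Bool) := (fun x => g • x) ⁻¹' L with hgL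
      have hgLm : MeasurableSet gL := (shift_isPmp (Γ := Γ) g).measurable hLm
      have heq' : gL = s'.restrict ⁻¹' {y : s' → Bool | (fun h : s => (y ⟨g⁻¹ * h.1,
          Finset.mem_map.mpr ⟨h.1, h.2, rfl⟩⟩ : Bool)) ∈ A} := by
        ext x
        rw [hgL, Set.mem_preimage, heq]
        rfl
      have hind : (bern Γ).real (L ∩ gL) = (bern Γ).real L * (bern Γ).real gL := by
        unfold Measure.real
        rw [← ENNReal.toReal_mul]
        congr 1
        conv_lhs => rw [heq, heq']
        conv_rhs => rw [heq, heq']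
        exact bern_indep hdisj
      have hmeasgL : (bern Γ).real gL = (bern Γ).real L := by
        unfold Measure.real
        rw [hgL, (shift_isPmp (Γ := Γ) g).measure_preimage hLm.nullMeasurableSet]
      have hshift : (bern Γ).real (((fun x => g • x) ⁻¹' K) ∆ gL) = (bern Γ).real (K ∆ L) := by
        rw [hgL, ← Set.preimage_symmDiff]
        unfold Measure.real
        rw [(shift_isPmp (Γ := Γ) g).measure_preimage (hK.symmDiff hLm).nullMeasurableSet]
      have hKg : (bern Γ).real (K ∆ ((fun x => g • x) ⁻¹' K)) = 0 := by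
        unfold Measure.real
        rw [hinv g hgN]; rfl
      have htri : ∀ S T U : Set (Γ → Bool), (bern Γ).real (S ∆ U)
          ≤ (bern Γ).real (S ∆ T) + (bern Γ).real (T ∆ U) := by
        intro S T U
        refine (measureReal_mono (symmDiff_triangle S T U) (measure_ne_top _ _)).trans ?_
        exact measureReal_union_le _ _
      have hclose : ∀ S T : Set (Γ → Bool),
          |(bern Γ).real S - (bern Γ).real T| ≤ (bern Γ).real (S ∆ T) := by
        intro S T
        have e1 : (bern Γ).real S ≤ (bern Γ).real T + (bern Γ).real (S ∆ T) := by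
          refine (measureReal_mono (s₂ := T ∪ (S ∆ T)) ?_ (measure_ne_top _ _)).trans
            (measureReal_union_le _ _)
          intro x hx
          by_cases h : x ∈ T
          · exact Or.inl h
          · exact Or.inr (Or.inl ⟨hx, h⟩)
        have e2 : (bern Γ).real T ≤ (bern Γ).real S + (bern Γ).real (S ∆ T) := by
          refine (measureReal_mono (s₂ := S ∪ (S ∆ T)) ?_ (measure_ne_top _ _)).trans
            (measureReal_union_le _ _)
          intro x hx
          by_cases h : x ∈ S
          · exact Or.inl h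
          · exact Or.inr (Or.inr ⟨hx, h⟩)
        rw [abs_le]
        constructor <;> linarith
      -- K is close to L ∩ gL
      have hKgL : (bern Γ).real (K ∆ gL) ≤ δ := by
        have := htri K ((fun x => g • x) ⁻¹' K) gL
        rw [hKg, hshift] at this
        linarith
      have hint : (bern Γ).real (K ∆ (L ∩ gL)) ≤ 2 * δ := by
        have hsub : K ∆ (L ∩ gL) ⊆ (K ∆ L) ∪ (K ∆ gL) := by
          rintro x (⟨hx, hx'⟩ | ⟨⟨hx1, hx2⟩, hx⟩)
          · by_cases h : x ∈ L
            · exact Or.inr (Or.inl ⟨hx, fun h' => hx' ⟨h, h'⟩⟩)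
            · exact Or.inl (Or.inl ⟨hx, h⟩)
          · exact Or.inl (Or.inr ⟨hx1, hx⟩)
        refine (measureReal_mono hsub (measure_ne_top _ _)).trans
          ((measureReal_union_le _ _).trans ?_)
        linarith
      have h1 := (hclose K (L ∩ gL)).trans hint
      rw [hind, hmeasgL] at h1
      have h2 := (hclose K L).trans hd
      have hK01 : 0 ≤ (bern Γ).real K ∧ (bern Γ).real K ≤ 1 :=
        ⟨measureReal_nonneg, measureReal_le_one⟩
      have hL01 : 0 ≤ (bern Γ).real L ∧ (bern Γ).real L ≤ 1 :=
        ⟨measureReal_nonneg, measureReal_le_one⟩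
      have h5 : 10 * δ = ε := by rw [hδ]; ring
      have hδ0 : 0 < δ := by rw [hδ]; positivity
      rw [abs_le] at h1 h2 ⊢
      have h6 : (bern Γ).real L * (bern Γ).real L - (bern Γ).real K ^ 2
          = ((bern Γ).real L - (bern Γ).real K) * ((bern Γ).real L + (bern Γ).real K) := by ring
      have h7 : -(2 * δ) ≤ (bern Γ).real L * (bern Γ).real L - (bern Γ).real K ^ 2 ∧
          (bern Γ).real L * (bern Γ).real L - (bern Γ).real K ^ 2 ≤ 2 * δ := by
        rw [h6]
        constructor
        · nlinarith [h2.1, h2.2, hK01.1, hK01.2, hL01.1, hL01.2]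
        · nlinarith [h2.1, h2.2, hK01.1, hK01.2, hL01.1, hL01.2]
      constructor <;> linarith [h7.1, h7.2, h1.1, h1.2]
    have := abs_nonneg ((bern Γ).real K - (bern Γ).real K ^ 2)
    have h0 : |(bern Γ).real K - (bern Γ).real K ^ 2| = 0 := le_antisymm habs this
    linarith [abs_eq_zero.mp h0]
  have h : (bern Γ).real K * (1 - (bern Γ).real K) = 0 := by
    have : (bern Γ).real K * (1 - (bern Γ).real K) = (bern Γ).real K - (bern Γ).real K ^ 2 := by
      ring
    rw [this]; linarith
  rcases mul_eq_zero.mp h with h | h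
  · exact Or.inl h
  · exact Or.inr (by linarith)

/-- A set of measure zero or one is almost everywhere constant. -/
theorem eventuallyConst_of_measure {α : Type} [MeasurableSpace α] {μ : Measure α}
    [IsProbabilityMeasure μ] {K : Set α} (hK : MeasurableSet K)
    (h : μ.real K = 0 ∨ μ.real K = 1) : Filter.EventuallyConst K (ae μ) := by
  rw [Filter.eventuallyConst_set']
  rcases h with h | h
  · left
    have : μ K = 0 := by
      rw [Measure.real, ENNReal.toReal_eq_zero_iff] at h
      exact h.resolve_right (measure_ne_top _ _)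
    exact ae_eq_empty.mpr this
  · right
    have h1 : μ K = 1 := by
      rw [Measure.real] at h
      rw [← ENNReal.ofReal_toReal (measure_ne_top μ K), h, ENNReal.ofReal_one]
    exact ae_eq_univ.mpr ((prob_compl_eq_zero_iff hK).mpr h1)

/-- The Bernoulli shift of an infinite group is ergodic. -/
theorem shift_ergodic [Infinite Γ] :
    letI := shiftAction (Γ := Γ)
    ErgodicSMul Γ (Γ → Bool) (bern Γ) := by
  letI := shiftAction (Γ := Γ)
  refine { measure_preimage_smul := ?_, aeconst_of_forall_preimage_smul_ae_eq := ?_ }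
  · intro g s hs
    exact (shift_isPmp (Γ := Γ) g).measure_preimage hs.nullMeasurableSet
  · intro K hK hinv
    refine eventuallyConst_of_measure hK (bern_zero_one (N := Set.univ) Set.infinite_univ hK ?_)
    intro g _
    rw [symmDiff_comm]
    exact measure_symmDiff_eq_zero_iff.mpr (hinv g)

section fubini

variable {X Y : Type} [MeasurableSpace X] [MeasurableSpace Y] {μ : Measure X} {ν : Measure Y}
  [IsProbabilityMeasure μ] [IsProbabilityMeasure ν]

theorem ae_section {K L : Set (X × Y)} (hK : MeasurableSet K) (hL : MeasurableSet L)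
    (h : K =ᵐ[μ.prod ν] L) :
    ∀ᵐ y ∂ν, μ ({x | (x, y) ∈ K} ∆ {x | (x, y) ∈ L}) = 0 := by
  have h0 : (μ.prod ν) (K ∆ L) = 0 := measure_symmDiff_eq_zero_iff.mpr h
  rw [Measure.prod_apply_symm (hK.symmDiff hL),
    lintegral_eq_zero_iff (measurable_measure_prodMk_right (hK.symmDiff hL))] at h0
  filter_upwards [h0] with y hy
  exact hy

theorem prod_of_sections {K : Set (X × Y)} (hK : MeasurableSet K)
    (h : ∀ᵐ y ∂ν, μ.real {x | (x, y) ∈ K} = 0 ∨ μ.real {x | (x, y) ∈ K} = 1) :
    (μ.prod ν).real K = ν.real {y | μ.real {x | (x, y) ∈ K} = 1} := by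
  have hm : Measurable (fun y => μ {x | (x, y) ∈ K}) := measurable_measure_prodMk_right hK
  have hB : MeasurableSet {y | μ.real {x | (x, y) ∈ K} = 1} :=
    (hm.ennreal_toReal) (measurableSet_singleton 1)
  have key : (μ.prod ν) K = ν {y | μ.real {x | (x, y) ∈ K} = 1} := by
    rw [Measure.prod_apply_symm hK, ← lintegral_indicator_one hB]
    refine lintegral_congr_ae ?_
    filter_upwards [h] with y hy
    show μ {x | (x, y) ∈ K} = _
    rcases hy with hy | hy
    · rw [Set.indicator_of_notMem]
      · rw [Measure.real, ENNReal.toReal_eq_zero_iff] at hy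
        exact hy.resolve_right (measure_ne_top _ _)
      · intro h1
        have h2 : μ.real {x | (x, y) ∈ K} = 1 := h1
        rw [hy] at h2
        exact zero_ne_one h2
    · rw [Set.indicator_of_mem (show y ∈ {y | μ.real {x | (x, y) ∈ K} = 1} from hy)]
      rw [Measure.real] at hy
      rw [← ENNReal.ofReal_toReal (measure_ne_top μ _), hy, ENNReal.ofReal_one]
      rfl
  rw [Measure.real, key]
  rfl

end fubini

section torus

theorem alpha_ergodic : Ergodic (fun y : UnitAddCircle => y + alpha) := by
  have hd : DenseRange (fun n : ℤ => n • alpha) := by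
    have := (AddCircle.denseRange_zsmul_coe_iff (a := Real.sqrt 2) (p := 1)).mpr
      (by simpa using irrational_sqrt_two)
    exact this
  exact AddCircle.ergodic_add_right.mpr (AddCircle.denseRange_zsmul_iff.mp hd)

theorem circle_zero_one {S : Set UnitAddCircle} (hS : MeasurableSet S)
    (h : volume (((fun y : UnitAddCircle => y + alpha) ⁻¹' S) ∆ S) = 0) :
    (volume : Measure UnitAddCircle).real S = 0 ∨ (volume : Measure UnitAddCircle).real S = 1 := by
  have h1 := alpha_ergodic.quasiErgodic.ae_empty_or_univ₀ hS.nullMeasurableSet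
    (measure_symmDiff_eq_zero_iff.mp h)
  rcases h1 with h1 | h1
  · left
    rw [Measure.real, measure_congr h1]; simp
  · right
    rw [Measure.real, measure_congr h1]; simp

theorem torus_zero_one {B : Set (UnitAddCircle × UnitAddCircle)} (hB : MeasurableSet B)
    (h1 : ((fun p : UnitAddCircle × UnitAddCircle => (p.1 + alpha, p.2)) ⁻¹' B)
      =ᵐ[(volume : Measure UnitAddCircle).prod (volume : Measure UnitAddCircle)] B)
    (h2 : ((fun p : UnitAddCircle × UnitAddCircle => (p.1, p.2 + alpha)) ⁻¹' B)
      =ᵐ[(volume : Measure UnitAddCircle).prod (volume : Measure UnitAddCircle)] B) :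
    ((volume : Measure UnitAddCircle).prod (volume : Measure UnitAddCircle)).real B = 0 ∨
    ((volume : Measure UnitAddCircle).prod (volume : Measure UnitAddCircle)).real B = 1 := by
  haveI := circle_prob
  have hm1 : Measurable (fun p : UnitAddCircle × UnitAddCircle => (p.1 + alpha, p.2)) :=
    (measurable_fst.add_const alpha).prodMk measurable_snd
  have hm2 : Measurable (fun p : UnitAddCircle × UnitAddCircle => (p.1, p.2 + alpha)) :=
    measurable_fst.prodMk (measurable_snd.add_const alpha)
  have s1 := ae_section (hm1 hB) hB h1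
  have s2 := ae_section (hm2 hB) hB h2
  have hsec : ∀ᵐ y ∂(volume : Measure UnitAddCircle),
      (volume : Measure UnitAddCircle).real {x | (x, y) ∈ B} = 0 ∨
      (volume : Measure UnitAddCircle).real {x | (x, y) ∈ B} = 1 := by
    filter_upwards [s1] with y hy
    exact circle_zero_one (measurable_prodMk_right hB) hy
  rw [prod_of_sections hB hsec]
  have hm : Measurable (fun y : UnitAddCircle => (volume : Measure UnitAddCircle) {x | (x, y) ∈ B}) :=
    measurable_measure_prodMk_right hB
  have hC : MeasurableSet {y : UnitAddCircle | (volume : Measure UnitAddCircle).real {x | (x, y) ∈ B} = 1} :=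
    (hm.ennreal_toReal) (measurableSet_singleton 1)
  refine circle_zero_one hC (measure_symmDiff_eq_zero_iff.mpr ?_)
  rw [Filter.eventuallyEq_set]
  filter_upwards [s2] with y hy
  have h3 : (volume : Measure UnitAddCircle) {x | (x, y + alpha) ∈ B}
      = (volume : Measure UnitAddCircle) {x | (x, y) ∈ B} :=
    measure_congr (measure_symmDiff_eq_zero_iff.mp hy)
  show (volume : Measure UnitAddCircle).real {x | (x, y + alpha) ∈ B} = 1 ↔
    (volume : Measure UnitAddCircle).real {x | (x, y) ∈ B} = 1
  rw [Measure.real, Measure.real, h3]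

end torus

/-- rotation of the torus by an element of `Γ` -/
noncomputable def rot (θ τ : Γ →* Multiplicative ℤ) (g : Γ)
    (y : UnitAddCircle × UnitAddCircle) : UnitAddCircle × UnitAddCircle :=
  (y.1 + (Multiplicative.toAdd (θ g)) • alpha, y.2 + (Multiplicative.toAdd (τ g)) • alpha)

theorem rot_eq_self (θ τ : Γ →* Multiplicative ℤ) {g : Γ} (h1 : θ g = 1) (h2 : τ g = 1)
    (y : UnitAddCircle × UnitAddCircle) : rot θ τ g y = y := by
  unfold rot
  rw [h1, h2]
  simp

/-- Zero-one law for invariant sets of the product action. -/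
theorem circle_zero_one' [Countable Γ] (θ τ : Γ →* Multiplicative ℤ)
    (hN : {g : Γ | θ g = 1 ∧ τ g = 1}.Infinite)
    {a t : Γ} (ha1 : θ a = Multiplicative.ofAdd 1) (ha2 : τ a = 1)
    (ht1 : θ t = 1) (ht2 : τ t = Multiplicative.ofAdd 1)
    {K : Set ((Γ → Bool) × UnitAddCircle × UnitAddCircle)} (hK : MeasurableSet K)
    (hsec0 : letI := shiftAction (Γ := Γ); ∀ g : Γ, ∀ᵐ y ∂((volume : Measure UnitAddCircle).prod
        (volume : Measure UnitAddCircle)),
        bern Γ (((fun x : Γ → Bool => g • x) ⁻¹' {x | (x, rot θ τ g y) ∈ K})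
          ∆ {x | (x, y) ∈ K}) = 0) :
    (circleMeasure (bern Γ)).real K = 0 ∨ (circleMeasure (bern Γ)).real K = 1 := by
  haveI := circle_prob
  letI act1 := shiftAction (Γ := Γ)
  have hKy : ∀ y, MeasurableSet {x : Γ → Bool | (x, y) ∈ K} := fun y => measurable_prodMk_right hK
  have hsecN : ∀ᵐ y ∂((volume : Measure UnitAddCircle).prod (volume : Measure UnitAddCircle)),
      (bern Γ).real {x | (x, y) ∈ K} = 0 ∨ (bern Γ).real {x | (x, y) ∈ K} = 1 := by
    have hall := ae_all_iff.mpr hsec0
    filter_upwards [hall] with y hy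
    refine bern_zero_one hN (hKy y) ?_
    intro g hg
    have h1 := hy g
    rw [symmDiff_comm, rot_eq_self θ τ hg.1 hg.2] at h1
    exact h1
  have hm : Measurable (fun y : UnitAddCircle × UnitAddCircle => bern Γ {x | (x, y) ∈ K}) :=
    measurable_measure_prodMk_right hK
  have hB : MeasurableSet {y : UnitAddCircle × UnitAddCircle |
      (bern Γ).real {x | (x, y) ∈ K} = 1} :=
    (hm.ennreal_toReal) (measurableSet_singleton 1)
  have hrot : ∀ g : Γ, ∀ᵐ y ∂((volume : Measure UnitAddCircle).prod
      (volume : Measure UnitAddCircle)),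
      ((bern Γ).real {x | (x, rot θ τ g y) ∈ K} = 1 ↔
      (bern Γ).real {x | (x, y) ∈ K} = 1) := by
    intro g
    filter_upwards [hsec0 g] with y hy
    have h1 := measure_congr (measure_symmDiff_eq_zero_iff.mp hy)
    have h3 := (shift_isPmp (Γ := Γ) g).measure_preimage (hKy (rot θ τ g y)).nullMeasurableSet
    have h4 : bern Γ {x | (x, rot θ τ g y) ∈ K} = bern Γ {x | (x, y) ∈ K} := h3.symm.trans h1
    rw [Measure.real, Measure.real, h4]
  have hmain : (circleMeasure (bern Γ)).real K
      = ((volume : Measure UnitAddCircle).prod (volume : Measure UnitAddCircle)).real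
        {y | (bern Γ).real {x | (x, y) ∈ K} = 1} := prod_of_sections hK hsecN
  rw [hmain]
  have ra : ∀ y, rot θ τ a y = (y.1 + alpha, y.2) := by
    intro y; unfold rot; rw [ha1, ha2]; simp
  have rt : ∀ y, rot θ τ t y = (y.1, y.2 + alpha) := by
    intro y; unfold rot; rw [ht1, ht2]; simp
  refine torus_zero_one hB ?_ ?_
  · rw [Filter.eventuallyEq_set]
    filter_upwards [hrot a] with y hy
    rw [ra] at hy
    exact hy
  · rw [Filter.eventuallyEq_set]
    filter_upwards [hrot t] with y hy
    rw [rt] at hy
    exact hy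

/-- The product action is ergodic. -/
theorem circle_ergodic [Countable Γ] (θ τ : Γ →* Multiplicative ℤ)
    (hN : {g : Γ | θ g = 1 ∧ τ g = 1}.Infinite)
    {a t : Γ} (ha1 : θ a = Multiplicative.ofAdd 1) (ha2 : τ a = 1)
    (ht1 : θ t = 1) (ht2 : τ t = Multiplicative.ofAdd 1) :
    letI := shiftAction (Γ := Γ)
    letI := circleAction (X := Γ → Bool) θ τ
    ErgodicSMul Γ ((Γ → Bool) × UnitAddCircle × UnitAddCircle) (circleMeasure (bern Γ)) := by
  haveI := circle_prob
  letI act1 := shiftAction (Γ := Γ)
  letI act2 := circleAction (X := Γ → Bool) θ τ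
  have hpm := circle_isPmp (shift_isPmp (Γ := Γ)) θ τ
  refine { measure_preimage_smul := ?_, aeconst_of_forall_preimage_smul_ae_eq := ?_ }
  · intro g s hs
    exact (hpm g).measure_preimage hs.nullMeasurableSet
  · intro K hK hinv
    refine eventuallyConst_of_measure hK (circle_zero_one' θ τ hN ha1 ha2 ht1 ht2 hK ?_)
    intro g
    have hm : MeasurableSet ((fun p : (Γ → Bool) × UnitAddCircle × UnitAddCircle => g • p) ⁻¹' K) :=
      (hpm g).measurable hK
    have h0 := ae_section (μ := bern Γ)
      (ν := (volume : Measure UnitAddCircle).prod (volume : Measure UnitAddCircle))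
      (K := (fun p : (Γ → Bool) × UnitAddCircle × UnitAddCircle => g • p) ⁻¹' K) (L := K)
      hm hK (hinv g)
    filter_upwards [h0] with y hy
    have he : {x : Γ → Bool | (x, y) ∈
        ((fun p : (Γ → Bool) × UnitAddCircle × UnitAddCircle => g • p) ⁻¹' K)}
        = ((fun x : Γ → Bool => g • x) ⁻¹' {x | (x, rot θ τ g y) ∈ K}) := by
      ext x
      exact Iff.rfl
    rw [he] at hy
    exact hy

end Vale.Agent.P189
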