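import Mathlib

namespace Vale.Agent.P189

open scoped commutatorElement

/-- The two relators `[t, c]` and `[t, a c a⁻²]`, where `x 0 = a`, `x 1 = c`, `x 2 = t` are the
free generators. -/
def gamRels : Set (FreeGroup (Fin 3)) :=
  let x : Fin 3 → FreeGroup (Fin 3) := FreeGroup.of
  {⁅x 2, x 1⁆, ⁅x 2, x 0 * x 1 * (x 0)⁻¹ * (x 0)⁻¹⁆}

/-- The finitely presented group `⟨a, c, t | [t, c] = 1, [t, a c a⁻²] = 1⟩`. -/
abbrev Gam : Type := PresentedGroup gamRels

end Vale.Agent.P189
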