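import Vale.Agent.P189.GrpAmalg

/-!
# P189: normal form for `A *_C (C × ⟨t⟩)`
-/

namespace Vale.Agent.P189.Grp

open HNNExtension

section

variable {A : Type*} [Group A] (C : Subgroup A)

/-- The HNN extension in which the stable letter commutes with `C`. -/
abbrev HN : Type _ := HNNExtension A C C (MulEquiv.refl C)

/-- the stable letter commutes with `C` -/
theorem hn_comm (c : A) (hc : c ∈ C) : (t : HN C) * of c = of c * t := by
  have := t_mul_of (φ := MulEquiv.refl C) ⟨c, hc⟩
  exact this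

theorem hn_comm_zpow (c : A) (hc : c ∈ C) (k : ℤ) : (t : HN C) ^ k * of c = of c * t ^ k := by
  have h : Commute (t : HN C) (of c) := hn_comm C c hc
  exact (h.zpow_left k).eq

/-- the subgroup `C × ⟨t⟩` -/
def hnG : Subgroup (HN C) where
  carrier := {g | ∃ c ∈ C, ∃ k : ℤ, g = of c * t ^ k}
  one_mem' := ⟨1, C.one_mem, 0, by simp⟩
  mul_mem' := by
    rintro _ _ ⟨c, hc, k, rfl⟩ ⟨c', hc', k', rfl⟩
    refine ⟨c * c', C.mul_mem hc hc', k + k', ?_⟩
    rw [map_mul, zpow_add, mul_assoc, ← mul_assoc (t ^ k), hn_comm_zpow C c' hc' k]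
    group
  inv_mem' := by
    rintro _ ⟨c, hc, k, rfl⟩
    refine ⟨c⁻¹, C.inv_mem hc, -k, ?_⟩
    rw [← hn_comm_zpow C _ (C.inv_mem hc), mul_inv_rev, map_inv, zpow_neg]

/-- the two factors -/
def hnH : Bool → Subgroup (HN C) := fun b => cond b (of : A →* HN C).range (hnG C)

theorem exists_unit_pow (k : ℤ) (hk : k ≠ 0) : ∃ (u : ℤˣ) (n : ℕ), k = (u : ℤ) * (n + 1 : ℕ) := by
  rcases lt_or_gt_of_ne hk with h | h
  · refine ⟨-1, (-k).toNat - 1, ?_⟩
    push_cast
    omega
  · refine ⟨1, k.toNat - 1, ?_⟩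
    push_cast
    omega

theorem pow_list_prod (u : ℤˣ) (n : ℕ) :
    ((List.replicate n (u, (1 : A))).map
      (fun x => (t : HN C) ^ (x.1 : ℤ) * of x.2)).prod = t ^ ((u : ℤ) * (n : ℤ)) := by
  rw [List.map_replicate, List.prod_replicate]
  simp only [map_one, mul_one]
  rw [zpow_mul, zpow_natCast]

theorem chain_replicate (u : ℤˣ) (a : A) (l : List (ℤˣ × A))
    (h2 : ((u, a) :: l).IsChain (fun a b => a.2 ∈ toSubgroup C C a.1 → a.1 = b.1)) (n : ℕ) :
    (List.replicate n (u, (1 : A)) ++ (u, a) :: l).IsChain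
      (fun a b => a.2 ∈ toSubgroup C C a.1 → a.1 = b.1) := by
  induction n with
  | zero => simpa using h2
  | succ n ih =>
    rw [List.replicate_succ, List.cons_append]
    cases n with
    | zero => exact List.isChain_cons_cons.mpr ⟨fun _ => rfl, by simpa using ih⟩
    | succ n =>
      rw [List.replicate_succ, List.cons_append] at ih ⊢
      exact List.isChain_cons_cons.mpr ⟨fun _ => rfl, ih⟩

theorem reduced_cons (g : HN C) (hg : g ∈ hnG C) (hg' : g ∉ (of : A →* HN C).range) (a : A)
    (l : List (ℤˣ × A)) (hl : l.IsChain (fun a b => a.2 ∈ toSubgroup C C a.1 → a.1 = b.1))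
    (hal : l ≠ [] → a ∉ C) :
    ∃ rw' : NormalWord.ReducedWord A C C, rw'.prod (MulEquiv.refl C)
      = g * (of a * (l.map (fun x => (t : HN C) ^ (x.1 : ℤ) * of x.2)).prod) ∧
      rw'.toList ≠ [] ∧ rw'.head ∈ C := by
  obtain ⟨c, hc, k, rfl⟩ := hg
  have hk : k ≠ 0 := by
    rintro rfl
    apply hg'
    exact ⟨c, by simp⟩
  obtain ⟨u, n, rfl⟩ := exists_unit_pow k hk
  have h2 : ((u, a) :: l).IsChain (fun a b => a.2 ∈ toSubgroup C C a.1 → a.1 = b.1) := by
    cases l with
    | nil => exact List.isChain_singleton _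
    | cons x l =>
      refine List.isChain_cons_cons.mpr ⟨?_, hl⟩
      intro h3
      exfalso
      refine hal (by simp) ?_
      simp only [toSubgroup, ite_self] at h3
      exact h3
  refine ⟨⟨c, List.replicate n (u, 1) ++ (u, a) :: l, chain_replicate C u a l h2 n⟩, ?_, ?_, hc⟩
  · unfold NormalWord.ReducedWord.prod
    simp only [List.map_append, List.prod_append, List.map_cons, List.prod_cons]
    rw [pow_list_prod]
    rw [show ((u : ℤ) * ((n + 1 : ℕ) : ℤ)) = (u : ℤ) * n + u by push_cast; ring, zpow_add]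
    simp only [mul_assoc]
  · simp

/-- the inductive invariant -/
theorem alt_reduced {b : Bool} {w : HN C} (h : Alt (hnH C) b w) :
    ∃ rw' : NormalWord.ReducedWord A C C, rw'.prod (MulEquiv.refl C) = w ∧
      (b = true → rw'.head ∉ C) ∧ (b = false → rw'.toList ≠ [] ∧ rw'.head ∈ C) := by
  induction h with
  | one b h h1 h2 =>
    cases b
    · obtain ⟨rw', e1, e2, e3⟩ := reduced_cons C h h1 h2 1 [] (List.isChain_nil) (by simp)
      refine ⟨rw', ?_, by simp, fun _ => ⟨e2, e3⟩⟩
      rw [e1]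
      simp
    · obtain ⟨a, rfl⟩ := h1
      refine ⟨⟨a, [], List.isChain_nil⟩, ?_, ?_, by simp⟩
      · simp [NormalWord.ReducedWord.prod]
      · intro _ ha
        exact h2 ⟨a, ha, 0, by simp⟩
  | cons b h w h1 h2 _ ih =>
    obtain ⟨rw', e1, e2, e3⟩ := ih
    cases b
    · obtain ⟨rw'', e4, e5, e6⟩ := reduced_cons C h h1 h2 rw'.head rw'.toList rw'.chain
        (fun _ => e2 rfl)
      refine ⟨rw'', ?_, by simp, fun _ => ⟨e5, e6⟩⟩
      rw [e4, ← e1]
      rfl
    · obtain ⟨a, rfl⟩ := h1
      obtain ⟨e3, e4⟩ := e3 rfl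
      refine ⟨⟨a * rw'.head, rw'.toList, rw'.chain⟩, ?_, ?_, by simp⟩
      · rw [← e1]
        unfold NormalWord.ReducedWord.prod
        rw [map_mul, mul_assoc]
      · intro _ ha
        have ha' : a ∈ C := (Subgroup.mul_mem_cancel_right _ e4).mp ha
        exact h2 ⟨a, ha', 0, by simp⟩

theorem of_mem_hnG {a : A} (h : (of a : HN C) ∈ hnG C) : a ∈ C := by
  by_contra ha
  obtain ⟨c, hc, k, hk⟩ := h
  by_cases hk0 : k = 0
  · subst hk0
    rw [zpow_zero, mul_one] at hk
    exact ha (of_injective (φ := MulEquiv.refl C) hk ▸ hc)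
  · have h1 : Alt (hnH C) false (of c * t ^ k : HN C) ∨ (of c * t ^ k : HN C) ∈
        (of : A →* HN C).range := by
      by_cases h : (of c * t ^ k : HN C) ∈ (of : A →* HN C).range
      · exact Or.inr h
      · exact Or.inl (Alt.one false _ ⟨c, hc, k, rfl⟩ h)
    -- `t ^ k` is not in the range
    have h2 : (t : HN C) ^ k ∉ (of : A →* HN C).range := by
      intro h3
      obtain ⟨u, n, hun⟩ := exists_unit_pow k hk0
      let rw' : NormalWord.ReducedWord A C C := ⟨1, List.replicate n (u, 1) ++ (u, 1) :: [],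
        chain_replicate C u 1 [] (List.isChain_singleton _) n⟩
      have h4 : rw'.prod (MulEquiv.refl C) = t ^ k := by
        unfold NormalWord.ReducedWord.prod
        simp only [rw', List.map_append, List.prod_append, List.map_cons, List.prod_cons]
        rw [pow_list_prod, hun]
        rw [show ((u : ℤ) * ((n + 1 : ℕ) : ℤ)) = (u : ℤ) * n + u by push_cast; ring, zpow_add]
        simp
      have h5 := HNNExtension.ReducedWord.toList_eq_nil_of_mem_of_range (MulEquiv.refl C) rw'
        (by rw [h4]; exact h3)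
      simp [rw'] at h5
    apply h2
    refine ⟨c⁻¹ * a, ?_⟩
    rw [map_mul, hk, map_inv, inv_mul_cancel_left]

/-- **Normal form** for the HNN extension as an amalgam. -/
theorem hn_NF : NF (hnH C) := by
  have hfalse : ∀ w, Alt (hnH C) false w → w ∉ (of : A →* HN C).range := by
    intro w hw hw'
    obtain ⟨rw', e1, -, e3⟩ := alt_reduced C hw
    have := HNNExtension.ReducedWord.toList_eq_nil_of_mem_of_range (MulEquiv.refl C) rw'
      (by rw [e1]; exact hw')
    exact (e3 rfl).1 this
  intro b w hw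
  cases b
  · exact hfalse w hw
  · intro hwG
    have hwG' : w ∈ hnG C := hwG
    by_cases h1 : w ∈ (of : A →* HN C).range
    · obtain ⟨rw', e1, e2, -⟩ := alt_reduced C hw
      have h2 := HNNExtension.ReducedWord.toList_eq_nil_of_mem_of_range (MulEquiv.refl C) rw'
        (by rw [e1]; exact h1)
      have h3 : w = of rw'.head := by
        rw [← e1]
        unfold NormalWord.ReducedWord.prod
        rw [h2]
        simp
      rw [h3] at hwG'
      exact e2 rfl (of_mem_hnG C hwG')
    · have h2 : w⁻¹ ∈ hnG C := inv_mem hwG'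
      have h3 : w⁻¹ ∉ (of : A →* HN C).range := fun h => h1 (inv_mem_iff.mp h)
      have h4 : Alt (hnH C) false (w⁻¹ * w) := Alt.cons false w⁻¹ w h2 h3 hw
      rw [inv_mul_cancel] at h4
      exact hfalse 1 h4 (one_mem _)

end

end Vale.Agent.P189.Grp
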