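import Vale.Agent.P189.GData
import Vale.Agent.P189.GrpHnn
import Vale.Agent.P189.GamDef

/-!
# P189: the group `⟨a, c, t | [t, c] = [t, a c a⁻²] = 1⟩`
-/

namespace Vale.Agent.P189

open HNNExtension
open scoped commutatorElement

/-- generator `a` -/
def ga : Gam := PresentedGroup.of 0
/-- generator `c` -/
def gc : Gam := PresentedGroup.of 1
/-- generator `t` -/
def gt : Gam := PresentedGroup.of 2
/-- `b = a c a⁻²` -/
def gmb : Gam := ga * gc * ga⁻¹ * ga⁻¹

theorem gam_comm_c : gt * gc = gc * gt := by
  have h : PresentedGroup.mk gamRels ⁅(FreeGroup.of 2 : FreeGroup (Fin 3)), (FreeGroup.of 1 : FreeGroup (Fin 3))⁆ = 1 :=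
    PresentedGroup.one_of_mem (Or.inl rfl)
  rw [map_commutatorElement, commutatorElement_eq_one_iff_mul_comm] at h
  exact h

theorem gam_comm_b : gt * gmb = gmb * gt := by
  have h : PresentedGroup.mk gamRels ⁅(FreeGroup.of 2 : FreeGroup (Fin 3)), FreeGroup.of 0 * FreeGroup.of 1 *
      (FreeGroup.of 0)⁻¹ * (FreeGroup.of 0)⁻¹⁆ = 1 :=
    PresentedGroup.one_of_mem (Or.inr rfl)
  rw [map_commutatorElement, commutatorElement_eq_one_iff_mul_comm] at h
  simp only [map_mul, map_inv] at h
  exact h

namespace Grp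

/-- `a` in the free group -/
def fa : FreeGroup (Fin 2) := FreeGroup.of 0
/-- `c` in the free group -/
def fc : FreeGroup (Fin 2) := FreeGroup.of 1
/-- `b` in the free group -/
def fb : FreeGroup (Fin 2) := fa * fc * fa⁻¹ * fa⁻¹

/-- the subgroup `⟨b, c⟩` -/
def C0 : Subgroup (FreeGroup (Fin 2)) := Subgroup.closure {fb, fc}

theorem fb_mem : fb ∈ C0 := Subgroup.subset_closure (Or.inl rfl)
theorem fc_mem : fc ∈ C0 := Subgroup.subset_closure (Or.inr rfl)

/-- the model of the group -/
abbrev M0 : Type := HN C0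

/-- homomorphisms out of `Gam` -/
def gamLift {K : Type*} [Group K] (a c t : K) (h1 : t * c = c * t)
    (h2 : t * (a * c * a⁻¹ * a⁻¹) = (a * c * a⁻¹ * a⁻¹) * t) : Gam →* K :=
  PresentedGroup.toGroup (f := ![a, c, t]) (by
    rintro r (rfl | rfl)
    · rw [map_commutatorElement, commutatorElement_eq_one_iff_mul_comm]
      simpa using h1
    · rw [map_commutatorElement, commutatorElement_eq_one_iff_mul_comm]
      simpa using h2)

section

variable {K : Type*} [Group K] (a c t : K) (h1 : t * c = c * t)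
    (h2 : t * (a * c * a⁻¹ * a⁻¹) = (a * c * a⁻¹ * a⁻¹) * t)

@[simp] theorem gamLift_a : gamLift a c t h1 h2 ga = a := by
  unfold gamLift ga
  rw [PresentedGroup.toGroup.of]
  rfl

@[simp] theorem gamLift_c : gamLift a c t h1 h2 gc = c := by
  unfold gamLift gc
  rw [PresentedGroup.toGroup.of]
  rfl

@[simp] theorem gamLift_t : gamLift a c t h1 h2 gt = t := by
  unfold gamLift gt
  rw [PresentedGroup.toGroup.of]
  rfl

end

/-- the map to the model -/
def toM : Gam →* M0 := gamLift (of fa) (of fc) HNNExtension.t (hn_comm C0 fc fc_mem) (by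
  have := hn_comm C0 fb fb_mem
  simpa [fb] using this)

/-- the free group in `Gam` -/
def fG : FreeGroup (Fin 2) →* Gam := FreeGroup.lift ![ga, gc]

theorem fG_a : fG fa = ga := by simp [fG, fa]
theorem fG_c : fG fc = gc := by simp [fG, fc]
theorem fG_b : fG fb = gmb := by simp [fb, gmb, fG_a, fG_c]

theorem fG_comm (x : FreeGroup (Fin 2)) (hx : x ∈ C0) : gt * fG x = fG x * gt := by
  have h : C0 ≤ (Subgroup.centralizer {gt}).comap fG := by
    unfold C0
    rw [Subgroup.closure_le]
    rintro y (rfl | rfl)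
    · simp only [Subgroup.coe_comap, Set.mem_preimage, SetLike.mem_coe,
        Subgroup.mem_centralizer_singleton_iff, fG_b]
      exact gam_comm_b.symm
    · simp only [Subgroup.coe_comap, Set.mem_preimage, SetLike.mem_coe,
        Subgroup.mem_centralizer_singleton_iff, fG_c]
      exact gam_comm_c.symm
  have := Subgroup.mem_centralizer_singleton_iff.mp (Subgroup.mem_comap.mp (h hx))
  exact this.symm

/-- the map from the model -/
def fromM : M0 →* Gam := HNNExtension.lift fG gt (fun x => fG_comm x.1 x.2)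

theorem fromM_of (x : FreeGroup (Fin 2)) : fromM (of x) = fG x := HNNExtension.lift_of _ _ _ _
theorem fromM_t : fromM HNNExtension.t = gt := HNNExtension.lift_t _ _ _

theorem fromM_toM (g : Gam) : fromM (toM g) = g := by
  have h : fromM.comp toM = MonoidHom.id Gam := by
    refine PresentedGroup.ext ?_
    intro i
    fin_cases i
    · change fromM (toM ga) = ga
      rw [toM, gamLift_a, fromM_of, fG_a]
    · change fromM (toM gc) = gc
      rw [toM, gamLift_c, fromM_of, fG_c]
    · change fromM (toM gt) = gt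
      rw [toM, gamLift_t, fromM_t]
  exact DFunLike.congr_fun h g

theorem toM_fG (x : FreeGroup (Fin 2)) : toM (fG x) = of x := by
  have h : toM.comp fG = of := by
    refine FreeGroup.ext_hom _ _ ?_
    intro i
    fin_cases i
    · change toM (fG fa) = of fa
      rw [fG_a, toM, gamLift_a]
    · change toM (fG fc) = of fc
      rw [fG_c, toM, gamLift_c]
  exact DFunLike.congr_fun h x

theorem fG_injective : Function.Injective fG := by
  intro x y h
  have := congrArg toM h
  rw [toM_fG, toM_fG] at this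
  exact of_injective (φ := MulEquiv.refl C0) this

/-- `⟨a, c⟩` -/
def gA : Subgroup Gam := Subgroup.closure {ga, gc}
/-- `⟨b, c, t⟩` -/
def gG : Subgroup Gam := Subgroup.closure {gmb, gc, gt}
/-- `⟨b, c⟩` -/
def gC : Subgroup Gam := Subgroup.closure {gmb, gc}

theorem fG_range_le (x : FreeGroup (Fin 2)) : fG x ∈ gA := by
  induction x using FreeGroup.induction_on with
  | C1 => simp
  | of i =>
    fin_cases i
    · change fG fa ∈ gA
      rw [fG_a]; exact Subgroup.subset_closure (Or.inl rfl)
    · change fG fc ∈ gA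
      rw [fG_c]; exact Subgroup.subset_closure (Or.inr rfl)
  | inv_of i ih => rw [map_inv]; exact inv_mem ih
  | mul x y hx hy => rw [map_mul]; exact mul_mem hx hy

theorem fG_C_le (x : FreeGroup (Fin 2)) (hx : x ∈ C0) : fG x ∈ gC := by
  have h : C0 ≤ gC.comap fG := by
    unfold C0
    rw [Subgroup.closure_le]
    rintro y (rfl | rfl)
    · change fG fb ∈ gC
      rw [fG_b]; exact Subgroup.subset_closure (Or.inl rfl)
    · change fG fc ∈ gC
      rw [fG_c]; exact Subgroup.subset_closure (Or.inr rfl)
  exact h hx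

theorem gC_le_gA : gC ≤ gA := by
  unfold gC
  rw [Subgroup.closure_le]
  have ha : ga ∈ gA := Subgroup.subset_closure (Or.inl rfl)
  have hc : gc ∈ gA := Subgroup.subset_closure (Or.inr rfl)
  rintro y (rfl | rfl)
  · exact mul_mem (mul_mem (mul_mem ha hc) (inv_mem ha)) (inv_mem ha)
  · exact hc

theorem gC_le_gG : gC ≤ gG := by
  unfold gC gG
  refine Subgroup.closure_mono ?_
  rintro y (rfl | rfl)
  · exact Or.inl rfl
  · exact Or.inr (Or.inl rfl)

theorem mem_gA_iff (g : Gam) : g ∈ gA ↔ toM g ∈ (of : FreeGroup (Fin 2) →* M0).range := by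
  constructor
  · intro h
    have h1 : gA ≤ ((of : FreeGroup (Fin 2) →* M0).range).comap toM := by
      unfold gA
      rw [Subgroup.closure_le]
      rintro y (rfl | rfl)
      · exact ⟨fa, by rw [← toM_fG, fG_a]⟩
      · exact ⟨fc, by rw [← toM_fG, fG_c]⟩
    exact h1 h
  · rintro ⟨x, hx⟩
    rw [← fromM_toM g, ← hx, fromM_of]
    exact fG_range_le x

theorem mem_gG_iff (g : Gam) : g ∈ gG ↔ toM g ∈ hnG C0 := by
  constructor
  · intro h
    have h1 : gG ≤ (hnG C0).comap toM := by
      unfold gG
      rw [Subgroup.closure_le]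
      rintro y (rfl | rfl | rfl)
      · exact ⟨fb, fb_mem, 0, by rw [← fG_b, toM_fG, zpow_zero, mul_one]⟩
      · exact ⟨fc, fc_mem, 0, by rw [← fG_c, toM_fG, zpow_zero, mul_one]⟩
      · refine ⟨1, one_mem _, 1, ?_⟩
        rw [toM, gamLift_t, map_one, one_mul, zpow_one]
    exact h1 h
  · rintro ⟨x, hx, k, hk⟩
    rw [← fromM_toM g, hk, map_mul, fromM_of, map_zpow, fromM_t]
    refine mul_mem (gC_le_gG (fG_C_le x hx)) (zpow_mem ?_ k)
    exact Subgroup.subset_closure (Or.inr (Or.inr rfl))

theorem gA_inf_gG : gA ⊓ gG = gC := by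
  refine le_antisymm ?_ (le_inf gC_le_gA gC_le_gG)
  rintro g ⟨h1, h2⟩
  obtain ⟨x, hx⟩ := (mem_gA_iff g).mp h1
  have h3 := (mem_gG_iff g).mp h2
  rw [← hx] at h3
  have h4 := of_mem_hnG C0 h3
  rw [← fromM_toM g, ← hx, fromM_of]
  exact fG_C_le x h4

theorem alt_toM {b : Bool} {w : Gam} (h : Vale.Agent.P189.Alt gA gG b w) :
    Grp.Alt (hnH C0) b (toM w) := by
  induction h with
  | baseA h1 h2 =>
    exact Alt.one true _ ((mem_gA_iff _).mp h1) (fun h => h2 ((mem_gG_iff _).mpr h))
  | baseG h1 h2 =>
    exact Alt.one false _ ((mem_gG_iff _).mp h1) (fun h => h2 ((mem_gA_iff _).mpr h))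
  | consA h1 h2 _ ih =>
    rw [map_mul]
    exact Alt.cons true _ _ ((mem_gA_iff _).mp h1) (fun h => h2 ((mem_gG_iff _).mpr h)) ih
  | consG h1 h2 _ ih =>
    rw [map_mul]
    exact Alt.cons false _ _ ((mem_gG_iff _).mp h1) (fun h => h2 ((mem_gA_iff _).mpr h)) ih

theorem gam_NF : Vale.Agent.P189.NF gA gG := by
  intro b h
  have h1 := alt_toM h
  rw [map_one] at h1
  exact hn_NF C0 b 1 h1 (one_mem _)

/-- exponent of `t` -/
def θt : Gam →* Multiplicative ℤ :=
  gamLift 1 1 (Multiplicative.ofAdd 1) (mul_comm _ _) (mul_comm _ _)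

/-- the height homomorphism `a ↦ 1, c ↦ 2, t ↦ 0` -/
def θ0 : Gam →* Multiplicative ℤ :=
  gamLift (Multiplicative.ofAdd 1) (Multiplicative.ofAdd 2) 1 (mul_comm _ _) (mul_comm _ _)

end Grp

open Grp

/-- The group data for `Gam`. -/
def gamData : GData Gam where
  a := ga
  c := gc
  t := gt
  free := fG_injective
  nf := gam_NF
  inter := gA_inf_gG
  gen := by
    rw [eq_top_iff, ← PresentedGroup.closure_range_of gamRels]
    refine Subgroup.closure_mono ?_
    rintro _ ⟨i, rfl⟩
    fin_cases i
    · exact Or.inl rfl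
    · exact Or.inr (Or.inl rfl)
    · exact Or.inr (Or.inr rfl)
  comm_c := gam_comm_c
  comm_b := gam_comm_b
  ht := by
    intro k hk h
    have h1 := congrArg θt h
    rw [map_zpow, map_one, θt, gamLift_t] at h1
    apply hk
    have h2 := congrArg Multiplicative.toAdd h1
    simpa using h2
  θ := θ0
  θa := by simp [θ0]
  θc := by simp [θ0]
  θt := by simp [θ0]

instance : Countable Gam :=
  (PresentedGroup.mk_surjective gamRels).countable

instance : Group.FG Gam :=
  Group.fg_of_surjective (PresentedGroup.mk_surjective gamRels)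

instance : Infinite Gam := by
  have hs : Function.Surjective θt := by
    intro z
    refine ⟨gt ^ (Multiplicative.toAdd z), ?_⟩
    rw [map_zpow, θt, gamLift_t]
    apply Multiplicative.toAdd.injective
    simp
  exact Infinite.of_surjective _ hs

/-- `a, c` generate a free group (version with `Bool`). -/
theorem gam_free_bool : Function.Injective
    (FreeGroup.lift (fun b : Bool => cond b ga gc) : FreeGroup Bool →* Gam) := by
  let e : Bool → Fin 2 := fun b => cond b 0 1
  have he : Function.Injective e := by decide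
  have h : (FreeGroup.lift (fun b : Bool => cond b ga gc) : FreeGroup Bool →* Gam)
      = fG.comp (FreeGroup.map e) := by
    refine FreeGroup.ext_hom _ _ ?_
    intro b
    cases b <;> simp [e, fG]
  rw [h]
  exact fG_injective.comp (FreeGroup.map_injective he)

end Vale.Agent.P189
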