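import Vale.Agent.P189.Main
import Vale.Agent.P189.GroupInst
import Vale.Agent.P189.Erg

/-!
# P189: ergodic actions of the group `Gam` with different costs
-/

namespace Vale.Agent.P189

open MeasureTheory
open scoped ENNReal commutatorElement

theorem gam_kernel_infinite : {g : Gam | gamData.θ g = 1 ∧ Grp.θt g = 1}.Infinite := by
  have hne : ⁅Grp.fa, Grp.fc⁆ ≠ 1 := by
    rw [Grp.fa, Grp.fc]
    decide
  have hord : ¬ IsOfFinOrder ⁅Grp.fa, Grp.fc⁆ := by
    rw [isOfFinOrder_iff_eq_one]; exact hne
  have hinj : Function.Injective (fun n : ℕ => Grp.fG (⁅Grp.fa, Grp.fc⁆ ^ n)) :=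
    Grp.fG_injective.comp (injective_pow_iff_not_isOfFinOrder.mpr hord)
  refine (Set.infinite_range_of_injective hinj).mono ?_
  rintro _ ⟨n, rfl⟩
  constructor
  · show gamData.θ (Grp.fG (⁅Grp.fa, Grp.fc⁆ ^ n)) = 1
    rw [map_pow, map_pow, map_commutatorElement, map_commutatorElement]
    rw [commutatorElement_eq_one_iff_mul_comm.mpr (mul_comm _ _), one_pow]
  · show Grp.θt (Grp.fG (⁅Grp.fa, Grp.fc⁆ ^ n)) = 1
    rw [map_pow, map_pow, map_commutatorElement, map_commutatorElement]
    rw [commutatorElement_eq_one_iff_mul_comm.mpr (mul_comm _ _), one_pow]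

/-- Two ergodic essentially free p.m.p. actions of `Gam` with different costs. -/
theorem gam_ergodic_costs :
    (∃ (X : Type) (_ : MeasurableSpace X) (_ : StandardBorelSpace X) (μ : Measure X)
      (_ : IsProbabilityMeasure μ) (_ : MulAction Gam X),
      IsPmp Gam μ ∧ EssFree Gam μ ∧ ErgodicSMul Gam X μ ∧ Cost Gam μ = 1) ∧
    (∃ (Y : Type) (_ : MeasurableSpace Y) (_ : StandardBorelSpace Y) (ν : Measure Y)
      (_ : IsProbabilityMeasure ν) (_ : MulAction Gam Y),
      IsPmp Gam ν ∧ EssFree Gam ν ∧ ErgodicSMul Gam Y ν ∧ 1 + 1 / 216 ≤ Cost Gam ν) := by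
  have hτ : Grp.θt gamData.t = Multiplicative.ofAdd 1 := by simp [Grp.θt, gamData]
  have hτa : Grp.θt gamData.a = 1 := by simp [Grp.θt, gamData]
  haveI := circle_prob
  constructor
  · letI act1 := shiftAction (Γ := Gam)
    exact ⟨(Gam → Bool) × UnitAddCircle × UnitAddCircle, inferInstance, inferInstance,
      circleMeasure (bern Gam), inferInstance, circleAction (X := Gam → Bool) gamData.θ Grp.θt,
      circle_isPmp shift_isPmp _ _, circle_essFree shift_essFree _ _,
      circle_ergodic gamData.θ Grp.θt gam_kernel_infinite gamData.θa hτa gamData.θt hτ,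
      circle_cost_eq gamData Grp.θt hτ⟩
  · refine ⟨Gam → Bool, inferInstance, inferInstance, bern Gam, inferInstance,
      shiftAction (Γ := Gam), shift_isPmp, shift_essFree, shift_ergodic, ?_⟩
    have h := bern_cost_ge gamData
    have h2 : (1 : ENNReal) / 216 = (1 / 108) / 2 := by
      rw [← ENNReal.toReal_eq_toReal_iff' (by simp) (by simp [ENNReal.div_eq_top])]
      simp only [ENNReal.toReal_div, ENNReal.toReal_one, ENNReal.toReal_ofNat]
      norm_num
    rw [h2]
    exact h

end Vale.Agent.P189
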