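import Vale.Agent.P189.Main
import Vale.Agent.P189.GroupInst

/-!
# P189: the finitely presented group `Gam` does not have fixed price
-/

namespace Vale.Agent.P189

open MeasureTheory
open scoped ENNReal

theorem gam_not_fixedPrice : ¬ FixedPrice Gam :=
  not_fixedPrice gamData Grp.θt (by simp [Grp.θt, gamData])

end Vale.Agent.P189
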