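import Mathlib

/-!
# P189: alternating words and the chain lemma for amalgams

`H true`, `H false` are two subgroups of `Γ`; a letter of type `b` is an element of
`H b \ H (!b)`.  `NF H` says that an alternating word whose leftmost letter has type `b` is not in
`H (!b)`; it holds for the two factors of an amalgamated product.
-/

namespace Vale.Agent.P189.Grp

variable {Γ : Type*} [Group Γ] (H : Bool → Subgroup Γ)

/-- Alternating words; the index is the type of the leftmost letter. -/
inductive Alt : Bool → Γ → Prop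
  | one (b : Bool) (h : Γ) : h ∈ H b → h ∉ H (!b) → Alt b h
  | cons (b : Bool) (h w : Γ) : h ∈ H b → h ∉ H (!b) → Alt (!b) w → Alt b (h * w)

/-- The normal form property. -/
def NF : Prop := ∀ b w, Alt H b w → w ∉ H (!b)

section Chain

variable {X Y : Type*} [MulAction Γ X] (p : Y → X) (r : Bool → Y → Y → Prop)

/-- Reduced chains; the index is the type of the last step. -/
inductive Ch : Bool → Y → Y → Γ → Prop
  | one (b : Bool) (y z : Y) (h : Γ) : r b y z → h ∈ H b → h ∉ H (!b) → p z = h • p y →
      Ch b y z h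
  | snoc (b : Bool) (y z z' : Y) (h w : Γ) : Ch (!b) y z w → r b z z' → h ∈ H b → h ∉ H (!b) →
      p z' = h • p z → Ch b y z' (h * w)

variable {H p r}

theorem Ch.alt {b : Bool} {y z : Y} {w : Γ} (h : Ch H p r b y z w) : Alt H b w := by
  induction h with
  | one b y z h _ h1 h2 _ => exact Alt.one b h h1 h2
  | snoc b y z z' h w _ _ h1 h2 _ ih => exact Alt.cons b h w h1 h2 ih

theorem Ch.smul {b : Bool} {y z : Y} {w : Γ} (h : Ch H p r b y z w) : p z = w • p y := by
  induction h with
  | one b y z h _ _ _ h3 => exact h3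
  | snoc b y z z' h w _ _ _ _ h3 ih => rw [h3, ih, mul_smul]

theorem Ch.appendC (htr : ∀ b y z z', r b y z → r b z z' → r b y z')
    {b : Bool} {y z z' : Y} {w k : Γ} (h : Ch H p r b y z w) (hr : r b z z')
    (hk : k ∈ H b) (hk' : k ∈ H (!b)) (hp : p z' = k • p z) :
    Ch H p r b y z' (k * w) := by
  cases h with
  | one b y z h h0 h1 h2 h3 =>
    refine Ch.one b y z' (k * w) (htr _ _ _ _ h0 hr) (mul_mem hk h1) ?_ ?_
    · intro h4
      exact h2 ((Subgroup.mul_mem_cancel_left _ hk').mp h4)
    · rw [hp, h3, mul_smul]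
  | snoc b y z0 z h w h0 h1 h2 h3 h4 =>
    rw [← mul_assoc]
    refine Ch.snoc b y z0 z' (k * h) w h0 (htr _ _ _ _ h1 hr) (mul_mem hk h2) ?_ ?_
    · intro h5
      exact h3 ((Subgroup.mul_mem_cancel_left _ hk').mp h5)
    · rw [hp, h4, mul_smul]

theorem Ch.step (hlab : ∀ b y z, r b y z → ∃ h ∈ H b, p z = h • p y)
    (hcomp : ∀ b y z h, r b y z → h ∈ H (!b) → p z = h • p y → r (!b) y z)
    (htr : ∀ b y z z', r b y z → r b z z' → r b y z')
    {b : Bool} {y z : Y} {w : Γ} (h : Ch H p r b y z w) (b' : Bool) {z' : Y} (hr : r b' z z') :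
    (r true y z' ∧ r false y z') ∨ ∃ b'' w', Ch H p r b'' y z' w' := by
  obtain ⟨h', hh', hp'⟩ := hlab b' z z' hr
  by_cases hb : b' = b
  · subst hb
    cases h with
    | one b y z h h0 h1 h2 h3 =>
      have e0 : r b' y z' := htr _ _ _ _ h0 hr
      have e1 : p z' = (h' * w) • p y := by rw [hp', h3, mul_smul]
      by_cases h4 : h' * w ∈ H (!b')
      · left
        have e2 := hcomp b' y z' _ e0 h4 e1
        cases b'
        · exact ⟨e2, e0⟩
        · exact ⟨e0, e2⟩
      · right
        exact ⟨b', _, Ch.one b' y z' _ e0 (mul_mem hh' h1) h4 e1⟩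
    | snoc b y z0 z h w h0 h1 h2 h3 h4 =>
      have e0 : r b' z0 z' := htr _ _ _ _ h1 hr
      have e1 : p z' = (h' * h) • p z0 := by rw [hp', h4, mul_smul]
      by_cases h5 : h' * h ∈ H (!b')
      · right
        have e2 := hcomp b' z0 z' _ e0 h5 e1
        refine ⟨!b', _, h0.appendC htr e2 h5 ?_ e1⟩
        rw [Bool.not_not]
        exact mul_mem hh' h2
      · right
        exact ⟨b', _, Ch.snoc b' y z0 z' _ w h0 e0 (mul_mem hh' h2) h5 e1⟩
  · have hb' : b' = !b := by
      cases b <;> cases b' <;> simp_all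
    subst hb'
    by_cases h5 : h' ∈ H b
    · right
      have e2 := hcomp (!b) z z' h' hr (by rw [Bool.not_not]; exact h5) hp'
      rw [Bool.not_not] at e2
      exact ⟨b, _, h.appendC htr e2 h5 hh' hp'⟩
    · right
      refine ⟨!b, _, Ch.snoc (!b) y z z' h' w ?_ hr hh' ?_ hp'⟩
      · rw [Bool.not_not]; exact h
      · rw [Bool.not_not]; exact h5

/-- Every pair in the join is in both relations or joined by a reduced chain. -/
theorem chain_of_join (hlab : ∀ b y z, r b y z → ∃ h ∈ H b, p z = h • p y)
    (hcomp : ∀ b y z h, r b y z → h ∈ H (!b) → p z = h • p y → r (!b) y z)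
    (heq : ∀ b, Equivalence (r b)) {y z : Y}
    (h : Relation.EqvGen (fun y z => ∃ b, r b y z) y z) :
    (r true y z ∧ r false y z) ∨ ∃ b w, Ch H p r b y z w := by
  have htr : ∀ b y z z', r b y z → r b z z' → r b y z' := fun b _ _ _ h1 h2 => (heq b).trans h1 h2
  have hsym : ∀ y z, Relation.ReflTransGen (fun y z => ∃ b, r b y z) y z →
      Relation.ReflTransGen (fun y z => ∃ b, r b y z) z y := by
    intro y z h
    induction h with
    | refl => exact Relation.ReflTransGen.refl
    | tail _ hstep ih =>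
      obtain ⟨b, hb⟩ := hstep
      exact Relation.ReflTransGen.head ⟨b, (heq b).symm hb⟩ ih
  have h1 : Relation.ReflTransGen (fun y z => ∃ b, r b y z) y z := by
    induction h with
    | rel _ _ h => exact Relation.ReflTransGen.single h
    | refl _ => exact Relation.ReflTransGen.refl
    | symm _ _ _ ih => exact hsym _ _ ih
    | trans _ _ _ _ _ ih1 ih2 => exact ih1.trans ih2
  clear h
  induction h1 with
  | refl => exact Or.inl ⟨(heq true).refl _, (heq false).refl _⟩
  | @tail z z' _ hstep ih =>
    obtain ⟨b', hb'⟩ := hstep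
    rcases ih with ⟨h3, h4⟩ | ⟨b, w, h5⟩
    · obtain ⟨h', hh', hp'⟩ := hlab b' z z' hb'
      have e0 : ∀ b, r b y z := by
        intro b; cases b
        · exact h4
        · exact h3
      have e1 : r b' y z' := htr _ _ _ _ (e0 b') hb'
      obtain ⟨h'', hh'', hp''⟩ := hlab b' y z' e1
      by_cases h5 : h'' ∈ H (!b')
      · left
        have e2 := hcomp b' y z' _ e1 h5 hp''
        cases b'
        · exact ⟨e2, e1⟩
        · exact ⟨e1, e2⟩
      · right
        exact ⟨b', _, Ch.one b' y z' _ e1 hh'' h5 hp''⟩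
    · exact h5.step hlab hcomp htr b' hb'

/-- **Chain lemma for amalgams.** -/
theorem mem_of_join (hNF : NF H) (hfree : ∀ (g : Γ) (x : X), g • x = x → g = 1)
    (hlab : ∀ b y z, r b y z → ∃ h ∈ H b, p z = h • p y)
    (hcomp : ∀ b y z h, r b y z → h ∈ H (!b) → p z = h • p y → r (!b) y z)
    (heq : ∀ b, Equivalence (r b)) {y z : Y}
    (h : Relation.EqvGen (fun y z => ∃ b, r b y z) y z) (b : Bool) (k : Γ) (hk : k ∈ H b)
    (hp : p z = k • p y) : r b y z := by
  rcases chain_of_join hlab hcomp heq h with ⟨h1, h2⟩ | ⟨b', w, h1⟩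
  · cases b
    · exact h2
    · exact h1
  · have h2 := h1.smul
    have hwk : w = k := by
      have h3 : (k⁻¹ * w) • p y = p y := by
        rw [mul_smul, ← h2, hp, inv_smul_smul]
      have h4 := hfree _ _ h3
      have := congrArg (fun z => k * z) h4
      simpa using this
    subst hwk
    by_cases hb : b' = b
    · subst hb
      cases h1 with
      | one b y z h h0 _ _ _ => exact h0
      | snoc b y z z' h w h3 h4 h5 h6 h7 =>
        exfalso
        have h8 := hNF _ _ h3.alt
        rw [Bool.not_not] at h8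
        exact h8 ((Subgroup.mul_mem_cancel_left _ h5).mp hk)
    · exfalso
      have hb' : b = !b' := by
        cases b <;> cases b' <;> simp_all
      subst hb'
      exact hNF _ _ h1.alt hk

end Chain

end Vale.Agent.P189.Grp
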