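/-
P189: normal form (amalgamated product) condition and its consequence for relations.
-/
import Vale.Agent.P189.Basic
import Vale.Agent.P189.GrpAmalg

open MeasureTheory Set
open scoped Pointwise ENNReal

namespace Vale.Agent.P189

variable {𝒢 : Type} [Group 𝒢]

/-- `Alt A G b g`: `g` is a nonempty alternating product of elements of `A \ G` and `G \ A`;
`b = true` iff the leftmost letter is in `A`. -/
inductive Alt (A G : Subgroup 𝒢) : Bool → 𝒢 → Prop
  | baseA {g : 𝒢} : g ∈ A → g ∉ G → Alt A G true g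
  | baseG {g : 𝒢} : g ∈ G → g ∉ A → Alt A G false g
  | consA {g w : 𝒢} : g ∈ A → g ∉ G → Alt A G false w → Alt A G true (g * w)
  | consG {g w : 𝒢} : g ∈ G → g ∉ A → Alt A G true w → Alt A G false (g * w)

/-- The normal form property of an amalgam `A *_{A ∩ G} G`. -/
def NF (A G : Subgroup 𝒢) : Prop := ∀ b, ¬ Alt A G b 1

theorem Alt.mul_left {A G : Subgroup 𝒢} {b : Bool} {g c : 𝒢} (hc : c ∈ A ⊓ G)
    (h : Alt A G b g) : Alt A G b (c * g) := by
  obtain ⟨hcA, hcG⟩ := hc
  cases h with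
  | baseA h1 h2 =>
    exact Alt.baseA (mul_mem hcA h1) (fun h => h2 ((Subgroup.mul_mem_cancel_left _ hcG).mp h))
  | baseG h1 h2 =>
    exact Alt.baseG (mul_mem hcG h1) (fun h => h2 ((Subgroup.mul_mem_cancel_left _ hcA).mp h))
  | consA h1 h2 h3 =>
    rw [← mul_assoc]
    exact Alt.consA (mul_mem hcA h1) (fun h => h2 ((Subgroup.mul_mem_cancel_left _ hcG).mp h)) h3
  | consG h1 h2 h3 =>
    rw [← mul_assoc]
    exact Alt.consG (mul_mem hcG h1) (fun h => h2 ((Subgroup.mul_mem_cancel_left _ hcA).mp h)) h3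

theorem NF.not_alt_mem_C {A G : Subgroup 𝒢} (hNF : NF A G) {b : Bool} {g : 𝒢}
    (h : Alt A G b g) : g ∉ A ⊓ G := by
  intro hg
  have h1 := Alt.mul_left (inv_mem hg) h
  rw [inv_mul_cancel] at h1
  exact hNF _ h1

theorem NF.alt_true_not_mem {A G : Subgroup 𝒢} (hNF : NF A G) {g : 𝒢} (h : Alt A G true g) :
    g ∉ G := by
  intro hg
  by_cases hA : g ∈ A
  · exact hNF.not_alt_mem_C h ⟨hA, hg⟩
  · have h1 := Alt.consG (inv_mem hg) (fun h => hA (inv_mem_iff.mp h)) h
    rw [inv_mul_cancel] at h1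
    exact hNF _ h1

theorem NF.alt_false_not_mem {A G : Subgroup 𝒢} (hNF : NF A G) {g : 𝒢} (h : Alt A G false g) :
    g ∉ A := by
  intro hg
  by_cases hG : g ∈ G
  · exact hNF.not_alt_mem_C h ⟨hg, hG⟩
  · have h1 := Alt.consA (inv_mem hg) (fun h => hG (inv_mem_iff.mp h)) h
    rw [inv_mul_cancel] at h1
    exact hNF _ h1

/-- An alternating product lying in `A` has length one (so it is in `A \ G`). -/
theorem NF.alt_mem_A {A G : Subgroup 𝒢} (hNF : NF A G) {b : Bool} {g : 𝒢} (h : Alt A G b g)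
    (hg : g ∈ A) : b = true ∧ g ∉ G := by
  cases b
  · exact absurd hg (hNF.alt_false_not_mem h)
  · exact ⟨rfl, hNF.alt_true_not_mem h⟩

theorem NF.alt_mem_G {A G : Subgroup 𝒢} (hNF : NF A G) {b : Bool} {g : 𝒢} (h : Alt A G b g)
    (hg : g ∈ G) : b = false ∧ g ∉ A := by
  cases b
  · exact ⟨rfl, hNF.alt_false_not_mem h⟩
  · exact absurd hg (hNF.alt_true_not_mem h)

/-- Translation to the `Bool`-indexed form. -/
theorem alt_of_grp {A G : Subgroup 𝒢} {b : Bool} {w : 𝒢}
    (h : Grp.Alt (fun b => cond b A G) b w) : Alt A G b w := by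
  induction h with
  | one b h h1 h2 =>
    cases b
    · exact Alt.baseG h1 h2
    · exact Alt.baseA h1 h2
  | cons b h w h1 h2 _ ih =>
    cases b
    · exact Alt.consG h1 h2 ih
    · exact Alt.consA h1 h2 ih

theorem NF.grp {A G : Subgroup 𝒢} (hNF : NF A G) : Grp.NF (fun b => cond b A G) := by
  intro b w hw
  have h := alt_of_grp hw
  cases b
  · exact hNF.alt_false_not_mem h
  · exact hNF.alt_true_not_mem h

variable {Z : Type} [MulAction 𝒢 Z]

/-- If `QA ≤ R_A`, `QG ≤ R_G` have the same intersection with `R_C` and generate everything, then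
`QA = R_A` and `QG = R_G`.  (Take a shortest alternating chain; its group element is an alternating
product.) -/
theorem NF.conclusion [FreeAct 𝒢 Z] {A G : Subgroup 𝒢} (hNF : NF A G) {Y : Set Z}
    {QA QG : Setoid Z} (hA : QA ≤ RR A Y) (hG : QG ≤ RR G Y)
    (h1 : QA ⊓ RR (A ⊓ G) Y ≤ QG) (h2 : QG ⊓ RR (A ⊓ G) Y ≤ QA)
    (hgen : RR (⊤ : Subgroup 𝒢) Y ≤ QA ⊔ QG) :
    RR A Y ≤ QA ∧ RR G Y ≤ QG := by
  have hfree : ∀ (g : 𝒢) (z : Z), g • z = z → g = 1 := FreeAct.free
  let r : Bool → Z → Z → Prop := fun b z w => cond b (QA z w) (QG z w)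
  let H : Bool → Subgroup 𝒢 := fun b => cond b A G
  have heq : ∀ b, Equivalence (r b) := by
    intro b
    cases b
    · exact QG.iseqv
    · exact QA.iseqv
  have hlab' : ∀ (K : Subgroup 𝒢) (z w : Z), RR K Y z w → ∃ h ∈ K, w = h • z := by
    rintro K z w (rfl | ⟨_, _, h, hh, rfl⟩)
    · exact ⟨1, one_mem _, (one_smul _ _).symm⟩
    · exact ⟨h, hh, rfl⟩
  have hlab : ∀ b y z, r b y z → ∃ h ∈ H b, (fun z : Z => z) z = h • (fun z : Z => z) y := by
    intro b y z h
    cases b
    · exact hlab' G y z (hG h)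
    · exact hlab' A y z (hA h)
  have hcompat : ∀ (K K' : Subgroup 𝒢) (z w : Z) (h : 𝒢), RR K Y z w → h ∈ K' → w = h • z →
      RR (K ⊓ K') Y z w := by
    rintro K K' z w h (rfl | ⟨h1, h2, h', hh', rfl⟩) hK' hw
    · exact Or.inl rfl
    · have e : h' = h := by
        have h3 : (h⁻¹ * h') • z = z := by rw [mul_smul, hw, inv_smul_smul]
        have h4 := hfree _ _ h3
        have := congrArg (fun x => h * x) h4
        simpa using this
      subst e
      exact Or.inr ⟨h1, h2, h', ⟨hh', hK'⟩, rfl⟩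
  have hcomp : ∀ b y z h, r b y z → h ∈ H (!b) → (fun z : Z => z) z = h • (fun z : Z => z) y →
      r (!b) y z := by
    intro b y z h hr hh hz
    cases b
    · refine h2 ⟨hr, ?_⟩
      have := hcompat G A y z h (hG hr) hh hz
      rw [inf_comm] at this
      exact this
    · exact h1 ⟨hr, hcompat A G y z h (hA hr) hh hz⟩
  have hjoin : ∀ z w, (QA ⊔ QG) z w → Relation.EqvGen (fun y z => ∃ b, r b y z) z w := by
    intro z w h
    refine sup_induction (r := QA) (s := QG)
      (P := Relation.EqvGen (fun y z => ∃ b, r b y z)) ?_ ?_ ?_ ?_ h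
    · intro z; exact Relation.EqvGen.refl z
    · intro x y z h1 h2; exact Relation.EqvGen.trans _ _ _ h1 h2
    · intro x y h; exact Relation.EqvGen.rel _ _ ⟨true, h⟩
    · intro x y h; exact Relation.EqvGen.rel _ _ ⟨false, h⟩
  have key : ∀ (b : Bool) (z w : Z), RR (H b) Y z w → r b z w := by
    intro b z w h
    rcases h with rfl | ⟨hz, hw, h, hh, rfl⟩
    · exact (heq b).refl _
    · have h3 : RR (⊤ : Subgroup 𝒢) Y z (h • z) := Or.inr ⟨hz, hw, h, Subgroup.mem_top _, rfl⟩
      exact Grp.mem_of_join (H := H) (p := fun z : Z => z) (r := r) hNF.grp hfree hlab hcomp heq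
        (hjoin _ _ (hgen h3)) b h hh rfl
  exact ⟨fun {z w} h => key true z w h, fun {z w} h => key false z w h⟩

end Vale.Agent.P189
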