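/-
P189: the group data.  `Γ = ⟨a, c, t | [t, c] = [t, b] = 1⟩`, `b = a c a⁻²`.
-/
import Vale.Agent.P189.NF

namespace Vale.Agent.P189

/-- The properties of the group used in the proof. -/
structure GData (Γ : Type) [Group Γ] where
  a : Γ
  c : Γ
  t : Γ
  /-- `a, c` generate a free group of rank two -/
  free : Function.Injective (FreeGroup.lift ![a, c] : FreeGroup (Fin 2) →* Γ)
  /-- normal form of the amalgam `⟨a, c⟩ *_C ⟨b, c, t⟩` -/
  nf : NF (Subgroup.closure {a, c}) (Subgroup.closure {a * c * a⁻¹ * a⁻¹, c, t})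
  inter : Subgroup.closure {a, c} ⊓ Subgroup.closure {a * c * a⁻¹ * a⁻¹, c, t} =
    Subgroup.closure {a * c * a⁻¹ * a⁻¹, c}
  gen : Subgroup.closure {a, c, t} = ⊤
  comm_c : t * c = c * t
  comm_b : t * (a * c * a⁻¹ * a⁻¹) = (a * c * a⁻¹ * a⁻¹) * t
  ht : ∀ k : ℤ, k ≠ 0 → t ^ k ≠ 1
  θ : Γ →* Multiplicative ℤ
  θa : θ a = Multiplicative.ofAdd 1
  θc : θ c = Multiplicative.ofAdd 2
  θt : θ t = 1

end Vale.Agent.P189
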