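import Vale.Agent.P189.Walsh

/-!
# P189: the gap inequality for subsets of the Bernoulli shift
-/

namespace Vale.Agent.P189

open MeasureTheory
open scoped ENNReal symmDiff

variable {Γ : Type} [Group Γ]

omit [Group Γ] in
theorem bern_dense : (bern Γ).MeasureDense (measurableCylinders (fun _ : Γ => Bool)) := by
  refine Measure.MeasureDense.of_generateFrom_isSetAlgebra_finite (bern Γ) ⟨?_, ?_, ?_⟩ ?_
  · exact empty_mem_measurableCylinders _
  · intro s hs; exact compl_mem_measurableCylinders hs
  · intro s t hs ht; exact union_mem_measurableCylinders hs ht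
  · exact generateFrom_measurableCylinders.symm

/-- indicator as a real function -/
noncomputable def ind (K : Set (Γ → Bool)) (x : Γ → Bool) : ℝ := K.indicator (fun _ => (1 : ℝ)) x

omit [Group Γ] in
theorem ind_measurable {K : Set (Γ → Bool)} (hK : MeasurableSet K) : Measurable (ind K) :=
  measurable_const.indicator hK

omit [Group Γ] in
theorem abs_ind (K : Set (Γ → Bool)) (x : Γ → Bool) : |ind K x| ≤ 1 := by
  unfold ind
  by_cases h : x ∈ K
  · rw [Set.indicator_of_mem h]; simp
  · rw [Set.indicator_of_notMem h]; simp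

omit [Group Γ] in
theorem integral_ind {K : Set (Γ → Bool)} (hK : MeasurableSet K) :
    ∫ x, ind K x ∂(bern Γ) = (bern Γ).real K := by
  unfold ind
  rw [integral_indicator_const _ hK, smul_eq_mul, mul_one]

omit [Group Γ] in
theorem integral_ind_sq {K : Set (Γ → Bool)} (hK : MeasurableSet K) :
    ∫ x, ind K x ^ 2 ∂(bern Γ) = (bern Γ).real K := by
  rw [← integral_ind hK]
  refine integral_congr_ae (Filter.Eventually.of_forall fun x => ?_)
  show ind K x ^ 2 = ind K x
  unfold ind
  by_cases h : x ∈ K
  · rw [Set.indicator_of_mem h]; simp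
  · rw [Set.indicator_of_notMem h]; simp

omit [Group Γ] in
theorem integral_ind_diff {K L : Set (Γ → Bool)} (hK : MeasurableSet K) (hL : MeasurableSet L) :
    ∫ x, (ind L x - ind K x) ^ 2 ∂(bern Γ) = (bern Γ).real (K ∆ L) := by
  rw [← integral_ind (hK.symmDiff hL)]
  refine integral_congr_ae (Filter.Eventually.of_forall fun x => ?_)
  show (ind L x - ind K x) ^ 2 = ind (K ∆ L) x
  unfold ind
  by_cases h : x ∈ K <;> by_cases h' : x ∈ L
  · rw [Set.indicator_of_mem h, Set.indicator_of_mem h', Set.indicator_of_notMem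
      (by simp [Set.mem_symmDiff, h, h'])]; simp
  · rw [Set.indicator_of_mem h, Set.indicator_of_notMem h', Set.indicator_of_mem
      (by simp [Set.mem_symmDiff, h, h'])]; simp
  · rw [Set.indicator_of_notMem h, Set.indicator_of_mem h', Set.indicator_of_mem
      (by simp [Set.mem_symmDiff, h, h'])]; simp
  · rw [Set.indicator_of_notMem h, Set.indicator_of_notMem h', Set.indicator_of_notMem
      (by simp [Set.mem_symmDiff, h, h'])]; simp

/-- The gap inequality for cylinder sets. -/
theorem gap_cyl (a c : Γ)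
    (hfree : Function.Injective (FreeGroup.lift (fun b : Bool => cond b a c)))
    {K : Set (Γ → Bool)} (hK : K ∈ measurableCylinders (fun _ : Γ => Bool)) :
    letI := shiftAction (Γ := Γ)
    (bern Γ).real K - (bern Γ).real K ^ 2
      ≤ 6 * ((bern Γ).real (K ∆ ((fun x => a • x) ⁻¹' K))
        + (bern Γ).real (K ∆ ((fun x => c • x) ⁻¹' K))) := by
  letI := shiftAction (Γ := Γ)
  have hKm : MeasurableSet K := MeasurableSet.of_mem_measurableCylinders hK
  have hdep : Dep (ind K) (measurableCylinders.finset hK) := by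
    intro x y hxy
    have heq := measurableCylinders.eq_cylinder hK
    have : x ∈ K ↔ y ∈ K := by
      rw [heq, mem_cylinder, mem_cylinder]
      have : (measurableCylinders.finset hK).restrict x
          = (measurableCylinders.finset hK).restrict y := by
        funext ⟨h, hh⟩
        exact hxy h hh
      rw [this]
    unfold ind
    by_cases h : x ∈ K
    · rw [Set.indicator_of_mem h, Set.indicator_of_mem (this.mp h)]
    · rw [Set.indicator_of_notMem h, Set.indicator_of_notMem (fun h' => h (this.mpr h'))]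
  have h := gap_fun a c hfree (ind_measurable hKm) (abs_ind K) hdep
  have hsh : ∀ g : Γ, ∀ x : Γ → Bool, ind K (g • x) = ind ((fun x => g • x) ⁻¹' K) x :=
    fun g x => rfl
  simp_rw [hsh] at h
  rwa [integral_ind_sq hKm, integral_ind hKm,
    integral_ind_diff hKm ((shift_isPmp (Γ := Γ) a).measurable hKm),
    integral_ind_diff hKm ((shift_isPmp (Γ := Γ) c).measurable hKm)] at h

/-- The gap inequality for all measurable sets. -/
theorem gap_set (a c : Γ)
    (hfree : Function.Injective (FreeGroup.lift (fun b : Bool => cond b a c)))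
    {K : Set (Γ → Bool)} (hK : MeasurableSet K) :
    letI := shiftAction (Γ := Γ)
    (bern Γ).real K - (bern Γ).real K ^ 2
      ≤ 6 * ((bern Γ).real (K ∆ ((fun x => a • x) ⁻¹' K))
        + (bern Γ).real (K ∆ ((fun x => c • x) ⁻¹' K))) := by
  letI := shiftAction (Γ := Γ)
  refine le_of_forall_pos_le_add fun ε hε => ?_
  obtain ⟨L, hL, hKL⟩ := (bern_dense (Γ := Γ)).approx K hK (measure_ne_top _ _) (ε / 26)
    (by positivity)
  have hLm : MeasurableSet L := MeasurableSet.of_mem_measurableCylinders hL
  set δ : ℝ := ε / 26 with hδ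
  have hd : (bern Γ).real (K ∆ L) ≤ δ := by
    rw [Measure.real]
    exact ENNReal.toReal_le_of_le_ofReal (by positivity) hKL.le
  have h1 := gap_cyl a c hfree hL
  have htri : ∀ S T U : Set (Γ → Bool), (bern Γ).real (S ∆ U)
      ≤ (bern Γ).real (S ∆ T) + (bern Γ).real (T ∆ U) := by
    intro S T U
    refine (measureReal_mono (symmDiff_triangle S T U) (measure_ne_top _ _)).trans ?_
    exact measureReal_union_le _ _
  have hshift : ∀ g : Γ, (bern Γ).real (((fun x => g • x) ⁻¹' K) ∆ ((fun x => g • x) ⁻¹' L))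
      = (bern Γ).real (K ∆ L) := by
    intro g
    rw [← Set.preimage_symmDiff]
    unfold Measure.real
    rw [(shift_isPmp (Γ := Γ) g).measure_preimage (hK.symmDiff hLm).nullMeasurableSet]
  have h2 : ∀ g : Γ, (bern Γ).real (L ∆ ((fun x => g • x) ⁻¹' L))
      ≤ (bern Γ).real (K ∆ ((fun x => g • x) ⁻¹' K)) + 2 * δ := by
    intro g
    have e1 := htri L K ((fun x => g • x) ⁻¹' L)
    have e2 := htri K ((fun x => g • x) ⁻¹' K) ((fun x => g • x) ⁻¹' L)
    rw [hshift g] at e2
    rw [symmDiff_comm L K] at e1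
    linarith
  have hKLabs : |(bern Γ).real K - (bern Γ).real L| ≤ δ := by
    have e1 : (bern Γ).real K ≤ (bern Γ).real L + (bern Γ).real (K ∆ L) := by
      refine (measureReal_mono (s₂ := L ∪ (K ∆ L)) ?_ (measure_ne_top _ _)).trans
        (measureReal_union_le _ _)
      intro x hx
      by_cases h : x ∈ L
      · exact Or.inl h
      · exact Or.inr (Or.inl ⟨hx, h⟩)
    have e2 : (bern Γ).real L ≤ (bern Γ).real K + (bern Γ).real (K ∆ L) := by
      refine (measureReal_mono (s₂ := K ∪ (K ∆ L)) ?_ (measure_ne_top _ _)).trans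
        (measureReal_union_le _ _)
      intro x hx
      by_cases h : x ∈ K
      · exact Or.inl h
      · exact Or.inr (Or.inr ⟨hx, h⟩)
    rw [abs_le]
    constructor <;> linarith
  have hK01 : 0 ≤ (bern Γ).real K ∧ (bern Γ).real K ≤ 1 :=
    ⟨measureReal_nonneg, measureReal_le_one⟩
  have hL01 : 0 ≤ (bern Γ).real L ∧ (bern Γ).real L ≤ 1 :=
    ⟨measureReal_nonneg, measureReal_le_one⟩
  have h3 : (bern Γ).real K - (bern Γ).real K ^ 2
      ≤ (bern Γ).real L - (bern Γ).real L ^ 2 + δ := by
    rw [abs_le] at hKLabs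
    nlinarith [hKLabs.1, hKLabs.2, hK01.1, hK01.2, hL01.1, hL01.2]
  have h4a := h2 a
  have h4c := h2 c
  have h5 : 26 * δ = ε := by rw [hδ]; ring
  linarith

/-- **The gap for the Bernoulli shift of a group containing a free subgroup.** -/
theorem bern_gap (a c : Γ)
    (hfree : Function.Injective (FreeGroup.lift (fun b : Bool => cond b a c))) :
    letI := shiftAction (Γ := Γ)
    ∀ K : Set (Γ → Bool), MeasurableSet K → 1 / 3 ≤ bern Γ K → bern Γ K ≤ 1 / 2 →
      bern Γ K + 1 / 108 ≤ bern Γ (K ∪ (fun x => a • x) ⁻¹' K ∪ (fun x => c • x) ⁻¹' K) := by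
  letI := shiftAction (Γ := Γ)
  intro K hK h1 h2
  have hg := gap_set a c hfree hK
  set Ka : Set (Γ → Bool) := (fun x => a • x) ⁻¹' K with hKa
  set Kc : Set (Γ → Bool) := (fun x => c • x) ⁻¹' K with hKc
  set U : Set (Γ → Bool) := K ∪ Ka ∪ Kc with hU
  have hKam : MeasurableSet Ka := (shift_isPmp (Γ := Γ) a).measurable hK
  have hKcm : MeasurableSet Kc := (shift_isPmp (Γ := Γ) c).measurable hK
  have hUm : MeasurableSet U := (hK.union hKam).union hKcm
  have hmKa : (bern Γ).real Ka = (bern Γ).real K := by
    unfold Measure.real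
    rw [(shift_isPmp (Γ := Γ) a).measure_preimage hK.nullMeasurableSet]
  have hmKc : (bern Γ).real Kc = (bern Γ).real K := by
    unfold Measure.real
    rw [(shift_isPmp (Γ := Γ) c).measure_preimage hK.nullMeasurableSet]
  have hsd : ∀ L : Set (Γ → Bool), MeasurableSet L → L ⊆ U → (bern Γ).real L = (bern Γ).real K →
      (bern Γ).real (K ∆ L) ≤ 2 * ((bern Γ).real U - (bern Γ).real K) := by
    intro L hL hLU hLK
    have e1 : (bern Γ).real (K \ L) + (bern Γ).real L = (bern Γ).real (K ∪ L) := by
      have := measureReal_union (μ := bern Γ) (s₁ := K \ L) (s₂ := L) Set.disjoint_sdiff_left hL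
      rw [← this, Set.sdiff_union_self]
    have e2 : (bern Γ).real (L \ K) + (bern Γ).real K = (bern Γ).real (K ∪ L) := by
      have := measureReal_union (μ := bern Γ) (s₁ := L \ K) (s₂ := K) Set.disjoint_sdiff_left hK
      rw [← this, Set.sdiff_union_self, Set.union_comm]
    have e3 : (bern Γ).real (K ∆ L) ≤ (bern Γ).real (K \ L) + (bern Γ).real (L \ K) :=
      measureReal_union_le _ _
    have e4 : (bern Γ).real (K ∪ L) ≤ (bern Γ).real U :=
      measureReal_mono (Set.union_subset (Set.subset_union_left.trans Set.subset_union_left) hLU)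
        (measure_ne_top _ _)
    linarith
  have ha := hsd Ka hKam (Set.subset_union_right.trans Set.subset_union_left) hmKa
  have hc := hsd Kc hKcm Set.subset_union_right hmKc
  have hK1 : (1 : ℝ) / 3 ≤ (bern Γ).real K := by
    have := ENNReal.toReal_mono (measure_ne_top _ _) h1
    rw [Measure.real]
    refine le_trans (le_of_eq ?_) this
    rw [ENNReal.toReal_div]; simp
  have hK2 : (bern Γ).real K ≤ 1 / 2 := by
    have := ENNReal.toReal_mono (by norm_num) h2
    rw [Measure.real]
    refine this.trans (le_of_eq ?_)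
    rw [ENNReal.toReal_div]; simp
  have hfin : (bern Γ).real K + 1 / 108 ≤ (bern Γ).real U := by
    nlinarith
  have h108 : (1 : ℝ≥0∞) / 108 = ENNReal.ofReal (1 / 108) := by
    rw [ENNReal.ofReal_div_of_pos (by norm_num)]; simp
  rw [h108]
  have hKr : bern Γ K = ENNReal.ofReal ((bern Γ).real K) := by
    rw [Measure.real, ENNReal.ofReal_toReal (measure_ne_top _ _)]
  have hUr : bern Γ U = ENNReal.ofReal ((bern Γ).real U) := by
    rw [Measure.real, ENNReal.ofReal_toReal (measure_ne_top _ _)]
  rw [hKr, hUr, ← ENNReal.ofReal_add measureReal_nonneg (by norm_num)]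
  exact ENNReal.ofReal_le_ofReal hfin

end Vale.Agent.P189
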