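import Mathlib

/-!
# P189: definitions in the wording of the problem file (action on the right)
-/

namespace Vale.Agent.P189.Lit

open MeasureTheory
open scoped ENNReal

/-- A p.m.p. action of `Γ` on `(X, μ)` written on the right: `(x g) h = x (g h)`; every
`x ↦ x g` is Borel and preserves `μ`. -/
structure PmpAction (Γ : Type) [Group Γ] {X : Type} [MeasurableSpace X] (μ : Measure X) where
  act : X → Γ → X
  act_one : ∀ x, act x 1 = x
  act_mul : ∀ x g h, act (act x g) h = act x (g * h)
  preserving : ∀ g, MeasurePreserving (fun x => act x g) μ μ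

/-- A measure-preserving Borel bijection `φ : A → B` between Borel subsets of `X`. -/
structure PartialIso {X : Type} [MeasurableSpace X] (μ : Measure X) where
  A : Set X
  B : Set X
  measurableSet_A : MeasurableSet A
  measurableSet_B : MeasurableSet B
  φ : A ≃ᵐ B
  preserving : MeasurePreserving φ (μ.comap Subtype.val) (μ.comap Subtype.val)

variable {Γ : Type} [Group Γ] {X : Type} [MeasurableSpace X] {μ : Measure X}

/-- The orbit equivalence relation `R = {(x, x g)}`. -/
def PmpAction.R (α : PmpAction Γ μ) : Set (X × X) := {p | ∃ g : Γ, p.2 = α.act p.1 g}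

/-- The action is essentially free: each `g ≠ 1` fixes a null set of points. -/
def PmpAction.EssentiallyFree (α : PmpAction Γ μ) : Prop :=
  ∀ g : Γ, g ≠ 1 → μ {x | α.act x g = x} = 0

/-- A graphing of `R`: a countable family of measure-preserving Borel bijections
`φ_i : A_i → B_i` with `(x, φ_i(x)) ∈ R` for all `x ∈ A_i`. -/
structure Graphing (R : Set (X × X)) (μ : Measure X) where
  ι : Type
  countable : Countable ι
  maps : ι → PartialIso μ
  mem : ∀ (i : ι) (x : (maps i).A), ((x : X), ((maps i).φ x : X)) ∈ R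

/-- `y = φ_i(x)` for some `i`. -/
def Graphing.Edge {R : Set (X × X)} (Φ : Graphing R μ) (x y : X) : Prop :=
  ∃ (i : Φ.ι) (h : x ∈ (Φ.maps i).A), y = (Φ.maps i).φ ⟨x, h⟩

/-- `Φ` generates `R`: for almost every `x`, every `y` with `(x, y) ∈ R` is reached from `x` by a
finite chain of the maps `φ_i` and their inverses. -/
def Graphing.Generates {R : Set (X × X)} (Φ : Graphing R μ) : Prop :=
  ∀ᵐ x ∂μ, ∀ y, (x, y) ∈ R →
    Relation.ReflTransGen (fun u v => Φ.Edge u v ∨ Φ.Edge v u) x y

/-- `C(Φ) = ∑ μ(A_i)`. -/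
noncomputable def Graphing.cost {R : Set (X × X)} (Φ : Graphing R μ) : ℝ≥0∞ :=
  ∑' i : Φ.ι, μ (Φ.maps i).A

/-- `Cost(R)`: the infimum of `C(Φ)` over the generating graphings. -/
noncomputable def Cost (R : Set (X × X)) (μ : Measure X) : ℝ≥0∞ :=
  ⨅ (Φ : Graphing R μ) (_ : Φ.Generates), Φ.cost

/-- `Γ` has fixed price: all its essentially free p.m.p. actions have the same cost. -/
def FixedPrice (Γ : Type) [Group Γ] : Prop :=
  ∀ (X Y : Type) [MeasurableSpace X] [StandardBorelSpace X]
    [MeasurableSpace Y] [StandardBorelSpace Y]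
    (μ : Measure X) (ν : Measure Y) [IsProbabilityMeasure μ] [IsProbabilityMeasure ν]
    (α : PmpAction Γ μ) (β : PmpAction Γ ν),
    α.EssentiallyFree → β.EssentiallyFree → Cost α.R μ = Cost β.R ν

end Vale.Agent.P189.Lit
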