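import Vale.Agent.P189.Defs
import Vale.Agent.P189.LitDefs

/-!
# P189: the definitions with a right action are equivalent to those of `Defs`
-/

namespace Vale.Agent.P189.Lit

open MeasureTheory
open scoped ENNReal

variable {Γ : Type} [Group Γ] {X : Type} [MeasurableSpace X] {μ : Measure X}

/-- The left action `g • x = x g⁻¹` of a right action. -/
@[reducible] def PmpAction.toLeft (α : PmpAction Γ μ) : MulAction Γ X where
  smul g x := α.act x g⁻¹
  one_smul x := by
    show α.act x 1⁻¹ = x
    rw [inv_one, α.act_one]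
  mul_smul g h x := by
    show α.act x (g * h)⁻¹ = α.act (α.act x h⁻¹) g⁻¹
    rw [α.act_mul, mul_inv_rev]

/-- The right action `x g = g⁻¹ • x` of a left action. -/
def ofLeft [MulAction Γ X] (hp : IsPmp Γ μ) : PmpAction Γ μ where
  act x g := g⁻¹ • x
  act_one x := by simp
  act_mul x g h := by simp [mul_smul]
  preserving g := hp g⁻¹

theorem mem_R_ofLeft [MulAction Γ X] (hp : IsPmp Γ μ) (x y : X) :
    (x, y) ∈ (ofLeft hp).R ↔ ∃ g : Γ, y = g • x := by
  constructor
  · rintro ⟨g, hg⟩
    exact ⟨g⁻¹, hg⟩
  · rintro ⟨g, hg⟩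
    refine ⟨g⁻¹, ?_⟩
    show y = (g⁻¹)⁻¹ • x
    rw [inv_inv]; exact hg

theorem essFree_ofLeft [MulAction Γ X] (hp : IsPmp Γ μ) (hf : EssFree Γ μ) :
    (ofLeft hp).EssentiallyFree := by
  intro g hg
  exact hf g⁻¹ (by simpa using hg)

/-- The empty partial automorphism. -/
def emptyAut (μ : Measure X) : PartialAut μ where
  dom := ∅
  cod := ∅
  map := id
  dom_meas := MeasurableSet.empty
  cod_meas := MeasurableSet.empty
  bij := by simp [Set.BijOn, Set.MapsTo, Set.SurjOn]
  preserving := MeasurePreserving.id _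

open Classical in
/-- A partial isomorphism as a partial automorphism. -/
noncomputable def PartialIso.toAut (p : PartialIso μ) : PartialAut μ where
  dom := p.A
  cod := p.B
  map := fun x => if h : x ∈ p.A then (p.φ ⟨x, h⟩ : X) else x
  dom_meas := p.measurableSet_A
  cod_meas := p.measurableSet_B
  bij := by
    refine ⟨?_, ?_, ?_⟩
    · intro x hx
      simp only [dif_pos hx]
      exact (p.φ ⟨x, hx⟩).2
    · intro x hx y hy hxy
      simp only [dif_pos hx, dif_pos hy] at hxy
      have := p.φ.injective (Subtype.ext hxy)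
      exact congrArg Subtype.val this
    · intro y hy
      refine ⟨p.φ.symm ⟨y, hy⟩, (p.φ.symm ⟨y, hy⟩).2, ?_⟩
      simp only [dif_pos (p.φ.symm ⟨y, hy⟩).2]
      simp
  preserving := by
    have hm : Measurable (fun x : X => if h : x ∈ p.A then (p.φ ⟨x, h⟩ : X) else x) := by
      refine Measurable.dite (s := p.A) (f := fun x : p.A => (p.φ x : X))
        (g := fun x : (p.Aᶜ : Set X) => (x : X)) ?_ ?_ p.measurableSet_A
      · exact measurable_subtype_coe.comp p.φ.measurable
      · exact measurable_subtype_coe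
    refine ⟨hm, ?_⟩
    ext S hS
    rw [Measure.map_apply hm hS, Measure.restrict_apply (hm hS), Measure.restrict_apply hS]
    have h1 := p.preserving.measure_preimage
      (s := Subtype.val ⁻¹' S) ((measurable_subtype_coe hS).nullMeasurableSet)
    have hembA := MeasurableEmbedding.subtype_coe p.measurableSet_A
    have hembB := MeasurableEmbedding.subtype_coe p.measurableSet_B
    rw [hembA.comap_apply, hembB.comap_apply, Subtype.image_preimage_coe] at h1
    rw [Set.inter_comm S p.B, ← h1]
    congr 1
    ext x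
    constructor
    · rintro ⟨hx, hxA⟩
      refine ⟨⟨x, hxA⟩, ?_, rfl⟩
      simp only [Set.mem_preimage, dif_pos hxA] at hx
      exact hx
    · rintro ⟨⟨y, hyA⟩, hy, rfl⟩
      refine ⟨?_, hyA⟩
      simp only [Set.mem_preimage, dif_pos hyA]
      exact hy

/-- Lower bound: every graphing in the literal sense gives one in the sense of `Defs`. -/
theorem cost_le_lit [MulAction Γ X] (hp : IsPmp Γ μ) :
    P189.Cost Γ μ ≤ Cost (ofLeft hp).R μ := by
  classical
  refine le_iInf fun Φ => le_iInf fun hΦ => ?_
  haveI := Φ.countable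
  obtain ⟨e, he⟩ := exists_injective_nat Φ.ι
  let Ψ : ℕ → PartialAut μ := fun n =>
    if h : ∃ i, e i = n then (Φ.maps h.choose).toAut else emptyAut μ
  have hΨ : ∀ i, Ψ (e i) = (Φ.maps i).toAut := by
    intro i
    have h : ∃ j, e j = e i := ⟨i, rfl⟩
    have h1 : h.choose = i := he h.choose_spec
    simp only [Ψ, dif_pos h]
    rw [h1]
  have hΨ' : ∀ n, (¬ ∃ i, e i = n) → Ψ n = emptyAut μ := by
    intro n hn
    simp only [Ψ, dif_neg hn]
  have h1 : IsGraphing Γ Ψ := by
    intro n x hx
    by_cases h : ∃ i, e i = n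
    · obtain ⟨i, rfl⟩ := h
      rw [hΨ] at hx ⊢
      have h2 := Φ.mem i ⟨x, hx⟩
      rw [mem_R_ofLeft] at h2
      obtain ⟨g, hg⟩ := h2
      refine ⟨g, ?_⟩
      have h3 : x ∈ (Φ.maps i).A := hx
      simp only [PartialIso.toAut, dif_pos h3]
      exact hg
    · rw [hΨ' n h] at hx
      exact absurd hx (Set.notMem_empty x)
  have hedge : ∀ u v, Φ.Edge u v → Step Ψ u v := by
    rintro u v ⟨i, h, rfl⟩
    refine ⟨e i, ?_, ?_⟩
    · rw [hΨ]; exact h
    · rw [hΨ]
      simp only [PartialIso.toAut, dif_pos h]
  have h2 : P189.Generates Γ Ψ := by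
    filter_upwards [hΦ] with x hx g
    have h3 := hx (g • x) ((mem_R_ofLeft hp _ _).mpr ⟨g, rfl⟩)
    generalize g • x = y at h3 ⊢
    induction h3 with
    | refl => exact Relation.EqvGen.refl _
    | tail _ hstep ih =>
      refine Relation.EqvGen.trans _ _ _ ih ?_
      rcases hstep with h | h
      · exact Relation.EqvGen.rel _ _ (hedge _ _ h)
      · exact Relation.EqvGen.symm _ _ (Relation.EqvGen.rel _ _ (hedge _ _ h))
  have h4 : P189.Cost Γ μ ≤ graphingCost Ψ :=
    iInf_le_of_le Ψ (iInf_le_of_le h1 (iInf_le_of_le h2 le_rfl))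
  refine h4.trans ?_
  have h3 : ∀ i, μ (Ψ (e i)).dom = μ (Φ.maps i).A := by
    intro i; rw [hΨ]; rfl
  unfold graphingCost Graphing.cost
  rw [← tsum_congr h3]
  refine le_of_eq ?_
  symm
  refine he.tsum_eq (f := fun n => μ (Ψ n).dom) ?_
  intro n hn
  by_contra h
  apply hn
  have : Ψ n = emptyAut μ := hΨ' n (by simpa using h)
  simp only [this, emptyAut, measure_empty]

/-- The restriction of a partial automorphism to its domain. -/
def autFun (p : PartialAut μ) : p.dom → p.cod := fun x => ⟨p.map x, p.bij.mapsTo x.2⟩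

theorem autFun_meas (p : PartialAut μ) : Measurable (autFun p) :=
  (p.preserving.measurable.comp measurable_subtype_coe).subtype_mk

theorem autFun_bij (p : PartialAut μ) : Function.Bijective (autFun p) := by
  constructor
  · intro x y hxy
    have := p.bij.injOn x.2 y.2 (congrArg Subtype.val hxy)
    exact Subtype.ext this
  · rintro ⟨y, hy⟩
    obtain ⟨x, hx, hxy⟩ := p.bij.surjOn hy
    exact ⟨⟨x, hx⟩, Subtype.ext hxy⟩

/-- A partial automorphism of a standard Borel space as a partial isomorphism. -/
noncomputable def ofAut [StandardBorelSpace X] (p : PartialAut μ) : PartialIso μ where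
  A := p.dom
  B := p.cod
  measurableSet_A := p.dom_meas
  measurableSet_B := p.cod_meas
  φ :=
    { toEquiv := Equiv.ofBijective (autFun p) (autFun_bij p)
      measurable_toFun := autFun_meas p
      measurable_invFun := by
        haveI := p.dom_meas.standardBorel
        haveI := p.cod_meas.standardBorel
        have hemb := (autFun_meas p).measurableEmbedding (autFun_bij p).1
        intro S hS
        have : (Equiv.ofBijective (autFun p) (autFun_bij p)).symm ⁻¹' S = autFun p '' S := by
          rw [← Equiv.image_eq_preimage_symm]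
          rfl
        rw [this]
        exact hemb.measurableSet_image.mpr hS }
  preserving := by
    refine ⟨autFun_meas p, ?_⟩
    have hembA := MeasurableEmbedding.subtype_coe p.dom_meas
    have hembB := MeasurableEmbedding.subtype_coe p.cod_meas
    ext S hS
    have hT : MeasurableSet (Subtype.val '' S : Set X) := hembB.measurableSet_image.mpr hS
    have h1 := p.preserving.measure_preimage hT.nullMeasurableSet
    rw [Measure.restrict_apply (p.preserving.measurable hT), Measure.restrict_apply hT] at h1
    change Measure.map (autFun p) _ S = _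
    rw [Measure.map_apply (autFun_meas p) hS, hembA.comap_apply, hembB.comap_apply]
    have h2 : (Subtype.val '' S : Set X) ∩ p.cod = Subtype.val '' S := by
      refine Set.inter_eq_left.mpr ?_
      rintro _ ⟨y, _, rfl⟩
      exact y.2
    rw [h2] at h1
    rw [← h1]
    congr 1
    ext x
    constructor
    · rintro ⟨y, hy, rfl⟩
      exact ⟨⟨autFun p y, hy, rfl⟩, y.2⟩
    · rintro ⟨⟨y, hy, hxy⟩, hx⟩
      refine ⟨⟨x, hx⟩, ?_, rfl⟩
      have : autFun p ⟨x, hx⟩ = y := Subtype.ext hxy.symm
      show autFun p ⟨x, hx⟩ ∈ S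
      rw [this]; exact hy

/-- Upper bound: every graphing in the sense of `Defs` gives a literal one. -/
theorem lit_le_cost [StandardBorelSpace X] [MulAction Γ X] (hp : IsPmp Γ μ) :
    Cost (ofLeft hp).R μ ≤ P189.Cost Γ μ := by
  refine le_iInf fun Φ => le_iInf fun hΦ => le_iInf fun hgen => ?_
  let Ψ : Graphing (ofLeft hp).R μ :=
    { ι := ℕ
      countable := inferInstance
      maps := fun n => ofAut (Φ n)
      mem := by
        intro n x
        rw [mem_R_ofLeft]
        exact hΦ n x x.2 }
  have hstep : ∀ u v, Step Φ u v → Ψ.Edge u v := by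
    rintro u v ⟨n, h, rfl⟩
    exact ⟨n, h, rfl⟩
  have h1 : Ψ.Generates := by
    filter_upwards [hgen] with x hx y hy
    rw [mem_R_ofLeft] at hy
    obtain ⟨g, rfl⟩ := hy
    have h2 := hx g
    generalize g • x = y at h2 ⊢
    have hsymm : ∀ a b, Relation.ReflTransGen (fun u v => Ψ.Edge u v ∨ Ψ.Edge v u) a b →
        Relation.ReflTransGen (fun u v => Ψ.Edge u v ∨ Ψ.Edge v u) b a := by
      intro a b hab
      induction hab with
      | refl => exact Relation.ReflTransGen.refl
      | tail _ hstep ih => exact Relation.ReflTransGen.head hstep.symm ih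
    clear hx
    induction h2 with
    | rel a b h => exact Relation.ReflTransGen.single (Or.inl (hstep _ _ h))
    | refl a => exact Relation.ReflTransGen.refl
    | symm a b _ ih => exact hsymm _ _ ih
    | trans a b c _ _ ih1 ih2 => exact ih1.trans ih2
  exact iInf_le_of_le Ψ (iInf_le_of_le h1 le_rfl)

theorem lit_cost_eq [StandardBorelSpace X] [MulAction Γ X] (hp : IsPmp Γ μ) :
    Cost (ofLeft hp).R μ = P189.Cost Γ μ :=
  le_antisymm (lit_le_cost hp) (cost_le_lit hp)

/-- Literal fixed price implies fixed price in the sense of `Defs`. -/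
theorem fixedPrice_of_lit (h : FixedPrice Γ) : P189.FixedPrice Γ := by
  intro X Y _ _ _ _ μ ν _ _ _ _ hμ hν hfμ hfν
  rw [← lit_cost_eq hμ, ← lit_cost_eq hν]
  exact h X Y μ ν (ofLeft hμ) (ofLeft hν) (essFree_ofLeft hμ hfμ) (essFree_ofLeft hν hfν)

end Vale.Agent.P189.Lit
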