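import Vale.Agent.P189.Lit
import Vale.Agent.P189.Final

/-!
# P189: final theorem in the literal wording
-/

namespace Vale.Agent.P189.Lit

open MeasureTheory
open scoped ENNReal

theorem not_fixedPrice : ¬ FixedPrice Gam := fun h => gam_not_fixedPrice (fixedPrice_of_lit h)

theorem literal_result :
    (¬ ∀ (Γ : Type) [Group Γ] [Countable Γ], FixedPrice Γ) ∧
    ∃ (Γ : Type) (_ : Group Γ) (_ : Countable Γ)
      (X : Type) (_ : MeasurableSpace X) (_ : StandardBorelSpace X)
      (Y : Type) (_ : MeasurableSpace Y) (_ : StandardBorelSpace Y)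
      (μ : Measure X) (ν : Measure Y) (_ : IsProbabilityMeasure μ) (_ : IsProbabilityMeasure ν)
      (α : PmpAction Γ μ) (β : PmpAction Γ ν),
      α.EssentiallyFree ∧ β.EssentiallyFree ∧ Cost α.R μ ≠ Cost β.R ν := by
  refine ⟨fun h => not_fixedPrice (h Gam), ?_⟩
  have h := not_fixedPrice
  unfold FixedPrice at h
  push Not at h
  obtain ⟨X, Y, h1, h2, h3, h4, μ, ν, h5, h6, α, β, h7, h8, h9⟩ := h
  exact ⟨Gam, inferInstance, inferInstance, X, h1, h2, Y, h3, h4, μ, ν, h5, h6, α, β, h7, h8, h9⟩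

end Vale.Agent.P189.Lit
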