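/-
P189: marker lemmas (small complete sections), from a measurable function `lam` that is injective on
orbits.  `D_n = {u ∈ B | lam u < (⨅ over the class of u) + 1/(n+1)}` decreases to `∅`.
-/
import Vale.Agent.P189.Basic

open MeasureTheory Set
open scoped Pointwise ENNReal

namespace Vale.Agent.P189

variable {𝒢 : Type} [Group 𝒢] [Countable 𝒢] {Z : Type} [MeasurableSpace Z] [MulAction 𝒢 Z]
  [MeasurableConstSMul 𝒢 Z]

open Classical in
/-- infimum of `lam` over the `r`-class (only points of the `𝒢`-orbit are seen) -/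
noncomputable def clInf (𝒢 : Type) [Group 𝒢] {Z : Type} [MulAction 𝒢 Z] (lam : Z → ℝ≥0∞)
    (r : Setoid Z) (z : Z) : ℝ≥0∞ :=
  ⨅ g : 𝒢, if r z (g • z) then lam (g • z) else ∞

theorem measurable_clInf {lam : Z → ℝ≥0∞} (hlam : Measurable lam) {r : Setoid Z}
    (hr : MS 𝒢 r) : Measurable (clInf 𝒢 lam r) := by
  classical
  unfold clInf
  refine Measurable.iInf fun g => ?_
  exact Measurable.ite (hr g) (hlam.comp (measurable_const_smul g)) measurable_const

omit [Countable 𝒢] [MeasurableSpace Z] [MeasurableConstSMul 𝒢 Z] in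
theorem clInf_le {lam : Z → ℝ≥0∞} {r : Setoid Z} (hrO : r ≤ RR (⊤ : Subgroup 𝒢) univ) {z w : Z}
    (h : r z w) : clInf 𝒢 lam r z ≤ lam w := by
  classical
  obtain ⟨g, rfl⟩ := exists_smul_of_le_orb hrO h
  unfold clInf
  refine (iInf_le _ g).trans ?_
  rw [if_pos h]

omit [Countable 𝒢] [MeasurableSpace Z] [MeasurableConstSMul 𝒢 Z] in
theorem le_clInf {lam : Z → ℝ≥0∞} {r : Setoid Z} {z : Z} {x : ℝ≥0∞}
    (h : ∀ w, r z w → x ≤ lam w) : x ≤ clInf 𝒢 lam r z := by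
  classical
  unfold clInf
  refine le_iInf fun g => ?_
  by_cases hg : r z (g • z)
  · rw [if_pos hg]; exact h _ hg
  · rw [if_neg hg]; exact le_top

omit [Countable 𝒢] [MeasurableSpace Z] [MeasurableConstSMul 𝒢 Z] in
theorem clInf_congr {lam : Z → ℝ≥0∞} {r : Setoid Z} (hrO : r ≤ RR (⊤ : Subgroup 𝒢) univ)
    {z w : Z} (h : r z w) : clInf 𝒢 lam r z = clInf 𝒢 lam r w :=
  le_antisymm (le_clInf fun v hv => clInf_le hrO (r.trans h hv))
    (le_clInf fun v hv => clInf_le hrO (r.trans (r.symm h) hv))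

theorem marker (μ : Measure Z) {lam : Z → ℝ≥0∞} (hlam : Measurable lam)
    (hfin : ∀ z, lam z ≠ ∞) {r : Setoid Z} (hr : MS 𝒢 r)
    (hrO : r ≤ RR (⊤ : Subgroup 𝒢) univ)
    {B : Set Z} (hB : MeasurableSet B) (hBfin : μ B ≠ ∞) (hBsat : ∀ z ∈ B, ∀ w, r z w → w ∈ B)
    (hno : ∀ z ∈ B, ∃ w, r z w ∧ lam w < lam z) {ε : ℝ≥0∞} (hε : ε ≠ 0) :
    ∃ D : Set Z, D ⊆ B ∧ MeasurableSet D ∧ μ D ≤ ε ∧ ∀ z ∈ B, ∃ d ∈ D, r z d := by
  set D : ℕ → Set Z := fun n => {u | u ∈ B ∧ lam u < clInf 𝒢 lam r u + (n + 1 : ℝ≥0∞)⁻¹} with hD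
  have hmeas : ∀ n, MeasurableSet (D n) := fun n =>
    hB.inter (measurableSet_lt hlam ((measurable_clInf hlam hr).add_const _))
  have hanti : Antitone D := by
    intro m n hmn u hu
    refine ⟨hu.1, hu.2.trans_le ?_⟩
    gcongr
  have hempty : ⋂ n, D n = ∅ := by
    rw [Set.eq_empty_iff_forall_notMem]
    intro u hu
    rw [mem_iInter] at hu
    have huB : u ∈ B := (hu 0).1
    obtain ⟨w, hw, hlt⟩ := hno u huB
    have h1 : clInf 𝒢 lam r u ≤ lam w := clInf_le hrO hw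
    have h2 : lam u ≤ clInf 𝒢 lam r u := by
      refine ENNReal.le_of_forall_pos_le_add fun δ hδ _ => ?_
      obtain ⟨n, hn⟩ := ENNReal.exists_inv_nat_lt (a := (δ : ℝ≥0∞)) (by simpa using hδ.ne')
      refine (hu n).2.le.trans ?_
      gcongr
      refine le_trans ?_ hn.le
      gcongr
      exact le_self_add
    exact absurd (h2.trans h1) (not_le.mpr hlt)
  have htend : Filter.Tendsto (fun n => μ (D n)) Filter.atTop (nhds 0) := by
    have := tendsto_measure_iInter_atTop (μ := μ) (s := D)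
      (fun n => (hmeas n).nullMeasurableSet) hanti
      ⟨0, ne_top_of_le_ne_top hBfin (measure_mono fun u hu => hu.1)⟩
    rwa [hempty, measure_empty] at this
  obtain ⟨n, hn⟩ := ((tendsto_order.1 htend).2 ε (pos_iff_ne_zero.mpr hε)).exists
  refine ⟨D n, fun u hu => hu.1, hmeas n, hn.le, fun z hz => ?_⟩
  have hI : clInf 𝒢 lam r z ≠ ∞ :=
    ne_top_of_le_ne_top (hfin z) (clInf_le hrO (r.refl z))
  by_contra hcon
  push Not at hcon
  have h3 : clInf 𝒢 lam r z + (n + 1 : ℝ≥0∞)⁻¹ ≤ clInf 𝒢 lam r z := by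
    refine le_clInf fun w hw => ?_
    have h4 : w ∉ D n := fun h => hcon w h hw
    have h5 : ¬ (lam w < clInf 𝒢 lam r w + (n + 1 : ℝ≥0∞)⁻¹) := fun h =>
      h4 ⟨hBsat z hz w hw, h⟩
    rw [not_lt, ← clInf_congr hrO hw] at h5
    exact h5
  have h6 : clInf 𝒢 lam r z < clInf 𝒢 lam r z + (n + 1 : ℝ≥0∞)⁻¹ :=
    ENNReal.lt_add_right hI (by
      simp only [ne_eq, ENNReal.inv_eq_zero]
      exact_mod_cast ENNReal.natCast_ne_top (n + 1))
  exact absurd h3 (not_le.mpr h6)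

/-- Small complete sections for an element of infinite order. -/
theorem exists_section (μ : Measure Z) [IsProbabilityMeasure μ] [SMulInvariantMeasure 𝒢 Z μ]
    {lam : Z → ℝ≥0∞} (hlam : Measurable lam) (hfin : ∀ z, lam z ≠ ∞)
    (hinj : ∀ (g : 𝒢) z, lam (g • z) = lam z → g = 1)
    {t : 𝒢} (ht : ∀ k : ℤ, k ≠ 0 → t ^ k ≠ 1) {ε : ℝ≥0∞} (hε : ε ≠ 0) :
    ∃ D : Set Z, MeasurableSet D ∧ μ D ≤ ε ∧ ∀ z, ∃ k : ℤ, t ^ k • z ∈ D := by
  have : FreeAct 𝒢 Z := ⟨fun g z h => hinj g z (by rw [h])⟩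
  set r : Setoid Z := RR (Subgroup.zpowers t) univ with hrdef
  have hr : MS 𝒢 r := ms_rr _ MeasurableSet.univ
  have hrO : r ≤ RR (⊤ : Subgroup 𝒢) univ := rr_mono le_top (Subset.refl _)
  have hrel : ∀ z (k : ℤ), r z (t ^ k • z) := fun z k =>
    Or.inr ⟨mem_univ _, mem_univ _, t ^ k, Subgroup.mem_zpowers_iff.mpr ⟨k, rfl⟩, rfl⟩
  have hrel' : ∀ z w, r z w → ∃ k : ℤ, w = t ^ k • z := by
    rintro z w (rfl | ⟨-, -, h, hh, rfl⟩)
    · exact ⟨0, by simp⟩
    · obtain ⟨k, rfl⟩ := Subgroup.mem_zpowers_iff.mp hh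
      exact ⟨k, rfl⟩
  -- points minimal in their `t`-orbit
  set A : Set Z := {z | ∀ j : ℤ, lam z ≤ lam (t ^ j • z)} with hA
  have hAm : MeasurableSet A := by
    have : A = ⋂ j : ℤ, {z | lam z ≤ lam (t ^ j • z)} := by
      ext z; simp [hA]
    rw [this]
    exact MeasurableSet.iInter fun j =>
      measurableSet_le hlam (hlam.comp (measurable_const_smul _))
  have hmin : ∀ (k l : ℤ) z, t ^ k • z ∈ A → t ^ l • z ∈ A → k = l := by
    intro k l z h1 h2
    have e1 : lam (t ^ k • z) ≤ lam (t ^ l • z) := by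
      have := h1 (l - k)
      rwa [smul_smul, ← zpow_add, sub_add_cancel] at this
    have e2 : lam (t ^ l • z) ≤ lam (t ^ k • z) := by
      have := h2 (k - l)
      rwa [smul_smul, ← zpow_add, sub_add_cancel] at this
    have e3 : lam (t ^ (k - l) • (t ^ l • z)) = lam (t ^ l • z) := by
      rw [smul_smul, ← zpow_add, sub_add_cancel]
      exact le_antisymm e1 e2
    have e4 := hinj _ _ e3
    by_contra hkl
    exact ht (k - l) (sub_ne_zero.mpr hkl) e4
  have hA0 : μ A = 0 := by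
    have hdisj : Pairwise (Function.onFun Disjoint (fun k : ℤ => (fun z => t ^ k • z) ⁻¹' A)) := by
      intro k l hkl
      rw [Function.onFun, Set.disjoint_left]
      intro z h1 h2
      exact hkl (hmin k l z h1 h2)
    have hm : ∀ k : ℤ, MeasurableSet ((fun z => t ^ k • z) ⁻¹' A) := fun k =>
      measurable_const_smul (t ^ k) hAm
    have hsum : ∑' k : ℤ, μ ((fun z => t ^ k • z) ⁻¹' A) ≤ 1 := by
      rw [← measure_iUnion hdisj hm]
      exact prob_le_one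
    have heq : ∀ k : ℤ, μ ((fun z => t ^ k • z) ⁻¹' A) = μ A := fun k =>
      measure_preimage_smul_of_nullMeasurableSet hAm.nullMeasurableSet (t ^ k)
    simp only [heq] at hsum
    by_contra h0
    rw [ENNReal.tsum_const_eq_top_of_ne_zero h0] at hsum
    exact absurd hsum (by simp)
  -- the rest
  set B : Set Z := {z | ∀ k : ℤ, t ^ k • z ∉ A} with hBdef
  have hBm : MeasurableSet B := by
    have : B = ⋂ k : ℤ, ((fun z => t ^ k • z) ⁻¹' A)ᶜ := by
      ext z; simp [hBdef]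
    rw [this]
    exact MeasurableSet.iInter fun k => (measurable_const_smul (t ^ k) hAm).compl
  have hBsat : ∀ z ∈ B, ∀ w, r z w → w ∈ B := by
    intro z hz w hw k hk
    obtain ⟨l, rfl⟩ := hrel' z w hw
    rw [smul_smul, ← zpow_add] at hk
    exact hz _ hk
  have hno : ∀ z ∈ B, ∃ w, r z w ∧ lam w < lam z := by
    intro z hz
    have h0 := hz 0
    rw [zpow_zero, one_smul] at h0
    have : ∃ j : ℤ, ¬ lam z ≤ lam (t ^ j • z) := by
      by_contra hcon
      push Not at hcon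
      exact h0 hcon
    obtain ⟨j, hj⟩ := this
    exact ⟨_, hrel z j, not_le.mp hj⟩
  obtain ⟨D, -, hDm, hDε, hDs⟩ := marker μ hlam hfin hr hrO hBm (measure_ne_top μ B) hBsat hno hε
  refine ⟨D ∪ A, hDm.union hAm, ?_, fun z => ?_⟩
  · refine (measure_union_le _ _).trans ?_
    rw [hA0, add_zero]
    exact hDε
  · by_cases hz : z ∈ B
    · obtain ⟨d, hd, hrd⟩ := hDs z hz
      obtain ⟨k, rfl⟩ := hrel' z d hrd
      exact ⟨k, Or.inl hd⟩
    · have : ∃ k : ℤ, t ^ k • z ∈ A := by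
        by_contra hcon
        push Not at hcon
        exact hz hcon
      obtain ⟨k, hk⟩ := this
      exact ⟨k, Or.inr hk⟩

/-- Countable covers by small sets. -/
theorem exists_small_cover (μ : Measure Z) [IsProbabilityMeasure μ] [SMulInvariantMeasure 𝒢 Z μ]
    {lam : Z → ℝ≥0∞} (hlam : Measurable lam) (hfin : ∀ z, lam z ≠ ∞)
    (hinj : ∀ (g : 𝒢) z, lam (g • z) = lam z → g = 1)
    {t : 𝒢} (ht : ∀ k : ℤ, k ≠ 0 → t ^ k ≠ 1) {ε : ℝ≥0∞} (hε : ε ≠ 0) :
    ∃ Λ : ℕ → Set Z, (∀ i, MeasurableSet (Λ i)) ∧ (∀ i, μ (Λ i) ≤ ε) ∧ ∀ z, ∃ i, z ∈ Λ i := by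
  obtain ⟨D, hD, hDε, hDs⟩ := exists_section μ hlam hfin hinj ht hε
  refine ⟨fun i => (fun z => t ^ (Equiv.intEquivNat.symm i) • z) ⁻¹' D, fun i => ?_, fun i => ?_,
    fun z => ?_⟩
  · exact measurable_const_smul _ hD
  · rw [measure_preimage_smul_of_nullMeasurableSet hD.nullMeasurableSet]
    exact hDε
  · obtain ⟨k, hk⟩ := hDs z
    exact ⟨Equiv.intEquivNat k, by simpa using hk⟩

end Vale.Agent.P189
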