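/-
P189, Step A, one stage.

`r` : the current relation (inside `RR C Y`, all classes off `M` have a `lam`-least point),
`N ≥ r` : the new relation (all `R_C`-consequences of one side).
`D` : small set meeting every class of `N` that is disjoint from `M` and has no `lam`-least point;
its points `u` get attached to `M` by the arc `u → kap u • u`.
`T` : one arc for every point of `minPts r \ minPts (N ⊔ edge (arcsOf D kap))`:
  * `N`-class meets `M`: an arc to a point of `M` in the same class;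
  * `N`-class has a `lam`-least point `v`: an arc to `v`;
  * otherwise: an arc to a point of `D` in the same `N`-class.
-/
import Vale.Agent.P189.Marker

open MeasureTheory Set
open scoped Pointwise ENNReal

namespace Vale.Agent.P189

variable {𝒢 : Type} [Group 𝒢] {Z : Type} [MulAction 𝒢 Z]

/-- Every class of `r` meeting `Y` meets `M` or has a `lam`-least point. -/
def Good (lam : Z → ℝ≥0∞) (M Y : Set Z) (r : Setoid Z) : Prop :=
  ∀ y ∈ Y, (∃ m ∈ M, r y m) ∨ ∃ u, r y u ∧ ∀ v, r y v → lam u ≤ lam v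

/-- `lam`-least points of classes disjoint from `M`. -/
def minPts (lam : Z → ℝ≥0∞) (M Y : Set Z) (r : Setoid Z) : Set Z :=
  {u | u ∈ Y ∧ (∀ m ∈ M, ¬ r u m) ∧ ∀ v, r u v → lam u ≤ lam v}

variable [Countable 𝒢] [MeasurableSpace Z] [MeasurableConstSMul 𝒢 Z]

theorem oneStep_le_orb {C : Subgroup 𝒢} {Y : Set Z} {N : Setoid Z} (hNC : N ≤ RR C Y) :
    N ≤ RR (⊤ : Subgroup 𝒢) univ :=
  hNC.trans (rr_mono le_top (subset_univ _))

omit [Countable 𝒢] [MeasurableSpace Z] [MeasurableConstSMul 𝒢 Z] in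
theorem oneStep_forall_iff {N : Setoid Z} (hNo : N ≤ RR (⊤ : Subgroup 𝒢) univ)
    (p : Z → Prop) (z : Z) : (∀ v, N z v → p v) ↔ ∀ h : 𝒢, N z (h • z) → p (h • z) := by
  constructor
  · intro h g hg
    exact h _ hg
  · intro h v hv
    obtain ⟨g, rfl⟩ := exists_smul_of_le_orb hNo hv
    exact h g hv

theorem oneStep_ms_least {N : Setoid Z} (hN : MS 𝒢 N) (hNo : N ≤ RR (⊤ : Subgroup 𝒢) univ)
    {lam : Z → ℝ≥0∞} (hlam : Measurable lam) (g : 𝒢) :
    MeasurableSet {z | ∀ v, N z v → lam (g • z) ≤ lam v} := by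
  have e : {z | ∀ v, N z v → lam (g • z) ≤ lam v} =
      ⋂ h : 𝒢, ({z | N z (h • z)}ᶜ ∪ {z | lam (g • z) ≤ lam (h • z)}) := by
    ext z
    simp only [mem_setOf_eq, mem_iInter, mem_union, mem_compl_iff]
    rw [oneStep_forall_iff hNo (fun v => lam (g • z) ≤ lam v) z]
    refine forall_congr' fun h => ?_
    tauto
  rw [e]
  refine MeasurableSet.iInter fun h => (hN h).compl.union ?_
  exact measurableSet_le (hlam.comp (measurable_const_smul g)) (hlam.comp (measurable_const_smul h))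

theorem oneStep_ms_disj {N : Setoid Z} (hN : MS 𝒢 N) (hNo : N ≤ RR (⊤ : Subgroup 𝒢) univ)
    {M : Set Z} (hM : MeasurableSet M) : MeasurableSet {z | ∀ m ∈ M, ¬ N z m} := by
  have e : {z | ∀ m ∈ M, ¬ N z m} = {z | ∃ m ∈ M, N z m}ᶜ := by
    ext z
    simp only [mem_setOf_eq, mem_compl_iff, not_exists, not_and]
  rw [e]
  exact (hN.measurableSet_sat hNo hM).compl

theorem oneStep_ms_minPts {N : Setoid Z} (hN : MS 𝒢 N) (hNo : N ≤ RR (⊤ : Subgroup 𝒢) univ)
    {lam : Z → ℝ≥0∞} (hlam : Measurable lam) {M Y : Set Z} (hM : MeasurableSet M)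
    (hY : MeasurableSet Y) : MeasurableSet (minPts lam M Y N) := by
  have e : minPts lam M Y N = Y ∩ ({z | ∀ m ∈ M, ¬ N z m} ∩
      {z | ∀ v, N z v → lam ((1 : 𝒢) • z) ≤ lam v}) := by
    ext z
    simp only [minPts, mem_setOf_eq, mem_inter_iff, one_smul]
  rw [e]
  exact hY.inter ((oneStep_ms_disj hN hNo hM).inter (oneStep_ms_least hN hNo hlam 1))

omit [Countable 𝒢] [MeasurableSpace Z] [MeasurableConstSMul 𝒢 Z] in
/-- A class of `N` disjoint from `M` and from `D` is not enlarged by the arcs of `D`. -/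
theorem oneStep_class {N : Setoid Z} {M D : Set Z} {kap : Z → 𝒢} (hDM : ∀ d ∈ D, kap d • d ∈ M)
    {y : Z} (hy : ∀ m ∈ M, ¬ N y m) (hyD : ∀ d ∈ D, ¬ N y d) {w : Z}
    (h : (N ⊔ edge (arcsOf D kap)) y w) : N y w := by
  have key : ∀ a b, (N ⊔ edge (arcsOf D kap)) a b → (N y a ↔ N y b) := by
    intro a b hab
    refine sup_induction (P := fun a b => (N y a ↔ N y b)) (fun z => Iff.rfl)
      (fun _ _ _ h1 h2 => h1.trans h2) ?_ ?_ hab
    · intro p q hpq
      exact ⟨fun h => N.trans' h hpq, fun h => N.trans' h (N.symm' hpq)⟩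
    · intro p q hpq
      have hle : edge (arcsOf D kap) ≤ (Setoid.comap (fun z => N y z) ⊥) := by
        rw [edge_le_iff]
        rintro g z ⟨hz, rfl⟩
        have h1 : ¬ N y z := hyD z hz
        have h2 : ¬ N y (kap z • z) := hy _ (hDM z hz)
        show N y z = N y (kap z • z)
        exact propext ⟨fun h => absurd h h1, fun h => absurd h h2⟩
      have h3 := hle hpq
      have h4 : (N y p) = (N y q) := h3
      rw [h4]
  exact (key y w h).1 (N.refl' y)

theorem oneStep [FreeAct 𝒢 Z] (μ : Measure Z)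
    {C : Subgroup 𝒢} {M Y : Set Z} (hM : MeasurableSet M) (hY : MeasurableSet Y) (hMY : M ⊆ Y)
    (hYfin : μ Y ≠ ∞)
    {lam : Z → ℝ≥0∞} (hlam : Measurable lam) (hfin : ∀ z, lam z ≠ ∞)
    (hinj : ∀ (g : 𝒢) z, lam (g • z) = lam z → g = 1)
    {kap : Z → 𝒢} (hkap : ∀ g, MeasurableSet {z | kap z = g}) (kapC : ∀ z, kap z ∈ C)
    (kapM : ∀ z ∈ Y, kap z • z ∈ M)
    {r N : Setoid Z} (hr : MS 𝒢 r) (hN : MS 𝒢 N) (hrN : r ≤ N) (hNC : N ≤ RR C Y)
    (hMr : RR C M ≤ r) (hgood : Good lam M Y r) {ε : ℝ≥0∞} (hε : ε ≠ 0) :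
    ∃ (D : Set Z) (T : 𝒢 → Set Z), D ⊆ Y ∧ MeasurableSet D ∧ μ D ≤ ε ∧ ME T ∧
      (∀ g, ∀ z ∈ T g, z ∈ Y ∧ g • z ∈ Y) ∧ edge T ≤ N ∧
      Good lam M Y (N ⊔ edge (arcsOf D kap)) ∧
      MS 𝒢 (N ⊔ edge (arcsOf D kap)) ∧
      cost μ T + μ (minPts lam M Y (N ⊔ edge (arcsOf D kap))) ≤ μ (minPts lam M Y r) ∧
      N ≤ r ⊔ edge T ⊔ edge (arcsOf D kap) := by
  classical
  have hNo := oneStep_le_orb hNC
  have hro : r ≤ RR (⊤ : Subgroup 𝒢) univ := hrN.trans hNo
  have hNY : ∀ z w, N z w → z ∈ Y → w ∈ Y := by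
    intro z w h hz
    rcases hNC h with rfl | ⟨_, hw, _⟩
    · exact hz
    · exact hw
  -- the bad set
  set B : Set Z := {z | z ∈ Y ∧ (∀ m ∈ M, ¬ N z m) ∧
    ¬ ∃ u, N z u ∧ ∀ v, N z v → lam u ≤ lam v} with hBdef
  have hBm : MeasurableSet B := by
    have e : B = Y ∩ ({z | ∀ m ∈ M, ¬ N z m} ∩
        (⋃ g : 𝒢, ({z | N z (g • z)} ∩ {z | ∀ v, N z v → lam (g • z) ≤ lam v}))ᶜ) := by
      ext z
      simp only [hBdef, mem_setOf_eq, mem_inter_iff, mem_compl_iff, mem_iUnion]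
      refine and_congr_right fun _ => and_congr_right fun _ => not_congr ?_
      constructor
      · rintro ⟨u, hu, h⟩
        obtain ⟨g, rfl⟩ := exists_smul_of_le_orb hNo hu
        exact ⟨g, hu, h⟩
      · rintro ⟨g, hu, h⟩
        exact ⟨g • z, hu, h⟩
    rw [e]
    refine hY.inter ((oneStep_ms_disj hN hNo hM).inter (MeasurableSet.iUnion fun g => ?_).compl)
    exact (hN g).inter (oneStep_ms_least hN hNo hlam g)
  have hBsat : ∀ z ∈ B, ∀ w, N z w → w ∈ B := by
    rintro z ⟨h1, h2, h3⟩ w hw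
    refine ⟨hNY z w hw h1, fun m hm h => h2 m hm (N.trans' hw h), ?_⟩
    rintro ⟨u, hu, h⟩
    exact h3 ⟨u, N.trans' hw hu, fun v hv => h v (N.trans' (N.symm' hw) hv)⟩
  have hno : ∀ z ∈ B, ∃ w, N z w ∧ lam w < lam z := by
    rintro z ⟨_, _, h3⟩
    by_contra hcon
    push Not at hcon
    exact h3 ⟨z, N.refl' z, hcon⟩
  have hBY : B ⊆ Y := fun z hz => hz.1
  have hBfin : μ B ≠ ∞ := ne_top_of_le_ne_top hYfin (measure_mono hBY)
  obtain ⟨D, hDB, hDm, hDε, hDc⟩ := marker μ hlam hfin hN hNo hBm hBfin hBsat hno hε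
  have hDY : D ⊆ Y := hDB.trans hBY
  have hDM : ∀ d ∈ D, kap d • d ∈ M := fun d hd => kapM d (hDY hd)
  set R : Setoid Z := N ⊔ edge (arcsOf D kap) with hR
  have hNR : N ≤ R := le_sup_left
  have hER : edge (arcsOf D kap) ≤ R := le_sup_right
  have hRo : R ≤ RR (⊤ : Subgroup 𝒢) univ := sup_le hNo (edge_le_orb _)
  have hRm : MS 𝒢 R := hN.sup (ms_edge (me_arcsOf hDm hkap)) hNo (edge_le_orb _)
  -- points whose class meets `M` after the step
  have hRB : ∀ z ∈ B, ∃ m ∈ M, R z m := by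
    intro z hz
    obtain ⟨d, hd, hzd⟩ := hDc z hz
    exact ⟨kap d • d, hDM d hd, R.trans' (hNR hzd) (hER (edge_arcsOf_of_mem hd))⟩
  -- classes which are not changed
  have hRN : ∀ y, (∀ m ∈ M, ¬ N y m) → y ∉ B → ∀ w, R y w → N y w := by
    intro y hy hyB w hw
    refine oneStep_class hDM hy (fun d hd hyd => hyB ?_) hw
    exact hBsat d (hDB hd) y (N.symm' hyd)
  have hGoodR : Good lam M Y R := by
    intro y hy
    by_cases h1 : ∃ m ∈ M, N y m
    · obtain ⟨m, hm, h⟩ := h1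
      exact Or.inl ⟨m, hm, hNR h⟩
    · have h1' : ∀ m ∈ M, ¬ N y m := fun m hm h => h1 ⟨m, hm, h⟩
      by_cases h2 : y ∈ B
      · exact Or.inl (hRB y h2)
      · have h3 : ∃ u, N y u ∧ ∀ v, N y v → lam u ≤ lam v := by
          by_contra h3
          exact h2 ⟨hy, h1', h3⟩
        obtain ⟨u, hu, h4⟩ := h3
        exact Or.inr ⟨u, hNR hu, fun v hv => h4 v (hRN y h1' h2 v hv)⟩
  set m0 : Set Z := minPts lam M Y r with hm0
  set m1 : Set Z := minPts lam M Y R with hm1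
  have hm0m : MeasurableSet m0 := oneStep_ms_minPts hr hro hlam hM hY
  have hm1m : MeasurableSet m1 := oneStep_ms_minPts hRm hRo hlam hM hY
  have hm10 : m1 ⊆ m0 := by
    rintro u ⟨h1, h2, h3⟩
    exact ⟨h1, fun m hm h => h2 m hm (hNR (hrN h)), fun v hv => h3 v (hNR (hrN hv))⟩
  have hm0Y : m0 ⊆ Y := fun u hu => hu.1
  -- the choice of the arcs
  obtain ⟨f, hfm, hf⟩ := exists_measurable_choice (𝒢 := 𝒢) (Z := Z)
    (P := fun g z => N z (g • z) ∧ (g • z ∈ M ∨ ((∀ m ∈ M, ¬ N z m) ∧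
      (g • z ∈ D ∨ ∀ v, N z v → lam (g • z) ≤ lam v)))) (by
    intro g
    have hs := measurable_const_smul (M := 𝒢) (α := Z) g
    have e : {z | N z (g • z) ∧ (g • z ∈ M ∨ ((∀ m ∈ M, ¬ N z m) ∧
        (g • z ∈ D ∨ ∀ v, N z v → lam (g • z) ≤ lam v)))} =
        {z | N z (g • z)} ∩ ((fun z => g • z) ⁻¹' M ∪ ({z | ∀ m ∈ M, ¬ N z m} ∩
          ((fun z => g • z) ⁻¹' D ∪ {z | ∀ v, N z v → lam (g • z) ≤ lam v}))) := by
      ext z
      simp only [mem_setOf_eq, mem_inter_iff, mem_union, mem_preimage]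
    rw [e]
    exact (hN g).inter ((hs hM).union ((oneStep_ms_disj hN hNo hM).inter
      ((hs hDm).union (oneStep_ms_least hN hNo hlam g))))
    )
  have hfex : ∀ z ∈ Y, N z (f z • z) ∧ (f z • z ∈ M ∨ ((∀ m ∈ M, ¬ N z m) ∧
      (f z • z ∈ D ∨ ∀ v, N z v → lam (f z • z) ≤ lam v))) := by
    intro z hz
    refine hf z ?_
    by_cases h1 : ∃ m ∈ M, N z m
    · obtain ⟨m, hm, h⟩ := h1
      obtain ⟨g, rfl⟩ := exists_smul_of_le_orb hNo h
      exact ⟨g, h, Or.inl hm⟩
    · have h1' : ∀ m ∈ M, ¬ N z m := fun m hm h => h1 ⟨m, hm, h⟩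
      by_cases h2 : z ∈ B
      · obtain ⟨d, hd, hzd⟩ := hDc z h2
        obtain ⟨g, rfl⟩ := exists_smul_of_le_orb hNo hzd
        exact ⟨g, hzd, Or.inr ⟨h1', Or.inl hd⟩⟩
      · have h3 : ∃ u, N z u ∧ ∀ v, N z v → lam u ≤ lam v := by
          by_contra h3
          exact h2 ⟨hz, h1', h3⟩
        obtain ⟨u, hu, h4⟩ := h3
        obtain ⟨g, rfl⟩ := exists_smul_of_le_orb hNo hu
        exact ⟨g, hu, Or.inr ⟨h1', Or.inr h4⟩⟩
  set U : Set Z := m0 \ m1 with hU
  have hUm : MeasurableSet U := hm0m.diff hm1m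
  have hTN : edge (arcsOf U f) ≤ N := by
    rw [edge_le_iff]
    rintro g z ⟨hz, rfl⟩
    exact (hfex z (hm0Y hz.1)).1
  refine ⟨D, arcsOf U f, hDY, hDm, hDε, me_arcsOf hUm hfm, ?_, hTN, hGoodR, hRm, ?_, ?_⟩
  · rintro g z ⟨hz, rfl⟩
    have hzY := hm0Y hz.1
    exact ⟨hzY, hNY _ _ (hfex z hzY).1 hzY⟩
  · rw [cost_arcsOf μ hUm hfm]
    have h1 : μ (m0 ∩ m1) + μ (m0 \ m1) = μ m0 := measure_inter_add_diff m0 hm1m
    have h2 : m0 ∩ m1 = m1 := inter_eq_right.2 hm10
    rw [h2, add_comm] at h1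
    exact h1.le
  · -- the final inclusion
    set W : Setoid Z := r ⊔ edge (arcsOf U f) ⊔ edge (arcsOf D kap) with hW
    have hrW : r ≤ W := le_sup_left.trans le_sup_left
    have hTW : edge (arcsOf U f) ≤ W := le_sup_right.trans le_sup_left
    have hDW : edge (arcsOf D kap) ≤ W := le_sup_right
    -- every point is joined to `M` or to the least point of its class
    have hroot : ∀ z ∈ Y, (∀ m ∈ M, ¬ r z m) → ∃ u, r z u ∧ u ∈ m0 := by
      intro z hz hzM
      rcases hgood z hz with ⟨m, hm, h⟩ | ⟨u, hu, h⟩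
      · exact absurd h (hzM m hm)
      · refine ⟨u, hu, hNY z u (hrN hu) hz, fun m hm hum => hzM m hm (r.trans' hu hum),
          fun v hv => h v (r.trans' hu hv)⟩
    have hMM : ∀ p ∈ M, ∀ q ∈ M, ∀ h ∈ C, q = h • p → W p q := by
      intro p hp q hq h hh e
      exact hrW (hMr (Or.inr ⟨hp, hq, h, hh, e⟩))
    -- case 1 and 2: joined to `M` inside the `C`-orbit
    have hjoin : ∀ z ∈ Y, (∃ m ∈ M, R z m) → ∃ m ∈ M, W z m ∧ ∃ h ∈ C, m = h • z := by
      intro z hz hzR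
      by_cases h1 : ∃ m ∈ M, r z m
      · obtain ⟨m, hm, h⟩ := h1
        refine ⟨m, hm, hrW h, ?_⟩
        rcases hNC (hrN h) with rfl | ⟨_, _, h', hh', e⟩
        · exact ⟨1, C.one_mem, by simp⟩
        · exact ⟨h', hh', e⟩
      · have h1' : ∀ m ∈ M, ¬ r z m := fun m hm h => h1 ⟨m, hm, h⟩
        obtain ⟨u, hu, hu0⟩ := hroot z hz h1'
        obtain ⟨m, hm, hzm⟩ := hzR
        have hum : R u m := R.trans' (R.symm' (hNR (hrN hu))) hzm
        have hu1 : u ∉ m1 := fun h => h.2.1 m hm hum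
        have huU : u ∈ U := ⟨hu0, hu1⟩
        have huY := hm0Y hu0
        obtain ⟨hf1, hf2⟩ := hfex u huY
        have hzu : ∃ h ∈ C, u = h • z := by
          rcases hNC (hrN hu) with rfl | ⟨_, _, h', hh', e⟩
          · exact ⟨1, C.one_mem, by simp⟩
          · exact ⟨h', hh', e⟩
        have hufu : ∃ h ∈ C, f u • u = h • u := by
          rcases hNC hf1 with h | ⟨_, _, h', hh', e⟩
          · exact ⟨1, C.one_mem, by simpa using h.symm⟩
          · exact ⟨h', hh', e⟩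
        obtain ⟨a, ha, ea⟩ := hzu
        obtain ⟨c, hc, ec⟩ := hufu
        have hWfu : W z (f u • u) := W.trans' (hrW hu) (hTW (edge_arcsOf_of_mem huU))
        have efu : f u • u = (c * a) • z := by rw [ec, ea, mul_smul]
        rcases hf2 with h | ⟨h3, h4 | h4⟩
        · exact ⟨f u • u, h, hWfu, c * a, C.mul_mem hc ha, efu⟩
        · refine ⟨kap (f u • u) • (f u • u), hDM _ h4,
            W.trans' hWfu (hDW (edge_arcsOf_of_mem h4)), kap (f u • u) * (c * a),
            C.mul_mem (kapC _) (C.mul_mem hc ha), ?_⟩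
          rw [mul_smul, ← efu]
        · -- the class of `u` has a least point and is disjoint from `M`: impossible
          exfalso
          have huB : u ∉ B := fun h => h.2.2 ⟨f u • u, hf1, h4⟩
          exact h3 m hm (hRN u h3 huB m hum)
    intro x y hxy
    rcases hNC hxy with rfl | ⟨hx, hy, c, hc, ec⟩
    · exact W.refl' x
    by_cases h1 : ∃ m ∈ M, R x m
    · obtain ⟨m, hm, hxm⟩ := h1
      obtain ⟨p, hp, hWp, a, ha, ea⟩ := hjoin x hx ⟨m, hm, hxm⟩
      obtain ⟨q, hq, hWq, e, he, ee⟩ := hjoin y hy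
        ⟨m, hm, R.trans' (R.symm' (hNR hxy)) hxm⟩
      refine W.trans' hWp (W.trans' (hMM p hp q hq (e * c * a⁻¹)
        (C.mul_mem (C.mul_mem he hc) (C.inv_mem ha)) ?_) (W.symm' hWq))
      rw [ee, ec, ea, mul_smul, mul_smul, inv_smul_smul]
    · have h1' : ∀ m ∈ M, ¬ R x m := fun m hm h => h1 ⟨m, hm, h⟩
      have hxN : ∀ m ∈ M, ¬ N x m := fun m hm h => h1' m hm (hNR h)
      have hxB : x ∉ B := fun h => h1 (hRB x h)
      obtain ⟨v, hxv, hv⟩ : ∃ u, N x u ∧ ∀ v, N x v → lam u ≤ lam v := by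
        by_contra h3
        exact hxB ⟨hx, hxN, h3⟩
      have hkey : ∀ z, N x z → W z v := by
        intro z hxz
        have hz : z ∈ Y := hNY x z hxz hx
        have hzM : ∀ m ∈ M, ¬ r z m := fun m hm h => hxN m hm (N.trans' hxz (hrN h))
        obtain ⟨u, hu, hu0⟩ := hroot z hz hzM
        have hxu : N x u := N.trans' hxz (hrN hu)
        by_cases huv : u = v
        · rw [← huv]
          exact hrW hu
        · have huniq : ∀ p, N x p → lam p ≤ lam v → p = v := by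
            intro p hp hle
            have hpv : N v p := N.trans' (N.symm' hxv) hp
            obtain ⟨g, rfl⟩ := exists_smul_of_le_orb hNo hpv
            have := hinj g v (le_antisymm hle (hv _ hp))
            rw [this, one_smul]
          have hu1 : u ∉ m1 := fun h =>
            huv (huniq u hxu (h.2.2 v (hNR (N.trans' (N.symm' hxu) hxv))))
          have huU : u ∈ U := ⟨hu0, hu1⟩
          obtain ⟨hf1, hf2⟩ := hfex u (hm0Y hu0)
          have hxfu : N x (f u • u) := N.trans' hxu hf1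
          have hfv : f u • u = v := by
            rcases hf2 with h | ⟨_, h4 | h4⟩
            · exact absurd hxfu (hxN _ h)
            · exact absurd (hBsat _ (hDB h4) x (N.symm' hxfu)) hxB
            · exact huniq _ hxfu (h4 v (N.trans' (N.symm' hxu) hxv))
          have := edge_arcsOf_of_mem (f := f) huU
          rw [hfv] at this
          exact W.trans' (hrW hu) (hTW this)
      exact W.trans' (hkey x (N.refl' x)) (W.symm' (hkey y hxy))

end Vale.Agent.P189
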