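/-
P189, Step A (amalgam exchange).

r_0 = RR C M (C = A ⊓ G); stage k+1: N = (r_k ⊔ known) ⊓ RR C Y with known = edge EA (k even),
known = RR G M ⊔ edge EG (k odd); `oneStep` gives D_k (measure ≤ ε/2^(k+2)), T_k;
r_{k+1} = N ⊔ edge (arcsOf D_k kap).
T_k with k even (derived on the A side) is given to the G side and vice versa.
W_A = RR C M ⊔ edge EA ⊔ edge T_A ⊔ edge D,  W_G = RR G M ⊔ edge EG ⊔ edge T_G ⊔ edge D:
all r_k ≤ W_A, W_G by induction.  At the limit `NF.conclusion` applies to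
QA = r_∞ ⊔ edge EA, QG = r_∞ ⊔ RR G M ⊔ edge EG, hence RR A Y ≤ W_A and RR G Y ≤ W_G.
Contraction onto M on the A side gives E'; contraction on the G side gives
μ (Y \ M) ≤ cost EG + cost T_G + ε/2.  Total cost of all T_k ≤ μ (Y \ M) (telescoping minPts).
-/
import Vale.Agent.P189.OneStep
import Vale.Agent.P189.NF
import Vale.Agent.P189.CL

open MeasureTheory Set
open scoped Pointwise ENNReal

namespace Vale.Agent.P189

variable {𝒢 : Type} [Group 𝒢] [Countable 𝒢] {Z : Type} [MeasurableSpace Z] [MulAction 𝒢 Z]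
  [MeasurableConstSMul 𝒢 Z]

/-- The sequence of relations. -/
theorem stepA_seq [FreeAct 𝒢 Z] (μ : Measure Z)
    {C : Subgroup 𝒢} {M Y : Set Z} (hM : MeasurableSet M) (hY : MeasurableSet Y) (hMY : M ⊆ Y)
    (hYfin : μ Y ≠ ∞)
    {lam : Z → ℝ≥0∞} (hlam : Measurable lam) (hfin : ∀ z, lam z ≠ ∞)
    (hinj : ∀ (g : 𝒢) z, lam (g • z) = lam z → g = 1)
    {kap : Z → 𝒢} (hkap : ∀ g, MeasurableSet {z | kap z = g}) (kapC : ∀ z, kap z ∈ C)
    (kapM : ∀ z ∈ Y, kap z • z ∈ M)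
    (kn : ℕ → Setoid Z) (hkn : ∀ k, MS 𝒢 (kn k)) (hkn' : ∀ k, kn k ≤ RR (⊤ : Subgroup 𝒢) univ)
    (e : ℕ → ℝ≥0∞) (he : ∀ k, e k ≠ 0) :
    ∃ (r : ℕ → Setoid Z) (D : ℕ → Set Z) (T : ℕ → 𝒢 → Set Z),
      r 0 = RR C M ∧ (∀ k, D k ⊆ Y) ∧ (∀ k, MeasurableSet (D k)) ∧ (∀ k, μ (D k) ≤ e k) ∧
      (∀ k, ME (T k)) ∧ (∀ k g, ∀ z ∈ T k g, z ∈ Y ∧ g • z ∈ Y) ∧
      (∀ k, r k ≤ RR C Y) ∧
      (∀ k, edge (T k) ≤ (r k ⊔ kn k) ⊓ RR C Y) ∧
      (∀ k, r (k + 1) = (r k ⊔ kn k) ⊓ RR C Y ⊔ edge (arcsOf (D k) kap)) ∧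
      (∀ k, cost μ (T k) + μ (minPts lam M Y (r (k + 1))) ≤ μ (minPts lam M Y (r k))) ∧
      (∀ k, (r k ⊔ kn k) ⊓ RR C Y ≤ r k ⊔ edge (T k) ⊔ edge (arcsOf (D k) kap)) := by
  classical
  have hDle : ∀ D : Set Z, D ⊆ Y → edge (arcsOf D kap) ≤ RR C Y := by
    intro D hD
    rw [edge_le_iff]
    rintro g z ⟨hz, rfl⟩
    exact Or.inr ⟨hD hz, hMY (kapM z (hD hz)), kap z, kapC z, rfl⟩
  have step : ∀ (k : ℕ) (s : {r : Setoid Z // MS 𝒢 r ∧ RR C M ≤ r ∧ r ≤ RR C Y ∧ Good lam M Y r}),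
      ∃ (D : Set Z) (T : 𝒢 → Set Z), D ⊆ Y ∧ MeasurableSet D ∧ μ D ≤ e k ∧ ME T ∧
        (∀ g, ∀ z ∈ T g, z ∈ Y ∧ g • z ∈ Y) ∧ edge T ≤ (s.1 ⊔ kn k) ⊓ RR C Y ∧
        Good lam M Y ((s.1 ⊔ kn k) ⊓ RR C Y ⊔ edge (arcsOf D kap)) ∧
        MS 𝒢 ((s.1 ⊔ kn k) ⊓ RR C Y ⊔ edge (arcsOf D kap)) ∧
        cost μ T + μ (minPts lam M Y ((s.1 ⊔ kn k) ⊓ RR C Y ⊔ edge (arcsOf D kap))) ≤
          μ (minPts lam M Y s.1) ∧
        (s.1 ⊔ kn k) ⊓ RR C Y ≤ s.1 ⊔ edge T ⊔ edge (arcsOf D kap) := by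
    rintro k ⟨r, hr, hMr, hrC, hgood⟩
    exact oneStep μ hM hY hMY hYfin hlam hfin hinj hkap kapC kapM hr
      ((hr.sup (hkn k) (oneStep_le_orb hrC) (hkn' k)).inf (ms_rr C hY))
      (le_inf le_sup_left hrC) inf_le_right hMr hgood (he k)
  choose Df Tf h1 h2 h3 h4 h5 h6 h7 h8 h9 h10 using step
  have h0 : Good lam M Y (RR C M) := by
    intro y _
    by_cases hyM : y ∈ M
    · exact Or.inl ⟨y, hyM, (RR C M).refl' y⟩
    · refine Or.inr ⟨y, (RR C M).refl' y, ?_⟩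
      rintro v (rfl | ⟨h, _⟩)
      · exact le_refl _
      · exact absurd h hyM
  let s0 : {r : Setoid Z // MS 𝒢 r ∧ RR C M ≤ r ∧ r ≤ RR C Y ∧ Good lam M Y r} :=
    ⟨RR C M, ms_rr C hM, le_refl _, rr_mono (le_refl _) hMY, h0⟩
  let nx : ℕ → {r : Setoid Z // MS 𝒢 r ∧ RR C M ≤ r ∧ r ≤ RR C Y ∧ Good lam M Y r} →
      {r : Setoid Z // MS 𝒢 r ∧ RR C M ≤ r ∧ r ≤ RR C Y ∧ Good lam M Y r} := fun k s =>
    ⟨(s.1 ⊔ kn k) ⊓ RR C Y ⊔ edge (arcsOf (Df k s) kap), h8 k s,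
      s.2.2.1.trans ((le_inf le_sup_left s.2.2.2.1).trans le_sup_left),
      sup_le inf_le_right (hDle _ (h1 k s)), h7 k s⟩
  let sq : ℕ → {r : Setoid Z // MS 𝒢 r ∧ RR C M ≤ r ∧ r ≤ RR C Y ∧ Good lam M Y r} :=
    fun n => Nat.rec s0 nx n
  have hsq : ∀ n, sq (n + 1) = nx n (sq n) := fun n => rfl
  refine ⟨fun n => (sq n).1, fun n => Df n (sq n), fun n => Tf n (sq n), rfl, fun k => h1 k _,
    fun k => h2 k _, fun k => h3 k _, fun k => h4 k _, fun k => h5 k _, fun k => (sq k).2.2.2.1,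
    fun k => h6 k _, fun k => ?_, fun k => ?_, fun k => h10 k _⟩
  · simp only [hsq, nx]
  · have := h9 k (sq k)
    simpa only [hsq, nx] using this

omit [Countable 𝒢] [MeasurableSpace Z] [MeasurableConstSMul 𝒢 Z] in
/-- A chain in `(⨆ r_k) ⊔ s` lives in `r_k ⊔ s` for some `k`. -/
theorem stepA_iSup_sup {r : ℕ → Setoid Z} (hm : Monotone r) {s : Setoid Z} {z w : Z}
    (h : ((⨆ n, r n) ⊔ s) z w) : ∃ n, (r n ⊔ s) z w := by
  have e : (⨆ n, r n) ⊔ s = ⨆ n, (r n ⊔ s) := by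
    rw [iSup_sup]
  rw [e] at h
  have hm' : Monotone fun n => r n ⊔ s := fun i j hij => sup_le_sup_right (hm hij) s
  exact (iSup_mono_apply hm' z w).1 h

theorem stepA [FreeAct 𝒢 Z] (μ : Measure Z) [SMulInvariantMeasure 𝒢 Z μ]
    {A G : Subgroup 𝒢} (hNF : NF A G)
    {M Y : Set Z} (hM : MeasurableSet M) (hY : MeasurableSet Y) (hMY : M ⊆ Y)
    (hYfin : μ Y ≠ ∞)
    {lam : Z → ℝ≥0∞} (hlam : Measurable lam) (hfin : ∀ z, lam z ≠ ∞)
    (hinj : ∀ (g : 𝒢) z, lam (g • z) = lam z → g = 1)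
    {kap : Z → 𝒢} (hkap : ∀ g, MeasurableSet {z | kap z = g}) (kapC : ∀ z, kap z ∈ A ⊓ G)
    (kapM : ∀ z ∈ Y, kap z • z ∈ M)
    {EA EG : 𝒢 → Set Z} (hEA : ME EA) (hEG : ME EG)
    (hEA' : ∀ g, ∀ z ∈ EA g, z ∈ Y ∧ g • z ∈ Y ∧ g ∈ A)
    (hEG' : ∀ g, ∀ z ∈ EG g, z ∈ Y ∧ g • z ∈ Y ∧ g ∈ G)
    (hgen : RR (⊤ : Subgroup 𝒢) Y ≤ RR G M ⊔ edge EA ⊔ edge EG)
    {ε : ℝ≥0∞} (hε : ε ≠ 0) :
    ∃ E' : 𝒢 → Set Z, ME E' ∧ (∀ g, ∀ z ∈ E' g, z ∈ M ∧ g • z ∈ M ∧ g ∈ A) ∧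
      cost μ E' + μ (Y \ M) ≤ cost μ EA + cost μ EG + ε ∧
      RR A M ≤ RR (A ⊓ G) M ⊔ edge E' := by
  classical
  have hε2 : ε / 2 ≠ 0 := by
    rw [Ne, ENNReal.div_eq_zero_iff, not_or]
    exact ⟨hε, ENNReal.ofNat_ne_top⟩
  obtain ⟨e, he0, hesum⟩ := ENNReal.exists_pos_sum_of_countable' hε2 ℕ
  set C : Subgroup 𝒢 := A ⊓ G with hC
  -- basic inclusions
  have hEAle : edge EA ≤ RR A Y := by
    rw [edge_le_iff]
    intro g z hz
    obtain ⟨h1, h2, h3⟩ := hEA' g z hz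
    exact Or.inr ⟨h1, h2, g, h3, rfl⟩
  have hEGle : edge EG ≤ RR G Y := by
    rw [edge_le_iff]
    intro g z hz
    obtain ⟨h1, h2, h3⟩ := hEG' g z hz
    exact Or.inr ⟨h1, h2, g, h3, rfl⟩
  have hGM : RR G M ≤ RR G Y := rr_mono (le_refl _) hMY
  have hCA : C ≤ A := inf_le_left
  have hCG : C ≤ G := inf_le_right
  -- the known relations
  let kn : ℕ → Setoid Z := fun k => if Even k then edge EA else RR G M ⊔ edge EG
  have hkn_even : ∀ k, Even k → kn k = edge EA := fun k hk => if_pos hk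
  have hkn_odd : ∀ k, ¬ Even k → kn k = RR G M ⊔ edge EG := fun k hk => if_neg hk
  have hkn : ∀ k, MS 𝒢 (kn k) := by
    intro k
    by_cases hk : Even k
    · rw [hkn_even k hk]
      exact ms_edge hEA
    · rw [hkn_odd k hk]
      exact (ms_rr G hM).sup (ms_edge hEG) (rr_mono le_top (subset_univ _)) (edge_le_orb _)
  have hkn' : ∀ k, kn k ≤ RR (⊤ : Subgroup 𝒢) univ := by
    intro k
    by_cases hk : Even k
    · rw [hkn_even k hk]
      exact edge_le_orb _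
    · rw [hkn_odd k hk]
      exact sup_le (rr_mono le_top (subset_univ _)) (edge_le_orb _)
  obtain ⟨r, D, T, hr0, hDY, hDm, hDe, hTm, hTY, hrC, hTN, hrs, hcost, hN⟩ :=
    stepA_seq μ hM hY hMY hYfin hlam hfin hinj hkap kapC kapM kn hkn hkn' e fun k => (he0 k).ne'
  have hNr : ∀ k, (r k ⊔ kn k) ⊓ RR C Y ≤ r (k + 1) := fun k => by
    rw [hrs k]
    exact le_sup_left
  have hmono : Monotone r := monotone_nat_of_le_succ fun k =>
    (le_inf le_sup_left (hrC k)).trans (hNr k)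
  -- the arc systems
  let TA : 𝒢 → Set Z := fun g => ⋃ n, T (2 * n + 1) g
  let TG : 𝒢 → Set Z := fun g => ⋃ n, T (2 * n) g
  let DD : 𝒢 → Set Z := fun g => ⋃ n, arcsOf (D n) kap g
  have hTAm : ME TA := fun g => MeasurableSet.iUnion fun n => hTm _ g
  have hTGm : ME TG := fun g => MeasurableSet.iUnion fun n => hTm _ g
  have hDDm : ME DD := fun g => MeasurableSet.iUnion fun n => me_arcsOf (hDm n) hkap g
  have hTAle : ∀ n, edge (T (2 * n + 1)) ≤ edge TA := fun n =>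
    edge_mono fun g => subset_iUnion (fun n => T (2 * n + 1) g) n
  have hTGle : ∀ n, edge (T (2 * n)) ≤ edge TG := fun n =>
    edge_mono fun g => subset_iUnion (fun n => T (2 * n) g) n
  have hDDle : ∀ n, edge (arcsOf (D n) kap) ≤ edge DD := fun n =>
    edge_mono fun g => subset_iUnion (fun n => arcsOf (D n) kap g) n
  let FA : 𝒢 → Set Z := fun g => (EA g ∪ TA g) ∪ DD g
  let FG : 𝒢 → Set Z := fun g => (EG g ∪ TG g) ∪ DD g
  have hFA : edge FA = edge EA ⊔ edge TA ⊔ edge DD := by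
    have h1 := edge_union (fun g => EA g ∪ TA g) DD
    have h2 := edge_union EA TA
    rw [h2] at h1
    exact h1
  have hFG : edge FG = edge EG ⊔ edge TG ⊔ edge DD := by
    have h1 := edge_union (fun g => EG g ∪ TG g) DD
    have h2 := edge_union EG TG
    rw [h2] at h1
    exact h1
  have hFAm : ME FA := fun g => ((hEA g).union (hTAm g)).union (hDDm g)
  have hFGm : ME FG := fun g => ((hEG g).union (hTGm g)).union (hDDm g)
  -- the total relations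
  have hA1 : edge EA ≤ RR C M ⊔ edge FA := by
    rw [hFA]
    exact (le_sup_left.trans le_sup_left).trans le_sup_right
  have hA2 : edge TA ≤ RR C M ⊔ edge FA := by
    rw [hFA]
    exact (le_sup_right.trans le_sup_left).trans le_sup_right
  have hA3 : edge DD ≤ RR C M ⊔ edge FA := by
    rw [hFA]
    exact le_sup_right.trans le_sup_right
  have hG1 : edge EG ≤ RR G M ⊔ edge FG := by
    rw [hFG]
    exact (le_sup_left.trans le_sup_left).trans le_sup_right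
  have hG2 : edge TG ≤ RR G M ⊔ edge FG := by
    rw [hFG]
    exact (le_sup_right.trans le_sup_left).trans le_sup_right
  have hG3 : edge DD ≤ RR G M ⊔ edge FG := by
    rw [hFG]
    exact le_sup_right.trans le_sup_right
  -- all `r k` are below both
  have hrW : ∀ k, r k ≤ RR C M ⊔ edge FA ∧ r k ≤ RR G M ⊔ edge FG := by
    intro k
    induction k with
    | zero =>
      rw [hr0]
      exact ⟨le_sup_left, (rr_mono hCG (subset_refl _)).trans le_sup_left⟩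
    | succ k ih =>
      rw [hrs k]
      by_cases hk : Even k
      · obtain ⟨n, hn⟩ := even_iff_exists_two_mul.1 hk
        subst hn
        constructor
        · refine sup_le (inf_le_left.trans (sup_le ih.1 ?_)) ((hDDle _).trans hA3)
          rw [hkn_even _ hk]
          exact hA1
        · exact sup_le ((hN _).trans (sup_le (sup_le ih.2 ((hTGle n).trans hG2))
            ((hDDle _).trans hG3))) ((hDDle _).trans hG3)
      · obtain ⟨n, hn⟩ := Nat.not_even_iff_odd.1 hk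
        subst hn
        constructor
        · exact sup_le ((hN _).trans (sup_le (sup_le ih.1 ((hTAle n).trans hA2))
            ((hDDle _).trans hA3))) ((hDDle _).trans hA3)
        · refine sup_le (inf_le_left.trans (sup_le ih.2 ?_)) ((hDDle _).trans hG3)
          rw [hkn_odd _ hk]
          exact sup_le le_sup_left hG1
  -- the limit
  set rinf : Setoid Z := ⨆ n, r n with hrinf
  have hle : ∀ n, r n ≤ rinf := fun n => le_iSup r n
  have hinfC : rinf ≤ RR C Y := iSup_le hrC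
  have hinfA : rinf ≤ RR C M ⊔ edge FA := iSup_le fun n => (hrW n).1
  have hinfG : rinf ≤ RR G M ⊔ edge FG := iSup_le fun n => (hrW n).2
  have hcl : ∀ (s : Setoid Z), (∀ n, ∃ k, n ≤ k ∧ kn k = s) → (rinf ⊔ s) ⊓ RR C Y ≤ rinf := by
    intro s hs z w hzw
    obtain ⟨h1, h2⟩ : (rinf ⊔ s) z w ∧ RR C Y z w := hzw
    obtain ⟨n, hn⟩ := stepA_iSup_sup hmono h1
    obtain ⟨k, hnk, hks⟩ := hs n
    have h3 : (r k ⊔ kn k) z w := by
      rw [hks]
      exact sup_le_sup_right (hmono hnk) s hn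
    exact hle (k + 1) (hNr k ⟨h3, h2⟩)
  have hclA : (rinf ⊔ edge EA) ⊓ RR C Y ≤ rinf :=
    hcl _ fun n => ⟨2 * n, by omega, hkn_even _ (even_two_mul n)⟩
  have hclG : (rinf ⊔ (RR G M ⊔ edge EG)) ⊓ RR C Y ≤ rinf :=
    hcl _ fun n => ⟨2 * n + 1, by omega, hkn_odd _ (Nat.not_even_iff_odd.2 ⟨n, rfl⟩)⟩
  have hCYA : RR C Y ≤ RR A Y := rr_mono hCA (subset_refl _)
  have hCYG : RR C Y ≤ RR G Y := rr_mono hCG (subset_refl _)
  obtain ⟨hRA, hRG⟩ := hNF.conclusion (Y := Y) (QA := rinf ⊔ edge EA)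
    (QG := rinf ⊔ (RR G M ⊔ edge EG)) (sup_le (hinfC.trans hCYA) hEAle)
    (sup_le (hinfC.trans hCYG) (sup_le hGM hEGle)) (hclA.trans le_sup_left)
    (hclG.trans le_sup_left)
    (hgen.trans (sup_le (sup_le ((le_sup_left.trans le_sup_right).trans le_sup_right)
      (le_sup_right.trans le_sup_left)) ((le_sup_right.trans le_sup_right).trans le_sup_right)))
  have hWA : RR A Y ≤ RR C M ⊔ edge FA := hRA.trans (sup_le hinfA hA1)
  have hWG : RR G Y ≤ RR G M ⊔ edge FG :=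
    hRG.trans (sup_le hinfG (sup_le le_sup_left hG1))
  -- arcs stay inside `Y`
  have hTAY : ∀ g, ∀ z ∈ TA g, z ∈ Y ∧ g • z ∈ Y := by
    intro g z hz
    obtain ⟨n, hn⟩ := mem_iUnion.1 hz
    exact hTY _ g z hn
  have hTGY : ∀ g, ∀ z ∈ TG g, z ∈ Y ∧ g • z ∈ Y := by
    intro g z hz
    obtain ⟨n, hn⟩ := mem_iUnion.1 hz
    exact hTY _ g z hn
  have hDDY : ∀ g, ∀ z ∈ DD g, z ∈ Y ∧ g • z ∈ Y := by
    intro g z hz
    obtain ⟨n, hn, rfl⟩ := mem_iUnion.1 hz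
    exact ⟨hDY n hn, hMY (kapM z (hDY n hn))⟩
  have hFAY : ∀ g, ∀ z ∈ FA g, z ∈ Y ∧ g • z ∈ Y := by
    rintro g z ((h | h) | h)
    · exact ⟨(hEA' g z h).1, (hEA' g z h).2.1⟩
    · exact hTAY g z h
    · exact hDDY g z h
  have hFGY : ∀ g, ∀ z ∈ FG g, z ∈ Y ∧ g • z ∈ Y := by
    rintro g z ((h | h) | h)
    · exact ⟨(hEG' g z h).1, (hEG' g z h).2.1⟩
    · exact hTGY g z h
    · exact hDDY g z h
  -- everything in `FA` is in the `A`-orbit relation
  have hTC : ∀ k, edge (T k) ≤ RR C Y := fun k => (hTN k).trans inf_le_right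
  have hFAle : edge FA ≤ RR A Y := by
    rw [hFA]
    refine sup_le (sup_le hEAle ?_) ?_
    · rw [edge_iUnion (fun n => T (2 * n + 1))]
      exact iSup_le fun n => (hTC _).trans hCYA
    · rw [edge_le_iff]
      intro g z hz
      obtain ⟨n, hn, rfl⟩ := mem_iUnion.1 hz
      exact Or.inr ⟨hDY n hn, hMY (kapM z (hDY n hn)), kap z, hCA (kapC z), rfl⟩
  -- contraction on both sides
  have hconnA : ∀ y ∈ Y, ∃ m ∈ M, (RR C M ⊔ edge FA) y m := fun y hy =>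
    ⟨kap y • y, kapM y hy, hWA (Or.inr ⟨hy, hMY (kapM y hy), kap y, hCA (kapC y), rfl⟩)⟩
  have hconnG : ∀ y ∈ Y, ∃ m ∈ M, (RR G M ⊔ edge FG) y m := fun y hy =>
    ⟨kap y • y, kapM y hy, hWG (Or.inr ⟨hy, hMY (kapM y hy), kap y, hCG (kapC y), rfl⟩)⟩
  have hrM : ∀ (H : Subgroup 𝒢) z w, RR H M z w → z = w ∨ (z ∈ M ∧ w ∈ M) := by
    rintro H z w (h | ⟨h1, h2, _⟩)
    · exact Or.inl h
    · exact Or.inr ⟨h1, h2⟩
  obtain ⟨E', hE'm, hE'M, hE'le, hE'cost, hE'conn⟩ :=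
    contraction μ hM hY hMY hFAm hFAY (hrM C) hconnA
  obtain ⟨E'', -, -, -, hE''cost, -⟩ := contraction μ hM hY hMY hFGm hFGY (hrM G) hconnG
  refine ⟨E', hE'm, ?_, ?_, ?_⟩
  · intro g z hz
    obtain ⟨h1, h2⟩ := hE'M g z hz
    refine ⟨h1, h2, ?_⟩
    have h3 : RR A Y z (g • z) := hFAle (hE'le (edge_of_mem hz))
    rcases rr_smul_iff.1 h3 with h | ⟨_, _, h⟩
    · rw [h]
      exact A.one_mem
    · exact h
  · -- the costs
    have hcDD : cost μ DD ≤ ε / 2 := by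
      refine (cost_iUnion_le μ fun n => arcsOf (D n) kap).trans ?_
      refine le_trans (ENNReal.tsum_le_tsum fun n => ?_) hesum.le
      rw [cost_arcsOf μ (hDm n) hkap]
      exact hDe n
    have hcTA : cost μ TA ≤ ∑' n, cost μ (T (2 * n + 1)) := cost_iUnion_le μ fun n => T (2 * n + 1)
    have hcTG : cost μ TG ≤ ∑' n, cost μ (T (2 * n)) := cost_iUnion_le μ fun n => T (2 * n)
    have hsum : ∑' n, cost μ (T (2 * n)) + ∑' n, cost μ (T (2 * n + 1)) = ∑' n, cost μ (T n) :=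
      tsum_even_add_odd (f := fun n => cost μ (T n)) ENNReal.summable ENNReal.summable
    have htel : ∀ n, (∑ k ∈ Finset.range n, cost μ (T k)) + μ (minPts lam M Y (r n)) ≤
        μ (minPts lam M Y (r 0)) := by
      intro n
      induction n with
      | zero => simp
      | succ n ih =>
        rw [Finset.sum_range_succ, add_assoc]
        exact (add_le_add_right (hcost n) _).trans ih
    have hm0 : μ (minPts lam M Y (r 0)) ≤ μ (Y \ M) := by
      apply measure_mono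
      rintro u ⟨h1, h2, -⟩
      exact ⟨h1, fun h => h2 u h ((r 0).refl' u)⟩
    have htot : ∑' n, cost μ (T n) ≤ μ (Y \ M) := by
      apply ENNReal.tsum_le_of_sum_range_le
      intro n
      exact (le_self_add.trans (htel n)).trans hm0
    have hYM : μ (Y \ M) ≠ ∞ := ne_top_of_le_ne_top hYfin (measure_mono sdiff_subset)
    have hTGfin : cost μ TG ≠ ∞ := by
      refine ne_top_of_le_ne_top hYM (hcTG.trans (le_trans ?_ htot))
      rw [← hsum]
      exact le_self_add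
    have hcFA : cost μ FA ≤ cost μ EA + cost μ TA + cost μ DD :=
      (cost_union_le μ (fun g => EA g ∪ TA g) DD).trans
        (add_le_add_left (cost_union_le μ EA TA) _)
    have hcFG : cost μ FG ≤ cost μ EG + cost μ TG + cost μ DD :=
      (cost_union_le μ (fun g => EG g ∪ TG g) DD).trans
        (add_le_add_left (cost_union_le μ EG TG) _)
    have hYMle : μ (Y \ M) ≤ cost μ EG + cost μ TG + cost μ DD :=
      (le_add_self.trans hE''cost).trans hcFG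
    have h1 : cost μ TG + cost μ TA ≤ cost μ TG + (cost μ EG + cost μ DD) := by
      calc cost μ TG + cost μ TA
          ≤ ∑' n, cost μ (T (2 * n)) + ∑' n, cost μ (T (2 * n + 1)) := add_le_add hcTG hcTA
        _ = ∑' n, cost μ (T n) := hsum
        _ ≤ μ (Y \ M) := htot
        _ ≤ cost μ EG + cost μ TG + cost μ DD := hYMle
        _ = cost μ TG + (cost μ EG + cost μ DD) := by ring
    have h2 : cost μ TA ≤ cost μ EG + cost μ DD := (ENNReal.add_le_add_iff_left hTGfin).1 h1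
    calc cost μ E' + μ (Y \ M) ≤ cost μ FA := hE'cost
      _ ≤ cost μ EA + cost μ TA + cost μ DD := hcFA
      _ ≤ cost μ EA + (cost μ EG + cost μ DD) + cost μ DD :=
          add_le_add_left (add_le_add_right h2 _) _
      _ = cost μ EA + cost μ EG + (cost μ DD + cost μ DD) := by ring
      _ ≤ cost μ EA + cost μ EG + (ε / 2 + ε / 2) :=
          add_le_add_right (add_le_add hcDD hcDD) _
      _ = cost μ EA + cost μ EG + ε := by rw [ENNReal.add_halves]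
  · intro z w hzw
    rcases hzw with rfl | ⟨hz, hw, h, hh, e⟩
    · exact (RR C M ⊔ edge E').refl' _
    · exact hE'conn z hz w hw (hWA (Or.inr ⟨hMY hz, hMY hw, h, hh, e⟩))

end Vale.Agent.P189
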