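/-
P189: labelled points `X × ℤ` with the action of `Γ × ℤ`; paths of letters.
-/
import Vale.Agent.P189.StepA

open MeasureTheory Set
open scoped Pointwise ENNReal

namespace Vale.Agent.P189

/-- Labelled points. -/
def LZ (X : Type) : Type := X × ℤ

/-- The group acting on labelled points. -/
abbrev LG (Γ : Type) : Type := Γ × Multiplicative ℤ

instance Split_ms (X : Type) [MeasurableSpace X] : MeasurableSpace (LZ X) :=
  inferInstanceAs (MeasurableSpace (X × ℤ))

instance Split_act (Γ X : Type) [Group Γ] [MulAction Γ X] : MulAction (LG Γ) (LZ X) where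
  smul g z := ((g.1 • z.1 : X), (g.2.toAdd + z.2 : ℤ))
  one_smul z := by
    refine Prod.ext ?_ ?_
    · exact one_smul Γ z.1
    · exact zero_add z.2
  mul_smul g h z := by
    refine Prod.ext ?_ ?_
    · exact mul_smul g.1 h.1 z.1
    · exact add_assoc g.2.toAdd h.2.toAdd z.2

section

variable {Γ : Type} [Group Γ] {X : Type} [MulAction Γ X]

/-- the labelled point -/
def lz (x : X) (l : ℤ) : LZ X := (x, l)

theorem Split_smul (g : LG Γ) (z : LZ X) : g • z = lz (g.1 • z.1) (g.2.toAdd + z.2) := rfl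

theorem lz_fst (x : X) (l : ℤ) : (lz x l).1 = x := rfl

theorem lz_snd (x : X) (l : ℤ) : (lz x l).2 = l := rfl

theorem lz_eta (z : LZ X) : lz z.1 z.2 = z := rfl

theorem lz_inj {x y : X} {k l : ℤ} (h : lz x k = lz y l) : x = y ∧ k = l :=
  ⟨congrArg Prod.fst h, congrArg Prod.snd h⟩

instance Split_free [FreeAct Γ X] : FreeAct (LG Γ) (LZ X) where
  free g z h := by
    rw [Split_smul] at h
    have h1 : g.1 • z.1 = z.1 := congrArg Prod.fst h
    have h2 : g.2.toAdd + z.2 = z.2 := congrArg Prod.snd h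
    have h3 : g.1 = 1 := FreeAct.free _ _ h1
    have h4 : g.2.toAdd = 0 := by omega
    refine Prod.ext h3 ?_
    exact h4

end

section

variable {Γ : Type} [Group Γ] {X : Type} [MeasurableSpace X] [MulAction Γ X]
  [MeasurableConstSMul Γ X]

theorem Split_measurable_fst : Measurable fun z : LZ X => z.1 := measurable_fst

theorem Split_measurable_snd : Measurable fun z : LZ X => z.2 := measurable_snd

theorem Split_measurable_lz (l : ℤ) : Measurable fun x : X => lz x l :=
  measurable_id.prodMk measurable_const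

instance Split_mcs : MeasurableConstSMul (LG Γ) (LZ X) where
  measurable_const_smul g := by
    have h1 : Measurable fun z : LZ X => g.1 • z.1 :=
      (measurable_const_smul g.1).comp Split_measurable_fst
    have h2 : Measurable fun z : LZ X => g.2.toAdd + z.2 :=
      (measurable_of_countable fun n : ℤ => g.2.toAdd + n).comp Split_measurable_snd
    exact h1.prodMk h2

/-- The product of `μ` and the counting measure. -/
noncomputable def mz (μ : Measure X) : Measure (LZ X) := μ.prod (Measure.count : Measure ℤ)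

omit [MulAction Γ X] [MeasurableConstSMul Γ X] [Group Γ] in
theorem mz_prod (μ : Measure X) [SFinite μ] (s : Set X) (l : ℤ) :
    mz μ {z | z.2 = l ∧ z.1 ∈ s} = μ s := by
  have h : {z : LZ X | z.2 = l ∧ z.1 ∈ s} = s ×ˢ ({l} : Set ℤ) := by
    ext z
    constructor
    · rintro ⟨h1, h2⟩; exact ⟨h2, h1⟩
    · rintro ⟨h1, h2⟩; exact ⟨h2, h1⟩
  rw [h]
  unfold mz
  have h2 := Measure.prod_prod (μ := μ) (ν := (Measure.count : Measure ℤ)) s ({l} : Set ℤ)
  refine h2.trans ?_
  rw [Measure.count_singleton, mul_one]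

instance Split_inv (μ : Measure X) [SFinite μ] [SMulInvariantMeasure Γ X μ] :
    SMulInvariantMeasure (LG Γ) (LZ X) (mz μ) where
  measure_preimage_smul g s hs := by
    have h1 : MeasurePreserving (fun x : X => g.1 • x) μ μ := measurePreserving_smul g.1 μ
    have h2 : MeasurePreserving (fun n : ℤ => g.2.toAdd + n) (Measure.count : Measure ℤ)
        (Measure.count : Measure ℤ) := by
      refine ⟨measurable_of_countable _, ?_⟩
      refine Measure.ext fun t ht => ?_
      rw [Measure.map_apply (measurable_of_countable _) ht, Measure.count_apply ht,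
        Measure.count_apply (measurable_of_countable _ ht)]
      have h4 : t = (fun n : ℤ => g.2.toAdd + n) '' ((fun n : ℤ => g.2.toAdd + n) ⁻¹' t) := by
        rw [image_preimage_eq]
        intro m
        exact ⟨-g.2.toAdd + m, by simp⟩
      conv_rhs => rw [h4]
      rw [Function.Injective.encard_image (add_right_injective _)]
    have h3 := h1.prod h2
    exact h3.measure_preimage hs.nullMeasurableSet

/-- A path of letters of `A ∪ G` from `1` to `h`. -/
theorem Split_path {A G : Subgroup Γ} (hAG : A ⊔ G = ⊤) (h : Γ) :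
    ∃ (n : ℕ) (p : ℕ → Γ), 1 ≤ n ∧ p 0 = 1 ∧ p n = h ∧
      ∀ i < n, (p (i + 1) * (p i)⁻¹ ∈ A ∨ p (i + 1) * (p i)⁻¹ ∈ G) := by
  have hh : h ∈ Subgroup.closure ((A : Set Γ) ∪ (G : Set Γ)) := by
    rw [← Subgroup.sup_eq_closure, hAG]; trivial
  have step : ∀ x : Γ, (x ∈ A ∨ x ∈ G) → ∀ y : Γ,
      (∃ (n : ℕ) (p : ℕ → Γ), 1 ≤ n ∧ p 0 = 1 ∧ p n = y ∧
        ∀ i < n, (p (i + 1) * (p i)⁻¹ ∈ A ∨ p (i + 1) * (p i)⁻¹ ∈ G)) →
      ∃ (n : ℕ) (p : ℕ → Γ), 1 ≤ n ∧ p 0 = 1 ∧ p n = x * y ∧
        ∀ i < n, (p (i + 1) * (p i)⁻¹ ∈ A ∨ p (i + 1) * (p i)⁻¹ ∈ G) := by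
    rintro x hx y ⟨n, p, h1, h2, h3, h4⟩
    refine ⟨n + 1, fun i => if i ≤ n then p i else x * y, by omega, ?_, ?_, ?_⟩
    · simp [h2]
    · simp
    · intro i hi
      rcases Nat.lt_or_ge i n with h5 | h5
      · have h6 : i ≤ n := h5.le
        have h7 : i + 1 ≤ n := h5
        simp only [h6, h7, if_true]
        exact h4 i h5
      · have h6 : i = n := by omega
        subst h6
        simp only [le_refl, if_true, Nat.succ_le_iff, lt_irrefl, if_false, h3]
        have h8 : x * y * y⁻¹ = x := by group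
        rw [h8]
        exact hx
  refine Subgroup.closure_induction_left (s := (A : Set Γ) ∪ (G : Set Γ))
    (p := fun x _ => ∃ (n : ℕ) (p : ℕ → Γ), 1 ≤ n ∧ p 0 = 1 ∧ p n = x ∧
      ∀ i < n, (p (i + 1) * (p i)⁻¹ ∈ A ∨ p (i + 1) * (p i)⁻¹ ∈ G)) ?_ ?_ ?_ hh
  · refine ⟨1, fun _ => 1, le_rfl, rfl, rfl, fun i _ => Or.inl ?_⟩
    simp only [mul_inv_cancel]
    exact A.one_mem
  · intro x hx y _ hy
    exact step x hx y hy
  · intro x hx y _ hy
    refine step x⁻¹ ?_ y hy
    rcases hx with hx | hx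
    · exact Or.inl (A.inv_mem hx)
    · exact Or.inr (G.inv_mem hx)

end

/-- The normal form property on labelled groups. -/
theorem Split_alt {Γ : Type} [Group Γ] {A G : Subgroup Γ} {b : Bool} {g : LG Γ}
    (h : Alt (A.prod (⊤ : Subgroup (Multiplicative ℤ))) (G.prod ⊤) b g) : Alt A G b g.1 := by
  induction h with
  | baseA h1 h2 =>
    refine Alt.baseA (Subgroup.mem_prod.1 h1).1 fun h3 => h2 ?_
    exact Subgroup.mem_prod.2 ⟨h3, Subgroup.mem_top _⟩
  | baseG h1 h2 =>
    refine Alt.baseG (Subgroup.mem_prod.1 h1).1 fun h3 => h2 ?_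
    exact Subgroup.mem_prod.2 ⟨h3, Subgroup.mem_top _⟩
  | consA h1 h2 _ ih =>
    refine Alt.consA (Subgroup.mem_prod.1 h1).1 (fun h3 => h2 ?_) ih
    exact Subgroup.mem_prod.2 ⟨h3, Subgroup.mem_top _⟩
  | consG h1 h2 _ ih =>
    refine Alt.consG (Subgroup.mem_prod.1 h1).1 (fun h3 => h2 ?_) ih
    exact Subgroup.mem_prod.2 ⟨h3, Subgroup.mem_top _⟩

theorem Split_nf {Γ : Type} [Group Γ] {A G : Subgroup Γ} (h : NF A G) :
    NF (A.prod (⊤ : Subgroup (Multiplicative ℤ))) (G.prod ⊤) :=
  fun b hb => h b (Split_alt hb)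

section lam

variable {Γ : Type} [Group Γ] {X : Type} [MulAction Γ X]

/-- an injection of the integers into the naturals -/
noncomputable def Split_enc (n : ℤ) : ℕ := Encodable.encode n

theorem Split_enc_inj {m n : ℤ} (h : Split_enc m = Split_enc n) : m = n :=
  Encodable.encode_injective h

/-- The function separating points of the orbits of labelled points. -/
noncomputable def lamZ (lam : X → ℝ≥0∞) (z : LZ X) : ℝ≥0∞ :=
  ENNReal.ofReal ((Split_enc z.2 : ℝ) + (lam z.1).toReal / (1 + (lam z.1).toReal))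

theorem Split_frac {s t : ℝ} (hs : 0 ≤ s) (ht : 0 ≤ t) {m n : ℕ}
    (h : (m : ℝ) + s / (1 + s) = (n : ℝ) + t / (1 + t)) : m = n ∧ s = t := by
  have h1 : 0 ≤ s / (1 + s) := by positivity
  have h2 : s / (1 + s) < 1 := by rw [div_lt_one (by linarith)]; linarith
  have h3 : 0 ≤ t / (1 + t) := by positivity
  have h4 : t / (1 + t) < 1 := by rw [div_lt_one (by linarith)]; linarith
  have h5 : (m : ℝ) < n + 1 := by linarith
  have h6 : (n : ℝ) < m + 1 := by linarith
  have h7 : m < n + 1 := by exact_mod_cast h5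
  have h8 : n < m + 1 := by exact_mod_cast h6
  have h9 : m = n := by omega
  refine ⟨h9, ?_⟩
  rw [h9] at h
  have h10 : s / (1 + s) = t / (1 + t) := by linarith
  rw [div_eq_div_iff (by linarith) (by linarith)] at h10
  linarith

theorem lamZ_ne_top (lam : X → ℝ≥0∞) (z : LZ X) : lamZ lam z ≠ ∞ := ENNReal.ofReal_ne_top

theorem lamZ_inj {lam : X → ℝ≥0∞} (hfin : ∀ x, lam x ≠ ∞)
    (hinj : ∀ (g : Γ) x, lam (g • x) = lam x → g = 1) (g : LG Γ) (z : LZ X)
    (h : lamZ lam (g • z) = lamZ lam z) : g = 1 := by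
  unfold lamZ at h
  rw [Split_smul, lz_fst, lz_snd] at h
  have h1 : 0 ≤ (lam (g.1 • z.1)).toReal := ENNReal.toReal_nonneg
  have h2 : 0 ≤ (lam z.1).toReal := ENNReal.toReal_nonneg
  rw [ENNReal.ofReal_eq_ofReal_iff (by positivity) (by positivity)] at h
  obtain ⟨h3, h4⟩ := Split_frac h1 h2 h
  have h5 := Split_enc_inj h3
  have h6 : lam (g.1 • z.1) = lam z.1 := by
    rw [← ENNReal.toReal_eq_toReal_iff' (hfin _) (hfin _)]
    exact h4
  have h7 := hinj _ _ h6
  refine Prod.ext h7 ?_
  have h8 : g.2.toAdd = 0 := by omega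
  exact h8

theorem measurable_lamZ [MeasurableSpace X] {lam : X → ℝ≥0∞} (hlam : Measurable lam) :
    Measurable (lamZ lam) := by
  unfold lamZ
  have h1 : Measurable fun z : LZ X => (lam z.1).toReal :=
    (hlam.comp Split_measurable_fst).ennreal_toReal
  have h2 : Measurable fun z : LZ X => (Split_enc z.2 : ℝ) :=
    (measurable_of_countable fun n : ℤ => (Split_enc n : ℝ)).comp Split_measurable_snd
  exact (h2.add (h1.div (measurable_const.add h1))).ennreal_ofReal

end lam

end Vale.Agent.P189
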