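/-
P189: splitting of arcs into letters of `A` and `G`; reduction of the relative statement on `X` to
`stepA` on `X × L`, `L = Multiplicative ℤ` (labels), group `Γ × L`.

For `g ∈ F` (finite support of `E`) fix a list of letters `[g_1, …, g_n]`, `n ≥ 1`, each in `A` or `G`,
with `g = g_n ⋯ g_1`.  Points of `Y`: `(x, 1)` for all `x` (this is `M`), and `(g_i ⋯ g_1 • x, label(g,i))`
for `x ∈ E g`, `0 < i < n`.  Arcs: from position `i` to position `i+1`, of type A or G.
cost EA + cost EG ≤ cost E + μ (Y \ M).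
-/
import Vale.Agent.P189.SplitBase

open MeasureTheory Set
open scoped Pointwise ENNReal

namespace Vale.Agent.P189

section

variable {Γ : Type}

/-- the label of the position `i` on the path of `h` -/
def Split_lb (n : Γ → ℕ) (f : Γ × ℕ → ℕ) (h : Γ) (i : ℕ) : ℤ :=
  if i = 0 ∨ i = n h then 0 else 1 + (f (h, i) : ℤ)

theorem Split_lb_zero (n : Γ → ℕ) (f : Γ × ℕ → ℕ) (h : Γ) : Split_lb n f h 0 = 0 := by
  simp [Split_lb]

theorem Split_lb_last (n : Γ → ℕ) (f : Γ × ℕ → ℕ) (h : Γ) : Split_lb n f h (n h) = 0 := by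
  simp [Split_lb]

theorem Split_lb_mid (n : Γ → ℕ) (f : Γ × ℕ → ℕ) {h : Γ} {i : ℕ} (h0 : 0 < i) (h1 : i < n h) :
    Split_lb n f h i = 1 + (f (h, i) : ℤ) := by
  unfold Split_lb
  rw [if_neg (by omega)]

variable [Group Γ] {X : Type} [MulAction Γ X]

/-- the set of the points at the position `i` of the arcs of `h` -/
def Split_S (E : Γ → Set X) (n : Γ → ℕ) (p : Γ → ℕ → Γ) (f : Γ × ℕ → ℕ) (h : Γ) (i : ℕ) :
    Set (LZ X) := {z | z.2 = Split_lb n f h i ∧ z.1 ∈ ((p h i)⁻¹ • · : X → X) ⁻¹' E h}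

theorem Split_mem_S {E : Γ → Set X} {n : Γ → ℕ} {p : Γ → ℕ → Γ} {f : Γ × ℕ → ℕ} {h : Γ} {i : ℕ}
    {x : X} (hx : x ∈ E h) : lz (p h i • x) (Split_lb n f h i) ∈ Split_S E n p f h i := by
  refine ⟨rfl, ?_⟩
  show (p h i)⁻¹ • (p h i • x) ∈ E h
  rw [inv_smul_smul]
  exact hx

/-- every point of `S` has this form -/
theorem Split_S_form {E : Γ → Set X} {n : Γ → ℕ} {p : Γ → ℕ → Γ} {f : Γ × ℕ → ℕ} {h : Γ} {i : ℕ}
    {z : LZ X} (hz : z ∈ Split_S E n p f h i) :
    ∃ x ∈ E h, z = lz (p h i • x) (Split_lb n f h i) := by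
  refine ⟨(p h i)⁻¹ • z.1, hz.2, ?_⟩
  rw [smul_inv_smul]
  exact Prod.ext rfl hz.1

/-- the group element of the step `i` -/
def Split_g (n : Γ → ℕ) (p : Γ → ℕ → Γ) (f : Γ × ℕ → ℕ) (h : Γ) (i : ℕ) : LG Γ :=
  (p h (i + 1) * (p h i)⁻¹, Multiplicative.ofAdd (Split_lb n f h (i + 1) - Split_lb n f h i))

theorem Split_g_smul (n : Γ → ℕ) (p : Γ → ℕ → Γ) (f : Γ × ℕ → ℕ) (h : Γ) (i : ℕ) (x : X) :
    Split_g n p f h i • lz (p h i • x) (Split_lb n f h i) =
      lz (p h (i + 1) • x) (Split_lb n f h (i + 1)) := by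
  rw [Split_smul]
  unfold Split_g
  rw [lz_fst, lz_snd]
  simp only [toAdd_ofAdd, sub_add_cancel]
  rw [smul_smul, inv_mul_cancel_right]

/-- The arcs on labelled points coming from the steps in `P`. -/
def Split_E (E : Γ → Set X) (F : Finset Γ) (n : Γ → ℕ) (p : Γ → ℕ → Γ) (f : Γ × ℕ → ℕ)
    (P : Γ → ℕ → Prop) (g : LG Γ) : Set (LZ X) :=
  {z | ∃ h ∈ F, ∃ i < n h, P h i ∧ g = Split_g n p f h i ∧ z ∈ Split_S E n p f h i}

/-- The points. -/
def Split_Y (E : Γ → Set X) (F : Finset Γ) (n : Γ → ℕ) (p : Γ → ℕ → Γ) (f : Γ × ℕ → ℕ) :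
    Set (LZ X) := {z | z.2 = 0} ∪ {z | ∃ h ∈ F, ∃ i < n h, z ∈ Split_S E n p f h i}

end

section

variable {Γ : Type} [Group Γ] {X : Type} [MeasurableSpace X] [MulAction Γ X]
  [MeasurableConstSMul Γ X] {E : Γ → Set X} {F : Finset Γ} {n : Γ → ℕ} {p : Γ → ℕ → Γ}
  {f : Γ × ℕ → ℕ}

theorem Split_meas_lab (l : ℤ) : MeasurableSet {z : LZ X | z.2 = l} :=
  Split_measurable_snd (measurableSet_singleton l)

theorem Split_meas_S (hE : ME E) (h : Γ) (i : ℕ) : MeasurableSet (Split_S E n p f h i) := by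
  unfold Split_S
  refine (Split_meas_lab _).inter ?_
  exact Split_measurable_fst ((measurable_const_smul ((p h i)⁻¹)) (hE h))

theorem Split_mz_S (μ : Measure X) [SFinite μ] [SMulInvariantMeasure Γ X μ] (h : Γ)
    (i : ℕ) : mz μ (Split_S E n p f h i) = μ (E h) := by
  unfold Split_S
  rw [mz_prod]
  exact measure_preimage_smul _ _ _

theorem Split_meas_E (hE : ME E) (P : Γ → ℕ → Prop) : ME (Split_E E F n p f P) := by
  intro g
  have h1 : Split_E E F n p f P g = ⋃ h ∈ F, ⋃ i ∈ Finset.range (n h),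
      {z | P h i ∧ g = Split_g n p f h i ∧ z ∈ Split_S E n p f h i} := by
    ext z
    simp only [Split_E, mem_ofPred_eq, mem_iUnion, Finset.mem_range, exists_prop]
  rw [h1]
  refine Finset.measurableSet_biUnion _ fun h _ => Finset.measurableSet_biUnion _ fun i _ => ?_
  by_cases hc : P h i ∧ g = Split_g n p f h i
  · have h2 : {z : LZ X | P h i ∧ g = Split_g n p f h i ∧ z ∈ Split_S E n p f h i} =
        Split_S E n p f h i := by
      ext z
      simp only [mem_ofPred_eq]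
      exact ⟨fun h => h.2.2, fun h => ⟨hc.1, hc.2, h⟩⟩
    rw [h2]
    exact Split_meas_S hE h i
  · have h2 : {z : LZ X | P h i ∧ g = Split_g n p f h i ∧ z ∈ Split_S E n p f h i} = ∅ := by
      ext z
      simp only [mem_ofPred_eq, mem_empty_iff_false, iff_false]
      exact fun h => hc ⟨h.1, h.2.1⟩
    rw [h2]
    exact MeasurableSet.empty

theorem Split_meas_Y (hE : ME E) : MeasurableSet (Split_Y E F n p f) := by
  have h1 : {z : LZ X | ∃ h ∈ F, ∃ i < n h, z ∈ Split_S E n p f h i} =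
      ⋃ h ∈ F, ⋃ i ∈ Finset.range (n h), Split_S E n p f h i := by
    ext z
    simp only [mem_ofPred_eq, mem_iUnion, Finset.mem_range, exists_prop]
  unfold Split_Y
  rw [h1]
  exact (Split_meas_lab 0).union (Finset.measurableSet_biUnion _ fun h _ =>
    Finset.measurableSet_biUnion _ fun i _ => Split_meas_S hE h i)

open Classical in
/-- Cost of the labelled arcs. -/
theorem Split_cost_E (μ : Measure X) [SFinite μ] [SMulInvariantMeasure Γ X μ]
    (P : Γ → ℕ → Prop) :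
    cost (mz μ) (Split_E E F n p f P) ≤
      ∑ h ∈ F, ∑ i ∈ Finset.range (n h), if P h i then μ (E h) else 0 := by
  unfold cost
  have h1 : ∀ g : LG Γ, mz μ (Split_E E F n p f P g) ≤
      ∑ h ∈ F, ∑ i ∈ Finset.range (n h),
        if g = Split_g n p f h i then (if P h i then μ (E h) else 0) else 0 := by
    intro g
    have h2 : Split_E E F n p f P g ⊆ ⋃ h ∈ F, ⋃ i ∈ Finset.range (n h),
        (if g = Split_g n p f h i then (if P h i then Split_S E n p f h i else ∅) else ∅) := by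
      rintro z ⟨h, hh, i, hi, hP, hg, hz⟩
      simp only [mem_iUnion]
      refine ⟨h, hh, i, Finset.mem_range.2 hi, ?_⟩
      rw [if_pos hg, if_pos hP]
      exact hz
    refine (measure_mono h2).trans ((measure_biUnion_finset_le _ _).trans ?_)
    refine Finset.sum_le_sum fun h _ => (measure_biUnion_finset_le _ _).trans ?_
    refine Finset.sum_le_sum fun i _ => ?_
    split_ifs
    · rw [Split_mz_S]
    · simp
    · simp
  refine (ENNReal.tsum_le_tsum h1).trans ?_
  rw [Summable.tsum_finsetSum fun _ _ => ENNReal.summable]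
  refine Finset.sum_le_sum fun h _ => ?_
  rw [Summable.tsum_finsetSum fun _ _ => ENNReal.summable]
  refine Finset.sum_le_sum fun i _ => ?_
  rw [tsum_ite_eq]

/-- The measure of the new points. -/
theorem Split_mz_Y (μ : Measure X) [SFinite μ] [SMulInvariantMeasure Γ X μ] (hE : ME E)
    (hf : Function.Injective f) :
    mz μ (Split_Y E F n p f \ {z | z.2 = 0}) = ∑ h ∈ F, ((n h - 1 : ℕ) : ℝ≥0∞) * μ (E h) := by
  have h1 : Split_Y E F n p f \ {z | z.2 = 0} =
      ⋃ a ∈ F.sigma (fun h => Finset.Ico 1 (n h)), Split_S E n p f a.1 a.2 := by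
    ext z
    simp only [mem_sdiff, mem_ofPred_eq, mem_iUnion, Finset.mem_sigma, Finset.mem_Ico,
      exists_prop, Sigma.exists]
    constructor
    · rintro ⟨h2 | ⟨h, hh, i, hi, hz⟩, h3⟩
      · exact absurd h2 h3
      · refine ⟨h, i, ⟨hh, ?_, hi⟩, hz⟩
        rcases Nat.eq_zero_or_pos i with h4 | h4
        · subst h4
          exact absurd (hz.1.trans (Split_lb_zero n f h)) h3
        · exact h4
    · rintro ⟨h, i, ⟨hh, h1i, hi⟩, hz⟩
      refine ⟨Or.inr ⟨h, hh, i, hi, hz⟩, ?_⟩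
      have h2 : z.2 = 1 + (f (h, i) : ℤ) := hz.1.trans (Split_lb_mid n f h1i hi)
      omega
  rw [h1, measure_biUnion_finset]
  · rw [Finset.sum_sigma]
    refine Finset.sum_congr rfl fun h _ => ?_
    simp only [Split_mz_S, Finset.sum_const, Nat.card_Ico, nsmul_eq_mul]
  · rintro ⟨h, i⟩ ha ⟨h', i'⟩ ha' hne
    simp only [Finset.coe_sigma, mem_sigma_iff, Finset.mem_coe, Finset.coe_Ico, mem_Ico] at ha ha'
    refine Set.disjoint_left.2 fun z hz hz' => hne ?_
    have h2 : z.2 = 1 + (f (h, i) : ℤ) := hz.1.trans (Split_lb_mid n f ha.2.1 ha.2.2)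
    have h3 : z.2 = 1 + (f (h', i') : ℤ) := hz'.1.trans (Split_lb_mid n f ha'.2.1 ha'.2.2)
    have h4 : f (h, i) = f (h', i') := by omega
    have h5 := hf h4
    rw [Prod.mk.injEq] at h5
    obtain ⟨rfl, rfl⟩ := h5
    rfl
  · intro a _
    exact Split_meas_S hE a.1 a.2

end

variable {Γ : Type} [Group Γ] [Countable Γ] {X : Type} [MeasurableSpace X] [MulAction Γ X]
  [MeasurableConstSMul Γ X]

theorem relative_le [FreeAct Γ X] (μ : Measure X) [IsProbabilityMeasure μ]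
    [SMulInvariantMeasure Γ X μ]
    {lam : X → ℝ≥0∞} (hlam : Measurable lam) (hfin : ∀ x, lam x ≠ ∞)
    (hinj : ∀ (g : Γ) x, lam (g • x) = lam x → g = 1)
    {A G : Subgroup Γ} (hNF : NF A G) (hAG : A ⊔ G = ⊤)
    {E : Γ → Set X} (hE : ME E) (hF : ∃ F : Finset Γ, ∀ g, g ∉ F → E g = ∅) (hE1 : E 1 = ∅)
    (hgen : ∀ (x : X) (g : Γ), (RR G univ ⊔ edge E) x (g • x))
    {ε : ℝ≥0∞} (hε : ε ≠ 0) :
    ∃ E' : Γ → Set X, ME E' ∧ (∀ g, g ∉ A → E' g = ∅) ∧
      cost μ E' ≤ cost μ E + ε ∧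
      ∀ (x : X), ∀ g ∈ A, (RR (A ⊓ G) univ ⊔ edge E') x (g • x) := by
  classical
  obtain ⟨F, hF⟩ := hF
  choose n p hn1 hp0 hpn hpl using fun h : Γ => Split_path hAG h
  obtain ⟨f, hf⟩ := exists_injective_nat (Γ × ℕ)
  set P : Γ → ℕ → Prop := fun h i => p h (i + 1) * (p h i)⁻¹ ∈ A with hP
  set M : Set (LZ X) := {z | z.2 = 0} with hM
  set Y : Set (LZ X) := Split_Y E F n p f with hY
  set EA : LG Γ → Set (LZ X) := Split_E E F n p f P with hEA
  set EG : LG Γ → Set (LZ X) := Split_E E F n p f (fun h i => ¬ P h i) with hEG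
  set A' : Subgroup (LG Γ) := A.prod ⊤ with hA'
  set G' : Subgroup (LG Γ) := G.prod ⊤ with hG'
  have hMY : M ⊆ Y := fun z hz => Or.inl hz
  have hMm : MeasurableSet M := Split_meas_lab 0
  have hYm : MeasurableSet Y := Split_meas_Y hE
  -- measures
  have hYM : mz μ (Y \ M) = ∑ h ∈ F, ((n h - 1 : ℕ) : ℝ≥0∞) * μ (E h) := Split_mz_Y μ hE hf
  have hYMfin : mz μ (Y \ M) ≠ ∞ := by
    rw [hYM]
    refine ENNReal.sum_ne_top.2 fun h _ => ENNReal.mul_ne_top (ENNReal.natCast_ne_top _)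
      (measure_ne_top _ _)
  have hMmz : mz μ M = 1 := by
    have h1 : M = {z : LZ X | z.2 = 0 ∧ z.1 ∈ (univ : Set X)} := by
      ext z; simp [hM]
    rw [h1, mz_prod, measure_univ]
  have hYfin : mz μ Y ≠ ∞ := by
    have h1 : Y = M ∪ (Y \ M) := (union_sdiff_cancel hMY).symm
    rw [h1]
    refine ne_top_of_le_ne_top ?_ (measure_union_le _ _)
    exact ENNReal.add_ne_top.2 ⟨by rw [hMmz]; exact ENNReal.one_ne_top, hYMfin⟩
  have hcost : cost (mz μ) EA + cost (mz μ) EG ≤ cost μ E + mz μ (Y \ M) := by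
    have hc1 : ∑ h ∈ F, μ (E h) ≤ cost μ E := ENNReal.sum_le_tsum F
    have hc2 : cost (mz μ) EA + cost (mz μ) EG ≤ ∑ h ∈ F, (n h : ℝ≥0∞) * μ (E h) := by
      refine (add_le_add (Split_cost_E μ P) (Split_cost_E μ _)).trans (le_of_eq ?_)
      rw [← Finset.sum_add_distrib]
      refine Finset.sum_congr rfl fun h _ => ?_
      rw [← Finset.sum_add_distrib]
      have h3 : ∑ _i ∈ Finset.range (n h), μ (E h) = (n h : ℝ≥0∞) * μ (E h) := by simp
      rw [← h3]
      refine Finset.sum_congr rfl fun i _ => ?_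
      by_cases h2 : P h i
      · simp [h2]
      · simp [h2]
    refine hc2.trans ?_
    rw [hYM]
    refine le_trans (le_of_eq ?_) (add_le_add hc1 le_rfl)
    rw [← Finset.sum_add_distrib]
    refine Finset.sum_congr rfl fun h _ => ?_
    have h1 : (n h : ℝ≥0∞) = 1 + ((n h - 1 : ℕ) : ℝ≥0∞) := by
      have h2 : n h = 1 + (n h - 1) := by have := hn1 h; omega
      conv_lhs => rw [h2]
      push_cast
      rfl
    rw [h1, add_mul, one_mul]
  -- the arcs
  have hpos : ∀ h ∈ F, ∀ i ≤ n h, ∀ x ∈ E h, lz (p h i • x) (Split_lb n f h i) ∈ Y := by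
    intro h hh i hi x hx
    rcases Nat.lt_or_ge i (n h) with h1 | h1
    · exact Or.inr ⟨h, hh, i, h1, Split_mem_S hx⟩
    · have h2 : i = n h := by omega
      subst h2
      exact Or.inl (Split_lb_last n f h)
  have hEmem : ∀ (Q : Γ → ℕ → Prop) (g : LG Γ), ∀ z ∈ Split_E E F n p f Q g,
      z ∈ Y ∧ g • z ∈ Y ∧ ∃ h i, i < n h ∧ Q h i ∧ g = Split_g n p f h i := by
    rintro Q g z ⟨h, hh, i, hi, hQ, hg, hz⟩
    obtain ⟨x, hx, rfl⟩ := Split_S_form hz
    refine ⟨hpos h hh i hi.le x hx, ?_, h, i, hi, hQ, hg⟩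
    rw [hg, Split_g_smul]
    exact hpos h hh (i + 1) hi x hx
  have hEA' : ∀ g, ∀ z ∈ EA g, z ∈ Y ∧ g • z ∈ Y ∧ g ∈ A' := by
    intro g z hz
    obtain ⟨h1, h2, h, i, hi, hQ, hg⟩ := hEmem P g z hz
    refine ⟨h1, h2, ?_⟩
    rw [hg]
    exact Subgroup.mem_prod.2 ⟨hQ, Subgroup.mem_top _⟩
  have hEG' : ∀ g, ∀ z ∈ EG g, z ∈ Y ∧ g • z ∈ Y ∧ g ∈ G' := by
    intro g z hz
    obtain ⟨h1, h2, h, i, hi, hQ, hg⟩ := hEmem (fun h i => ¬ P h i) g z hz
    refine ⟨h1, h2, ?_⟩
    rw [hg]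
    refine Subgroup.mem_prod.2 ⟨?_, Subgroup.mem_top _⟩
    rcases hpl h i hi with h3 | h3
    · exact absurd h3 hQ
    · exact h3
  -- generation
  set W : Setoid (LZ X) := RR G' M ⊔ edge EA ⊔ edge EG with hW
  have hWA : edge EA ≤ W := le_sup_right.trans le_sup_left
  have hWG : edge EG ≤ W := le_sup_right
  have hWR : RR G' M ≤ W := le_sup_left.trans le_sup_left
  have hpath : ∀ h ∈ F, ∀ i ≤ n h, ∀ x ∈ E h, W (lz x 0) (lz (p h i • x) (Split_lb n f h i)) := by
    intro h hh i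
    induction i with
    | zero =>
      intro _ x _
      rw [hp0, one_smul, Split_lb_zero]
    | succ i ih =>
      intro hi x hx
      refine W.trans (ih (by omega) x hx) ?_
      rw [← Split_g_smul]
      by_cases hc : P h i
      · exact hWA (edge_of_mem (E := EA) ⟨h, hh, i, hi, hc, rfl, Split_mem_S hx⟩)
      · exact hWG (edge_of_mem (E := EG) ⟨h, hh, i, hi, hc, rfl, Split_mem_S hx⟩)
  have hbase : ∀ x y : X, (RR G univ ⊔ edge E) x y → W (lz x 0) (lz y 0) := by
    intro x y hxy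
    refine sup_induction (r := RR G univ) (s := edge E)
      (P := fun x y => W (lz x 0) (lz y 0)) (fun z => W.refl _) (fun x y z h1 h2 => W.trans h1 h2)
      ?_ ?_ hxy
    · intro x y h
      refine hWR ?_
      rcases h with rfl | ⟨_, _, g, hg, rfl⟩
      · exact Or.inl rfl
      · refine Or.inr ⟨rfl, rfl, (g, 1), Subgroup.mem_prod.2 ⟨hg, Subgroup.mem_top _⟩, ?_⟩
        rw [Split_smul]
        rfl
    · intro x y h
      have h1 : edge E ≤ Setoid.comap (fun x : X => lz x 0) W := by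
        rw [edge_le_iff]
        intro g z hz
        rw [Setoid.comap_rel]
        have hg : g ∈ F := by
          by_contra hcon
          rw [hF g hcon] at hz
          exact hz
        have h2 := hpath g hg (n g) le_rfl z hz
        rw [hpn, Split_lb_last] at h2
        exact h2
      exact h1 h
  have htoM : ∀ z ∈ Y, ∃ x : X, (∃ γ : Γ, z.1 = γ • x) ∧ W (lz x 0) z := by
    rintro z (hz | ⟨h, hh, i, hi, hz⟩)
    · refine ⟨z.1, ⟨1, (one_smul _ _).symm⟩, ?_⟩
      have h1 : z = lz z.1 0 := Prod.ext rfl hz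
      rw [← h1]
    · obtain ⟨x, hx, rfl⟩ := Split_S_form hz
      exact ⟨x, ⟨p h i, rfl⟩, hpath h hh i hi.le x hx⟩
  have hgen' : RR (⊤ : Subgroup (LG Γ)) Y ≤ W := by
    intro z w hzw
    rcases hzw with rfl | ⟨hz, hw, g, _, rfl⟩
    · exact W.refl _
    · obtain ⟨x, ⟨γ, hγ⟩, hx⟩ := htoM _ hz
      obtain ⟨y, ⟨δ, hδ⟩, hy⟩ := htoM _ hw
      refine W.trans (W.symm hx) (W.trans ?_ hy)
      refine hbase x y ?_
      have h1 : y = (δ⁻¹ * g.1 * γ) • x := by
        have h2 : (g • z).1 = g.1 • z.1 := rfl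
        rw [mul_smul, mul_smul, ← hγ, ← h2, hδ, inv_smul_smul]
      rw [h1]
      exact hgen x _
  -- the contraction map
  set kap : LZ X → LG Γ := fun z => (1, Multiplicative.ofAdd (-z.2)) with hkap
  have hkapm : ∀ g, MeasurableSet {z | kap z = g} := by
    intro g
    by_cases h1 : g.1 = 1
    · have h2 : {z : LZ X | kap z = g} = {z | z.2 = -g.2.toAdd} := by
        ext z
        simp only [mem_ofPred_eq, hkap]
        constructor
        · rintro rfl
          simp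
        · intro h3
          refine Prod.ext h1.symm ?_
          rw [h3, neg_neg]
          rfl
      rw [h2]
      exact Split_meas_lab _
    · have h2 : {z : LZ X | kap z = g} = ∅ := by
        ext z
        simp only [mem_ofPred_eq, hkap, mem_empty_iff_false, iff_false]
        rintro rfl
        exact h1 rfl
      rw [h2]
      exact MeasurableSet.empty
  have kapC : ∀ z, kap z ∈ A' ⊓ G' := fun z =>
    Subgroup.mem_inf.2 ⟨Subgroup.mem_prod.2 ⟨A.one_mem, Subgroup.mem_top _⟩,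
      Subgroup.mem_prod.2 ⟨G.one_mem, Subgroup.mem_top _⟩⟩
  have kapM : ∀ z ∈ Y, kap z • z ∈ M := by
    intro z _
    show (Multiplicative.toAdd (Multiplicative.ofAdd (-z.2))) + z.2 = 0
    rw [toAdd_ofAdd, neg_add_cancel]
  obtain ⟨E', hE'm, hE'mem, hE'cost, hE'gen⟩ := stepA (𝒢 := LG Γ) (Z := LZ X) (mz μ)
    (Split_nf hNF) hMm hYm hMY hYfin (measurable_lamZ hlam) (lamZ_ne_top lam)
    (lamZ_inj hfin hinj) hkapm kapC kapM (Split_meas_E hE _) (Split_meas_E hE _) hEA' hEG'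
    hgen' hε
  -- back to `X`
  have hlab : ∀ (g : LG Γ), ∀ z ∈ E' g, z.2 = 0 ∧ g.2 = 1 ∧ g.1 ∈ A := by
    intro g z hz
    obtain ⟨h1, h2, h3⟩ := hE'mem g z hz
    have h4 : z.2 = 0 := h1
    have h5 : g.2.toAdd + z.2 = 0 := h2
    refine ⟨h4, ?_, (Subgroup.mem_prod.1 h3).1⟩
    have h6 : g.2.toAdd = 0 := by omega
    exact h6
  refine ⟨fun g => {x | lz x 0 ∈ E' (g, 1)}, ?_, ?_, ?_, ?_⟩
  · intro g
    exact Split_measurable_lz 0 (hE'm (g, 1))
  · intro g hg
    ext x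
    simp only [mem_ofPred_eq, mem_empty_iff_false, iff_false]
    intro hx
    exact hg (hlab _ _ hx).2.2
  · have h1 : cost μ (fun g => {x | lz x 0 ∈ E' (g, 1)}) ≤ cost (mz μ) E' := by
      unfold cost
      have h2 : ∀ g : Γ, μ {x | lz x 0 ∈ E' (g, 1)} = mz μ (E' (g, 1)) := by
        intro g
        have h3 : E' (g, 1) = {z : LZ X | z.2 = 0 ∧ z.1 ∈ {x | lz x 0 ∈ E' (g, 1)}} := by
          ext z
          constructor
          · intro hz
            have h4 := (hlab _ z hz).1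
            refine ⟨h4, ?_⟩
            have h5 : lz z.1 0 = z := Prod.ext rfl h4.symm
            show lz z.1 0 ∈ E' (g, 1)
            rw [h5]; exact hz
          · rintro ⟨h4, h5⟩
            have h6 : lz z.1 0 = z := Prod.ext rfl h4.symm
            have h7 : lz z.1 0 ∈ E' (g, 1) := h5
            rw [h6] at h7
            exact h7
        conv_rhs => rw [h3]
        rw [mz_prod]
      simp only [h2]
      exact ENNReal.tsum_comp_le_tsum_of_injective (f := fun g : Γ => ((g, 1) : LG Γ))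
        (fun a b h => (Prod.mk.inj h).1) (fun g => mz μ (E' g))
    have h2 : cost (mz μ) E' + mz μ (Y \ M) ≤ cost μ E + ε + mz μ (Y \ M) := by
      refine hE'cost.trans ?_
      calc _ ≤ cost μ E + mz μ (Y \ M) + ε := add_le_add hcost le_rfl
        _ = _ := by ring
    exact h1.trans ((ENNReal.add_le_add_iff_right hYMfin).1 h2)
  · intro x g hg
    have h1 : (RR (A' ⊓ G') M ⊔ edge E') (lz x 0) (lz (g • x) 0) := by
      refine hE'gen (Or.inr ⟨rfl, rfl, (g, 1), Subgroup.mem_prod.2 ⟨hg, Subgroup.mem_top _⟩, ?_⟩)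
      rw [Split_smul]
      rfl
    refine sup_induction (r := RR (A' ⊓ G') M) (s := edge E')
      (P := fun z w : LZ X => (RR (A ⊓ G) univ ⊔ edge (fun g => {x | lz x 0 ∈ E' (g, 1)})) z.1 w.1)
      (fun z => Setoid.refl' _ _) (fun x y z h1 h2 => Setoid.trans' _ h1 h2) ?_ ?_ h1
    · intro z w h
      refine (le_sup_left : RR (A ⊓ G) univ ≤ _) ?_
      rcases h with rfl | ⟨_, _, g, hg, rfl⟩
      · exact Or.inl rfl
      · refine Or.inr ⟨trivial, trivial, g.1, ?_, rfl⟩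
        obtain ⟨h2, h3⟩ := Subgroup.mem_inf.1 hg
        exact Subgroup.mem_inf.2 ⟨(Subgroup.mem_prod.1 h2).1, (Subgroup.mem_prod.1 h3).1⟩
    · intro z w h
      refine (le_sup_right : edge (fun g => {x | lz x 0 ∈ E' (g, 1)}) ≤
        RR (A ⊓ G) univ ⊔ edge (fun g => {x | lz x 0 ∈ E' (g, 1)})) ?_
      have h2 : edge E' ≤ Setoid.comap (fun z : LZ X => z.1)
          (edge (fun g => {x | lz x 0 ∈ E' (g, 1)})) := by
        rw [edge_le_iff]
        intro g z hz
        rw [Setoid.comap_rel]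
        obtain ⟨h3, h4, h5⟩ := hlab g z hz
        have h6 : g = (g.1, 1) := Prod.ext rfl h4
        have h7 : z = lz z.1 0 := Prod.ext rfl h3
        have h8 : z.1 ∈ {x | lz x 0 ∈ E' (g.1, 1)} := by
          show lz z.1 0 ∈ E' (g.1, 1)
          rw [← h6, ← h7]; exact hz
        exact edge_of_mem (E := fun g => {x | lz x 0 ∈ E' (g, 1)}) h8
      exact h2 h

end Vale.Agent.P189
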