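/-
P189: Step 0 (relative cost over `G ∋ t` is at most `cost - 1`), and reduction to finitely many
group elements.
-/
import Vale.Agent.P189.CL
import Vale.Agent.P189.Marker

open MeasureTheory Set
open scoped Pointwise ENNReal

namespace Vale.Agent.P189

variable {𝒢 : Type} [Group 𝒢] [Countable 𝒢] {Z : Type} [MeasurableSpace Z] [MulAction 𝒢 Z]
  [MeasurableConstSMul 𝒢 Z]

/-- Contract onto a small complete section `D` of `t ∈ G`; the known relation is `RR G D`. -/
theorem step0 (μ : Measure Z) [IsProbabilityMeasure μ] [SMulInvariantMeasure 𝒢 Z μ] [FreeAct 𝒢 Z]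
    {lam : Z → ℝ≥0∞} (hlam : Measurable lam) (hfin : ∀ z, lam z ≠ ∞)
    (hinj : ∀ (g : 𝒢) z, lam (g • z) = lam z → g = 1)
    {G : Subgroup 𝒢} {t : 𝒢} (htG : t ∈ G) (ht : ∀ k : ℤ, k ≠ 0 → t ^ k ≠ 1)
    {E : 𝒢 → Set Z} (hE : ME E) (hgen : ∀ (z : Z) (g : 𝒢), edge E z (g • z))
    {ε : ℝ≥0∞} (hε : ε ≠ 0) :
    ∃ E' : 𝒢 → Set Z, ME E' ∧ cost μ E' + 1 ≤ cost μ E + ε ∧
      ∀ (z : Z) (g : 𝒢), (RR G univ ⊔ edge E') z (g • z) := by
  obtain ⟨D, hD, hDε, hDs⟩ := exists_section μ hlam hfin hinj ht hε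
  obtain ⟨E', hE', -, -, hcost, hcon⟩ := contraction μ hD MeasurableSet.univ (subset_univ D) hE
    (fun g z _ => ⟨mem_univ _, mem_univ _⟩) (r := RR G D)
    (by
      rintro z w (h | ⟨h1, h2, _⟩)
      · exact Or.inl h
      · exact Or.inr ⟨h1, h2⟩)
    (by
      intro y _
      obtain ⟨k, hk⟩ := hDs y
      exact ⟨_, hk, (le_sup_right : edge E ≤ RR G D ⊔ edge E) (hgen y (t ^ k))⟩)
  refine ⟨E', hE', ?_, ?_⟩
  · have h1 : (1 : ℝ≥0∞) ≤ μ (univ \ D) + ε := by
      have h2 : μ univ ≤ μ (univ \ D) + μ D := by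
        refine le_trans (measure_mono ?_) (measure_union_le _ _)
        intro z _
        by_cases hz : z ∈ D
        · exact Or.inr hz
        · exact Or.inl ⟨mem_univ _, hz⟩
      rw [measure_univ] at h2
      exact h2.trans (add_le_add le_rfl hDε)
    calc cost μ E' + 1 ≤ cost μ E' + (μ (univ \ D) + ε) := add_le_add le_rfl h1
      _ = cost μ E' + μ (univ \ D) + ε := (add_assoc _ _ _).symm
      _ ≤ cost μ E + ε := add_le_add hcost le_rfl
  · intro z g
    obtain ⟨k, hk⟩ := hDs z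
    obtain ⟨l, hl⟩ := hDs (g • z)
    have hzk : (RR G univ ⊔ edge E') z (t ^ k • z) :=
      (le_sup_left : RR G univ ≤ RR G univ ⊔ edge E')
        (Or.inr ⟨mem_univ _, mem_univ _, t ^ k, G.zpow_mem htG k, rfl⟩)
    have hgl : (RR G univ ⊔ edge E') (g • z) (t ^ l • g • z) :=
      (le_sup_left : RR G univ ≤ RR G univ ⊔ edge E')
        (Or.inr ⟨mem_univ _, mem_univ _, t ^ l, G.zpow_mem htG l, rfl⟩)
    have hmid : (RR G D ⊔ edge E) (t ^ k • z) (t ^ l • g • z) := by
      have h1 := hgen (t ^ k • z) (t ^ l * g * (t ^ k)⁻¹)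
      have h2 : (t ^ l * g * (t ^ k)⁻¹) • t ^ k • z = t ^ l • g • z := by
        rw [smul_smul, inv_mul_cancel_right, mul_smul]
      rw [h2] at h1
      exact (le_sup_right : edge E ≤ RR G D ⊔ edge E) h1
    have hmid' : (RR G univ ⊔ edge E') (t ^ k • z) (t ^ l • g • z) :=
      (sup_le_sup_right (rr_mono le_rfl (subset_univ D)) (edge E')) (hcon _ hk _ hl hmid)
    exact Setoid.trans' _ (Setoid.trans' _ hzk hmid') (Setoid.symm' _ hgl)

omit [Countable 𝒢] [MeasurableSpace Z] [MeasurableConstSMul 𝒢 Z] in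
/-- generation by `a` and `G` -/
theorem Step0_gen {G : Subgroup 𝒢} {a : 𝒢}
    (haG : Subgroup.closure (insert a (G : Set 𝒢)) = ⊤) {s : Setoid Z} (hs : RR G univ ≤ s)
    (ha : ∀ z : Z, s z (a • z)) (z : Z) (g : 𝒢) : s z (g • z) := by
  have hg : g ∈ Subgroup.closure (insert a (G : Set 𝒢)) := by
    rw [haG]
    exact Subgroup.mem_top g
  revert z
  induction hg using Subgroup.closure_induction with
  | mem x hx =>
    intro z
    rcases hx with rfl | hx
    · exact ha z
    · exact hs (Or.inr ⟨mem_univ _, mem_univ _, x, hx, rfl⟩)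
  | one =>
    intro z
    rw [one_smul]
  | mul x y _ _ hx hy =>
    intro z
    rw [mul_smul]
    exact Setoid.trans' _ (hy z) (hx (y • z))
  | inv x _ hx =>
    intro z
    have := hx (x⁻¹ • z)
    rw [smul_inv_smul] at this
    exact Setoid.symm' _ this

/-- Keep finitely many group elements and repair with `a` on a small set. -/
theorem finite_reduction (μ : Measure Z) [IsProbabilityMeasure μ] [SMulInvariantMeasure 𝒢 Z μ]
    [FreeAct 𝒢 Z] {G : Subgroup 𝒢} {a : 𝒢} (ha1 : a ≠ 1)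
    (haG : Subgroup.closure (insert a (G : Set 𝒢)) = ⊤)
    {E : 𝒢 → Set Z} (hE : ME E) (hgen : ∀ (z : Z) (g : 𝒢), (RR G univ ⊔ edge E) z (g • z))
    {ε : ℝ≥0∞} (hε : ε ≠ 0) :
    ∃ E' : 𝒢 → Set Z, ME E' ∧ (∃ F : Finset 𝒢, ∀ g, g ∉ F → E' g = ∅) ∧ E' 1 = ∅ ∧
      cost μ E' ≤ cost μ E + ε ∧
      ∀ (z : Z) (g : 𝒢), (RR G univ ⊔ edge E') z (g • z) := by
  classical
  obtain ⟨f, hf⟩ := exists_surjective_nat 𝒢
  let F : ℕ → Finset 𝒢 := fun n => (Finset.range n).image f
  have hFm : ∀ {m n : ℕ}, m ≤ n → F m ⊆ F n := fun h =>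
    Finset.image_subset_image (Finset.range_mono h)
  let En : ℕ → 𝒢 → Set Z := fun n g => if g ∈ F n ∧ g ≠ 1 then E g else ∅
  have hEnm : ∀ n, ME (En n) := by
    intro n g
    show MeasurableSet (if g ∈ F n ∧ g ≠ 1 then E g else ∅)
    split_ifs
    · exact hE g
    · exact MeasurableSet.empty
  have hEnE : ∀ n g, En n g ⊆ E g := by
    intro n g
    show (if g ∈ F n ∧ g ≠ 1 then E g else ∅) ⊆ E g
    split_ifs
    · exact subset_rfl
    · exact empty_subset _
  have hEnmono : ∀ {m n : ℕ}, m ≤ n → ∀ g, En m g ⊆ En n g := by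
    intro m n h g
    show (if g ∈ F m ∧ g ≠ 1 then E g else ∅) ⊆ (if g ∈ F n ∧ g ≠ 1 then E g else ∅)
    by_cases h1 : g ∈ F m ∧ g ≠ 1
    · rw [if_pos h1, if_pos ⟨hFm h h1.1, h1.2⟩]
    · rw [if_neg h1]
      exact empty_subset _
  let s : ℕ → Setoid Z := fun n => RR G univ ⊔ edge (En n)
  have hsm : Monotone s := fun m n h => sup_le_sup_left (edge_mono (hEnmono h)) _
  have hsup : RR G univ ⊔ edge E ≤ ⨆ n, s n := by
    refine sup_le ?_ ?_
    · exact le_sup_left.trans (le_iSup s 0)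
    · rw [edge_le_iff]
      intro g z hz
      by_cases hg1 : g = 1
      · rw [hg1, one_smul]
      · obtain ⟨n, rfl⟩ := hf g
        have h1 : z ∈ En (n + 1) (f n) := by
          show z ∈ (if f n ∈ F (n + 1) ∧ f n ≠ 1 then E (f n) else ∅)
          rw [if_pos ⟨Finset.mem_image_of_mem f (Finset.mem_range.mpr (Nat.lt_succ_self n)), hg1⟩]
          exact hz
        exact ((le_sup_right : edge (En (n + 1)) ≤ s (n + 1)).trans (le_iSup s (n + 1)))
          (edge_of_mem h1)
  let B : ℕ → Set Z := fun n => {z | ¬ s n z (a • z)}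
  have hBm : ∀ n, MeasurableSet (B n) := by
    intro n
    have h1 : MS 𝒢 (s n) := MS.sup (ms_rr G MeasurableSet.univ) (ms_edge (hEnm n))
      (rr_mono le_top subset_rfl) (edge_le_orb _)
    exact (h1 a).compl
  have hBanti : Antitone B := by
    intro m n h z hz hc
    exact hz (hsm h hc)
  have hBemp : ⋂ n, B n = ∅ := by
    rw [eq_empty_iff_forall_notMem]
    intro z hz
    have h1 : (⨆ n, s n) z (a • z) := hsup (hgen z a)
    rw [iSup_mono_apply hsm] at h1
    obtain ⟨n, hn⟩ := h1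
    exact (mem_iInter.mp hz n) hn
  have hlim := tendsto_measure_iInter_atTop (μ := μ) (fun n => (hBm n).nullMeasurableSet) hBanti
    ⟨0, measure_ne_top μ _⟩
  rw [hBemp, measure_empty] at hlim
  obtain ⟨n, hn⟩ := (hlim.eventually_le_const (pos_iff_ne_zero.mpr hε)).exists
  let A : 𝒢 → Set Z := fun g => if g = a then B n else ∅
  have hA : ME A := by
    intro g
    show MeasurableSet (if g = a then B n else ∅)
    split_ifs
    · exact hBm n
    · exact MeasurableSet.empty
  have hAc : cost μ A = μ (B n) := by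
    unfold cost
    rw [tsum_eq_single a]
    · show μ (if a = a then B n else ∅) = _
      rw [if_pos rfl]
    · intro g hg
      show μ (if g = a then B n else ∅) = 0
      rw [if_neg hg, measure_empty]
  refine ⟨fun g => En n g ∪ A g, fun g => (hEnm n g).union (hA g),
    ⟨insert a (F n), ?_⟩, ?_, ?_, ?_⟩
  · intro g hg
    rw [Finset.mem_insert, not_or] at hg
    show (if g ∈ F n ∧ g ≠ 1 then E g else ∅) ∪ (if g = a then B n else ∅) = ∅
    rw [if_neg (fun h => hg.2 h.1), if_neg hg.1, union_self]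
  · show (if (1 : 𝒢) ∈ F n ∧ (1 : 𝒢) ≠ 1 then E 1 else ∅) ∪ (if (1 : 𝒢) = a then B n else ∅) = ∅
    rw [if_neg (fun h => h.2 rfl), if_neg (fun h => ha1 h.symm), union_self]
  · calc cost μ (fun g => En n g ∪ A g) ≤ cost μ (En n) + cost μ A := cost_union_le μ _ _
      _ ≤ cost μ E + ε := by
        rw [hAc]
        exact add_le_add (cost_mono μ (hEnE n)) hn
  · refine Step0_gen haG le_sup_left ?_
    intro z
    by_cases hz : s n z (a • z)
    · exact (sup_le_sup_left (edge_mono fun g => subset_union_left) _ :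
        RR G univ ⊔ edge (En n) ≤ _) hz
    · refine (le_sup_right : edge _ ≤ _) (edge_of_mem (Or.inr ?_))
      show z ∈ (if a = a then B n else ∅)
      rw [if_pos rfl]
      exact hz

end Vale.Agent.P189
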