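/-
P189, Step B: the system of sheets attached to an arc system with finite support.
For `g ∈ F`, `g ≠ 1` with reduced word of length `n ≥ 1` (first letter applied first) an arc
`x → g • x`, `x ∈ E g`, is replaced by `n - 1` extra vertex sheets and `n` extra edge sheets along the
geodesic from `x` to `g • x`; both ends are attached to the sheet `v 0`.
-/
import Vale.Agent.P189.Sheets

open MeasureTheory Set
open scoped Pointwise ENNReal

namespace Vale.Agent.P189

namespace SheetsOf

/-! ### Words -/

/-- The group element of a letter. -/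
def lv (q : Fin 2 × Bool) : F2 := if q.2 then ge q.1 else (ge q.1)⁻¹

/-- The reduced word of `g`, first applied letter first. -/
def wd (g : F2) : List (Fin 2 × Bool) := g.toWord.reverse

/-- The `j`-th letter. -/
def lt (w : List (Fin 2 × Bool)) (j : ℕ) : Fin 2 × Bool := w.getD j (0, true)

/-- The group element of the first `j` letters. -/
def pp (w : List (Fin 2 × Bool)) : ℕ → F2
  | 0 => 1
  | j + 1 => lv (lt w j) * pp w j

theorem lt_reduced (g : F2) {i : ℕ} (hi : i + 1 < (wd g).length) :
    (lt (wd g) i).1 = (lt (wd g) (i + 1)).1 → (lt (wd g) i).2 = (lt (wd g) (i + 1)).2 := by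
  have h : FreeGroup.IsReduced g.toWord := FreeGroup.isReduced_toWord
  have h2 : List.IsChain (fun a b : Fin 2 × Bool => a.1 = b.1 → a.2 = b.2) (wd g) := by
    unfold wd
    rw [List.isChain_reverse]
    exact List.IsChain.imp (fun a b hab h => (hab h.symm).symm) h
  have h3 := (List.isChain_iff_getElem.1 h2) i hi
  unfold lt
  rw [List.getD_eq_getElem _ _ (by omega), List.getD_eq_getElem _ _ hi]
  exact h3

theorem mk_wd (g : F2) : FreeGroup.mk (wd g).reverse = g := by
  unfold wd
  rw [List.reverse_reverse, FreeGroup.mk_toWord]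

section

variable {X : Type} [MulAction F2 X]

/-- The label of the `i`-th vertex of the path of `g`. -/
def vlab {F : Finset F2} (M : ℕ) (g : F) (i : ℕ) : Fin 3 ⊕ (F × Fin (M + 1)) :=
  if 0 < i ∧ i < (wd g).length then Sum.inr (g, Fin.ofNat (M + 1) i) else Sum.inl 0

open Classical in
/-- Presence of the vertex sheets. -/
def PVs (E : F2 → Set X) {F : Finset F2} (M : ℕ) : Fin 3 ⊕ (F × Fin (M + 1)) → Set X
  | Sum.inl _ => univ
  | Sum.inr (g, i) => if 0 < i.1 ∧ i.1 < (wd g).length then
      (fun y => (pp (wd g) i.1)⁻¹ • y) ⁻¹' E g else ∅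

/-- The index of the base point of the `j`-th edge. -/
def bs (w : List (Fin 2 × Bool)) (j : ℕ) : ℕ := if (lt w j).2 then j else j + 1

open Classical in
/-- Presence of the edge sheets. -/
def PEs (E : F2 → Set X) {F : Finset F2} (M : ℕ) : Fin 4 ⊕ (F × Fin (M + 1)) → Set X
  | Sum.inl _ => univ
  | Sum.inr (g, j) => if j.1 < (wd g).length then
      (fun y => (pp (wd g) (bs (wd g) j.1))⁻¹ • y) ⁻¹' E g else ∅

def tys {F : Finset F2} (M : ℕ) : Fin 4 ⊕ (F × Fin (M + 1)) → Fin 2
  | Sum.inl j => if j = 0 ∨ j = 1 then 0 else 1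
  | Sum.inr (g, j) => (lt (wd g) j.1).1

def srcs {F : Finset F2} (M : ℕ) : Fin 4 ⊕ (F × Fin (M + 1)) → Fin 3 ⊕ (F × Fin (M + 1))
  | Sum.inl j => Sum.inl (if j = 0 then 1 else if j = 1 then 2 else if j = 2 then 0 else 2)
  | Sum.inr (g, j) => if (lt (wd g) j.1).2 then vlab M g j.1 else vlab M g (j.1 + 1)

def tgts {F : Finset F2} (M : ℕ) : Fin 4 ⊕ (F × Fin (M + 1)) → Fin 3 ⊕ (F × Fin (M + 1))
  | Sum.inl j => Sum.inl (if j = 0 then 0 else if j = 1 then 1 else if j = 2 then 0 else 1)
  | Sum.inr (g, j) => if (lt (wd g) j.1).2 then vlab M g (j.1 + 1) else vlab M g j.1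

variable {E : F2 → Set X} {F : Finset F2} {M : ℕ}

theorem ofNat_val {i : ℕ} (h : i < M + 1) : (Fin.ofNat (M + 1) i).1 = i := by
  simp [Fin.ofNat, Nat.mod_eq_of_lt h]

theorem mem_PVs_vlab (hM : ∀ g ∈ F, (wd g).length ≤ M) (g : F) (i : ℕ) {y : X}
    (hy : (pp (wd g) i)⁻¹ • y ∈ E g) : y ∈ PVs E M (vlab M g i) := by
  classical
  unfold vlab
  by_cases h : 0 < i ∧ i < (wd g).length
  · have hlt : i < M + 1 := by have := hM g g.2; omega
    rw [if_pos h]
    simp only [PVs, ofNat_val hlt]
    rw [if_pos h]
    exact hy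
  · rw [if_neg h]
    exact mem_univ _

theorem vlab_eq {g : F} {i : Fin (M + 1)} (h : 0 < i.1 ∧ i.1 < (wd g).length) :
    vlab M g i.1 = Sum.inr (g, i) := by
  unfold vlab
  rw [if_pos h]
  congr 2
  exact Fin.ext (ofNat_val i.2)

theorem pp_succ_true {w : List (Fin 2 × Bool)} {j : ℕ} (h : (lt w j).2 = true) :
    pp w (j + 1) = ge (lt w j).1 * pp w j := by
  simp only [pp, lv, h, if_true]

theorem pp_succ_false {w : List (Fin 2 × Bool)} {j : ℕ} (h : (lt w j).2 = false) :
    pp w (j + 1) = (ge (lt w j).1)⁻¹ * pp w j := by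
  simp [pp, lv, h]

end

end SheetsOf

open SheetsOf

variable {X : Type} [MulAction F2 X] [MeasurableSpace X] [MeasurableConstSMul F2 X]

/-- The system of sheets. -/
noncomputable def SheetsOf.mkSheets {E : F2 → Set X} (hE : ME E) {F : Finset F2} {M : ℕ}
    (hM : ∀ g ∈ F, (wd g).length ≤ M) : Sheets X where
  LV := Fin 3 ⊕ (F × Fin (M + 1))
  LE := Fin 4 ⊕ (F × Fin (M + 1))
  fLV := inferInstance
  fLE := inferInstance
  ty := tys M
  src := srcs M
  tgt := tgts M
  PV := PVs E M
  PE := PEs E M
  measPV := by
    rintro (l | ⟨g, i⟩)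
    · exact MeasurableSet.univ
    · simp only [PVs]
      split_ifs
      · exact (measurable_const_smul _) (hE g)
      · exact MeasurableSet.empty
  measPE := by
    rintro (l | ⟨g, i⟩)
    · exact MeasurableSet.univ
    · simp only [PEs]
      split_ifs
      · exact (measurable_const_smul _) (hE g)
      · exact MeasurableSet.empty
  src_mem := by
    rintro (k | ⟨g, j⟩) y hy
    · exact mem_univ _
    · simp only [PEs] at hy
      split_ifs at hy with h
      · rw [mem_preimage] at hy
        simp only [srcs]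
        cases hb : (lt (wd g) j.1).2
        · simp only [bs, hb, Bool.false_eq_true, if_false] at hy ⊢
          exact mem_PVs_vlab hM g _ hy
        · simp only [bs, hb, if_true] at hy ⊢
          exact mem_PVs_vlab hM g _ hy
      · exact absurd hy (notMem_empty _)
  tgt_mem := by
    rintro (k | ⟨g, j⟩) y hy
    · exact mem_univ _
    · simp only [PEs] at hy
      split_ifs at hy with h
      · rw [mem_preimage] at hy
        simp only [tgts, tys]
        cases hb : (lt (wd g) j.1).2
        · simp only [bs, hb, Bool.false_eq_true, if_false] at hy ⊢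
          refine mem_PVs_vlab hM g _ ?_
          rw [pp_succ_false hb, mul_inv_rev, inv_inv, mul_smul] at hy
          exact hy
        · simp only [bs, hb, if_true] at hy ⊢
          refine mem_PVs_vlab hM g _ ?_
          rw [pp_succ_true hb, mul_inv_rev, mul_smul, inv_smul_smul]
          exact hy
      · exact absurd hy (notMem_empty _)
  v := Sum.inl
  v_inj := Sum.inl_injective
  PV_v := fun _ => rfl
  e := Sum.inl
  PE_e := fun _ => rfl
  ty_e := fun _ => rfl
  src_e := fun _ => rfl
  tgt_e := fun _ => rfl
  deg2 := by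
    rintro (l | ⟨g, i⟩) x hx
    · fin_cases l
      · refine ⟨(1, true), (1, false), by decide, ?_⟩
        rintro p (rfl | rfl)
        · exact ⟨Sum.inl 2, rfl, Or.inl ⟨rfl, rfl, mem_univ _⟩⟩
        · exact ⟨Sum.inl 2, rfl, Or.inr ⟨rfl, rfl, mem_univ _⟩⟩
      · refine ⟨(0, true), (0, false), by decide, ?_⟩
        rintro p (rfl | rfl)
        · exact ⟨Sum.inl 0, rfl, Or.inl ⟨rfl, rfl, mem_univ _⟩⟩
        · exact ⟨Sum.inl 1, rfl, Or.inr ⟨rfl, rfl, mem_univ _⟩⟩
      · refine ⟨(0, true), (1, true), by decide, ?_⟩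
        rintro p (rfl | rfl)
        · exact ⟨Sum.inl 1, rfl, Or.inl ⟨rfl, rfl, mem_univ _⟩⟩
        · exact ⟨Sum.inl 3, rfl, Or.inl ⟨rfl, rfl, mem_univ _⟩⟩
    · simp only [PVs] at hx
      split_ifs at hx with h
      · rw [mem_preimage] at hx
        obtain ⟨j, hj⟩ : ∃ j, i.1 = j + 1 := ⟨i.1 - 1, by omega⟩
        have hjM : j < M + 1 := by have := i.2; omega
        have hjl : j < (wd g).length := by omega
        refine ⟨((lt (wd g) j).1, !(lt (wd g) j).2), lt (wd g) (j + 1), ?_, ?_⟩
        · intro heq
          have h1 := congrArg Prod.fst heq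
          have h2 := congrArg Prod.snd heq
          simp only at h1 h2
          have h3 := lt_reduced g (i := j) (by omega) h1
          rw [← h2] at h3
          cases hb : (lt (wd g) j).2 <;> rw [hb] at h3 <;> simp at h3
        · rintro p (rfl | rfl)
          · refine ⟨Sum.inr (g, ⟨j, hjM⟩), rfl, ?_⟩
            cases hb : (lt (wd g) j).2
            · left
              refine ⟨by simp, ?_, ?_⟩
              · simp only [srcs, hb, Bool.false_eq_true, if_false]
                rw [← hj]
                exact vlab_eq h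
              · simp only [PEs]
                rw [if_pos hjl, mem_preimage]
                simp only [bs, hb, Bool.false_eq_true, if_false]
                rw [← hj]
                exact hx
            · right
              refine ⟨by simp, ?_, ?_⟩
              · simp only [tgts, hb, if_true]
                rw [← hj]
                exact vlab_eq h
              · simp only [PEs]
                rw [if_pos hjl, mem_preimage]
                simp only [bs, hb, if_true]
                rw [hj, pp_succ_true hb, mul_inv_rev, mul_smul] at hx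
                exact hx
          · refine ⟨Sum.inr (g, i), ?_, ?_⟩
            · simp only [tys, hj]
            · rw [← hj]
              cases hb : (lt (wd g) i.1).2
              · right
                refine ⟨rfl, ?_, ?_⟩
                · simp only [tgts, hb, Bool.false_eq_true, if_false]
                  exact vlab_eq h
                · simp only [PEs]
                  rw [if_pos h.2, mem_preimage]
                  simp only [bs, hb, Bool.false_eq_true, if_false]
                  rw [pp_succ_false hb, mul_inv_rev, inv_inv, mul_smul, smul_inv_smul]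
                  exact hx
              · left
                refine ⟨rfl, ?_, ?_⟩
                · simp only [srcs, hb, if_true]
                  exact vlab_eq h
                · simp only [PEs]
                  rw [if_pos h.2, mem_preimage]
                  simp only [bs, hb, if_true]
                  exact hx
      · exact absurd hx (notMem_empty _)

namespace SheetsOf

theorem walk_drop {E : F2 → Set X} (hE : ME E) {F : Finset F2} {M : ℕ}
    (hM : ∀ g ∈ F, (wd g).length ≤ M) (sV : X → Setoid (mkSheets hE hM).LV) (g : F) {x : X}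
    (hx : x ∈ E g) (n : ℕ) (j : ℕ) (hj : j + n = (wd g).length) :
    (mkSheets hE hM).Walk sV ((wd g).drop j) (pp (wd g) j • x) (vlab M g j) (Sum.inl 0) := by
  induction n generalizing j with
  | zero =>
    have : (wd g).drop j = [] := List.drop_eq_nil_of_le (by omega)
    rw [this]
    have h2 : vlab M g j = Sum.inl 0 := by
      unfold vlab
      rw [if_neg (by omega)]
    rw [h2]
    exact (sV _).refl' _
  | succ n ih =>
    have hjl : j < (wd g).length := by omega
    have hjM : j < M + 1 := by have := hM g g.2; omega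
    have hdrop : (wd g).drop j = lt (wd g) j :: (wd g).drop (j + 1) := by
      rw [List.drop_eq_getElem_cons hjl]
      unfold lt
      rw [List.getD_eq_getElem _ _ hjl]
    have ih' := ih (j + 1) (by omega)
    rw [hdrop]
    have hlt : lt (wd g) j = ((lt (wd g) j).1, (lt (wd g) j).2) := rfl
    cases hb : (lt (wd g) j).2
    · rw [hlt, hb]
      refine ⟨Sum.inr (g, ⟨j, hjM⟩), rfl, ?_, ?_, ?_⟩
      · change _ ∈ PEs E M (Sum.inr (g, (⟨j, hjM⟩ : Fin (M + 1))))
        simp only [PEs]
        rw [if_pos hjl, mem_preimage]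
        simp only [bs, hb, Bool.false_eq_true, if_false]
        rw [pp_succ_false hb, mul_inv_rev, inv_inv, mul_smul, smul_inv_smul, inv_smul_smul]
        exact hx
      · change (sV _) _ (tgts M (Sum.inr (g, (⟨j, hjM⟩ : Fin (M + 1)))))
        simp only [tgts, hb, Bool.false_eq_true, if_false]
        exact (sV _).refl' _
      · change (mkSheets hE hM).Walk sV _ _ (srcs M (Sum.inr (g, (⟨j, hjM⟩ : Fin (M + 1))))) _
        simp only [srcs, hb, Bool.false_eq_true, if_false]
        rw [pp_succ_false hb, mul_smul] at ih'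
        exact ih'
    · rw [hlt, hb]
      refine ⟨Sum.inr (g, ⟨j, hjM⟩), rfl, ?_, ?_, ?_⟩
      · change _ ∈ PEs E M (Sum.inr (g, (⟨j, hjM⟩ : Fin (M + 1))))
        simp only [PEs]
        rw [if_pos hjl, mem_preimage]
        simp only [bs, hb, if_true]
        rw [inv_smul_smul]
        exact hx
      · change (sV _) _ (srcs M (Sum.inr (g, (⟨j, hjM⟩ : Fin (M + 1)))))
        simp only [srcs, hb, if_true]
        exact (sV _).refl' _
      · change (mkSheets hE hM).Walk sV _ _ (tgts M (Sum.inr (g, (⟨j, hjM⟩ : Fin (M + 1))))) _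
        simp only [tgts, hb, if_true]
        rw [pp_succ_true hb, mul_smul] at ih'
        exact ih'

theorem conn_mkSheets {E : F2 → Set X} (hE : ME E) {F : Finset F2} {M : ℕ}
    (hM : ∀ g ∈ F, (wd g).length ≤ M) (sV : X → Setoid (mkSheets hE hM).LV) (g : F) {x : X}
    (hx : x ∈ E g) :
    (mkSheets hE hM).Conn sV g x ((mkSheets hE hM).v 0) ((mkSheets hE hM).v 0) := by
  refine ⟨wd g, mk_wd g, ?_⟩
  have h := walk_drop hE hM sV g hx (wd g).length 0 (by omega)
  have h2 : vlab M g 0 = Sum.inl 0 := by
    unfold vlab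
    rw [if_neg (by omega)]
  rw [h2] at h
  simp only [List.drop_zero, pp, one_smul] at h
  exact h

theorem sum_range_ite (c : ℝ≥0∞) {n M : ℕ} (h : n ≤ M + 1) :
    ∑ j : Fin (M + 1), (if j.1 < n then c else 0) = n * c := by
  rw [Fin.sum_univ_eq_sum_range (fun j => if j < n then c else 0) (M + 1),
    ← Finset.sum_filter]
  have : (Finset.range (M + 1)).filter (fun j => j < n) = Finset.range n := by
    ext j
    simp only [Finset.mem_filter, Finset.mem_range]
    omega
  rw [this, Finset.sum_const, Finset.card_range, nsmul_eq_mul]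

theorem sum_range_ite' (c : ℝ≥0∞) {n M : ℕ} (h : n ≤ M + 1) :
    ∑ j : Fin (M + 1), (if 0 < j.1 ∧ j.1 < n then c else 0) = ((n - 1 : ℕ) : ℝ≥0∞) * c := by
  rw [Fin.sum_univ_eq_sum_range (fun j => if 0 < j ∧ j < n then c else 0) (M + 1),
    ← Finset.sum_filter]
  have : (Finset.range (M + 1)).filter (fun j => 0 < j ∧ j < n) = Finset.Ico 1 n := by
    ext j
    simp only [Finset.mem_filter, Finset.mem_range, Finset.mem_Ico]
    omega
  rw [this, Finset.sum_const, Nat.card_Ico, nsmul_eq_mul]

theorem measure_PVs (μ : Measure X) [SMulInvariantMeasure F2 X μ] (E : F2 → Set X)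
    {F : Finset F2} {M : ℕ} (g : F) (i : Fin (M + 1)) :
    μ (PVs E M (Sum.inr (g, i))) = if 0 < i.1 ∧ i.1 < (wd g).length then μ (E g) else 0 := by
  simp only [PVs]
  split_ifs
  · exact measure_preimage_smul μ _ _
  · exact measure_empty

theorem measure_PEs (μ : Measure X) [SMulInvariantMeasure F2 X μ] (E : F2 → Set X)
    {F : Finset F2} {M : ℕ} (g : F) (i : Fin (M + 1)) :
    μ (PEs E M (Sum.inr (g, i))) = if i.1 < (wd g).length then μ (E g) else 0 := by
  simp only [PEs]
  split_ifs
  · exact measure_preimage_smul μ _ _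
  · exact measure_empty

end SheetsOf

theorem exists_sheets (μ : Measure X) [IsProbabilityMeasure μ] [SMulInvariantMeasure F2 X μ]
    {E : F2 → Set X} (hE : ME E) (hF : ∃ F : Finset F2, ∀ g, g ∉ F → E g = ∅) (hE1 : E 1 = ∅) :
    ∃ S : Sheets X,
      (∀ (sV : X → Setoid S.LV) (g : F2), ∀ x ∈ E g, S.Conn sV g x (S.v 0) (S.v 0)) ∧
      ∑ k, μ (S.PE k) = ∑ l, μ (S.PV l) + 1 + cost μ E := by
  classical
  obtain ⟨F, hF⟩ := hF
  obtain ⟨M, hM⟩ : ∃ M : ℕ, ∀ g ∈ F, (wd g).length ≤ M :=
    ⟨F.sup fun g => (wd g).length, fun g hg => Finset.le_sup (f := fun g => (wd g).length) hg⟩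
  refine ⟨mkSheets hE hM, ?_, ?_⟩
  · intro sV g x hx
    have hg : g ∈ F := by
      by_contra hg
      rw [hF g hg] at hx
      exact notMem_empty _ hx
    exact conn_mkSheets hE hM sV ⟨g, hg⟩ hx
  · have h1 : ∑ k, μ ((mkSheets hE hM).PE k) =
        ∑ k : Fin 4 ⊕ (F × Fin (M + 1)), μ (PEs E M k) := rfl
    have h2 : ∑ k, μ ((mkSheets hE hM).PV k) =
        ∑ k : Fin 3 ⊕ (F × Fin (M + 1)), μ (PVs E M k) := rfl
    rw [h1, h2, Fintype.sum_sum_type, Fintype.sum_sum_type, Fintype.sum_prod_type,
      Fintype.sum_prod_type]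
    have h3 : ∑ x : Fin 4, μ (PEs (F := F) E M (Sum.inl x)) = 4 := by
      have : ∀ x : Fin 4, μ (PEs (F := F) E M (Sum.inl x)) = 1 := fun x => measure_univ
      simp [this]
    have h4 : ∑ x : Fin 3, μ (PVs (F := F) E M (Sum.inl x)) = 3 := by
      have : ∀ x : Fin 3, μ (PVs (F := F) E M (Sum.inl x)) = 1 := fun x => measure_univ
      simp [this]
    have h5 : cost μ E = ∑ g : F, μ (E g) := by
      unfold cost
      rw [tsum_eq_sum (s := F) (fun g hg => by rw [hF g hg, measure_empty])]
      exact (Finset.sum_coe_sort F fun g => μ (E g)).symm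
    rw [h3, h4, h5]
    have h6 : ∀ g : F, ∑ j : Fin (M + 1), μ (PEs E M (Sum.inr (g, j))) =
        ∑ j : Fin (M + 1), μ (PVs E M (Sum.inr (g, j))) + μ (E g) := by
      intro g
      have hlen : (wd g).length ≤ M + 1 := by have := hM g g.2; omega
      simp only [measure_PEs, measure_PVs]
      rw [sum_range_ite _ hlen, sum_range_ite' _ hlen]
      by_cases hg : (wd (g : F2)).length = 0
      · have : (g : F2) = 1 := by
          have h7 := mk_wd (g : F2)
          rw [List.length_eq_zero_iff.1 hg] at h7
          rw [← h7]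
          rfl
        rw [this, hE1, measure_empty]
        simp
      · have h8 : ((wd (g : F2)).length : ℝ≥0∞) = (((wd (g : F2)).length - 1 : ℕ) : ℝ≥0∞) + 1 := by
          have : (wd (g : F2)).length = ((wd (g : F2)).length - 1) + 1 := by omega
          conv_lhs => rw [this]
          push_cast
          rfl
        rw [h8, add_mul, one_mul]
    simp only [h6]
    rw [Finset.sum_add_distrib]
    ring

end Vale.Agent.P189
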