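/-
P189, Step B: a closed family identifies the end labels of every closed walk; hence `v 0 ~ v 1` over
`x` as soon as `(x, a x)` is in the relation generated by `R_C` and the arcs.
-/
import Vale.Agent.P189.Sheets

open MeasureTheory Set
open scoped Pointwise ENNReal

namespace Vale.Agent.P189

namespace Sheets

variable {X : Type} [MulAction F2 X] [MeasurableSpace X] (S : Sheets X)

/-- The group element of a list of letters, first letter applied first. -/
def gw (w : List (Fin 2 × Bool)) : F2 := FreeGroup.mk w.reverse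

theorem gw_nil : gw [] = 1 := rfl

theorem gw_cons_true (s : Fin 2) (w : List (Fin 2 × Bool)) :
    gw ((s, true) :: w) = gw w * ge s := by
  unfold gw
  rw [List.reverse_cons, ← FreeGroup.mul_mk]
  rfl

theorem gw_cons_false (s : Fin 2) (w : List (Fin 2 × Bool)) :
    gw ((s, false) :: w) = gw w * (ge s)⁻¹ := by
  unfold gw
  rw [List.reverse_cons, ← FreeGroup.mul_mk]
  rfl

theorem gw_append (w w' : List (Fin 2 × Bool)) : gw (w ++ w') = gw w' * gw w := by
  unfold gw
  rw [List.reverse_append, ← FreeGroup.mul_mk]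

variable {S}

theorem Walk.start {sV : X → Setoid S.LV} {w : List (Fin 2 × Bool)} {x : X} {l l' m : S.LV}
    (h : sV x m l) (hw : S.Walk sV w x l l') : S.Walk sV w x m l' := by
  match w with
  | [] => exact (sV x).trans h hw
  | (s, true) :: w =>
    obtain ⟨k, h1, h2, h3, h4⟩ := hw
    exact ⟨k, h1, h2, (sV x).trans h h3, h4⟩
  | (s, false) :: w =>
    obtain ⟨k, h1, h2, h3, h4⟩ := hw
    exact ⟨k, h1, h2, (sV x).trans h h3, h4⟩

theorem Walk.append {sV : X → Setoid S.LV} {w w' : List (Fin 2 × Bool)} {x : X}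
    {l m l' : S.LV} (hw : S.Walk sV w x l m) (hw' : S.Walk sV w' (gw w • x) m l') :
    S.Walk sV (w ++ w') x l l' := by
  induction w generalizing x l with
  | nil =>
    rw [gw_nil, one_smul] at hw'
    exact Walk.start hw hw'
  | cons p w ih =>
    obtain ⟨s, b⟩ := p
    cases b
    · obtain ⟨k, h1, h2, h3, h4⟩ := hw
      refine ⟨k, h1, h2, h3, ih h4 ?_⟩
      rwa [gw_cons_false, mul_smul] at hw'
    · obtain ⟨k, h1, h2, h3, h4⟩ := hw
      refine ⟨k, h1, h2, h3, ih h4 ?_⟩
      rwa [gw_cons_true, mul_smul] at hw'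

theorem Walk.exists_symm {sV : X → Setoid S.LV} {w : List (Fin 2 × Bool)} {x : X}
    {l l' : S.LV} (hw : S.Walk sV w x l l') :
    ∃ w', gw w' = (gw w)⁻¹ ∧ S.Walk sV w' (gw w • x) l' l := by
  induction w generalizing x l with
  | nil =>
    refine ⟨[], by simp [gw_nil], ?_⟩
    rw [gw_nil, one_smul]
    exact (sV x).symm hw
  | cons p w ih =>
    obtain ⟨s, b⟩ := p
    cases b
    · obtain ⟨k, h1, h2, h3, h4⟩ := hw
      obtain ⟨w', e, hw'⟩ := ih h4
      refine ⟨w' ++ [(s, true)], ?_, ?_⟩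
      · rw [gw_append, e, gw_cons_true, gw_nil, gw_cons_false, one_mul, mul_inv_rev, inv_inv]
      · rw [gw_cons_false, mul_smul]
        refine Walk.append hw' ?_
        rw [e, inv_smul_smul]
        refine ⟨k, h1, h2, (sV _).refl _, ?_⟩
        rw [smul_inv_smul]
        exact (sV x).symm h3
    · obtain ⟨k, h1, h2, h3, h4⟩ := hw
      obtain ⟨w', e, hw'⟩ := ih h4
      refine ⟨w' ++ [(s, false)], ?_, ?_⟩
      · rw [gw_append, e, gw_cons_false, gw_nil, gw_cons_true, one_mul, mul_inv_rev]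
      · rw [gw_cons_true, mul_smul]
        refine Walk.append hw' ?_
        rw [e, inv_smul_smul]
        refine ⟨k, h1, ?_, (sV _).refl _, ?_⟩
        · rw [inv_smul_smul]; exact h2
        · rw [inv_smul_smul]; exact (sV x).symm h3

theorem Walk.cancel {sV : X → Setoid S.LV} (hcl : S.Closed sV) {M1 M2 : List (Fin 2 × Bool)}
    {s : Fin 2} {b : Bool} {x : X} {l l' : S.LV}
    (hw : S.Walk sV (M1 ++ (s, b) :: (s, !b) :: M2) x l l') : S.Walk sV (M1 ++ M2) x l l' := by
  induction M1 generalizing x l with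
  | nil =>
    cases b
    · obtain ⟨k, h1, h2, h3, k', h1', h2', h3', h4'⟩ := hw
      rw [smul_inv_smul] at h4'
      have h5 := (hcl _ k k' (h1.trans h1'.symm) h2 h2').mp h3'
      rw [h1, smul_inv_smul] at h5
      exact Walk.start ((sV x).trans h3 h5) h4'
    · obtain ⟨k, h1, h2, h3, k', h1', h2', h3', h4'⟩ := hw
      rw [inv_smul_smul] at h4' h2'
      have h5 := (hcl _ k k' (h1.trans h1'.symm) h2 h2').mpr (by rw [h1]; exact h3')
      exact Walk.start ((sV x).trans h3 h5) h4'
  | cons p w ih =>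
    obtain ⟨s', b'⟩ := p
    cases b'
    · obtain ⟨k, h1, h2, h3, h4⟩ := hw
      exact ⟨k, h1, h2, h3, ih h4⟩
    · obtain ⟨k, h1, h2, h3, h4⟩ := hw
      exact ⟨k, h1, h2, h3, ih h4⟩

theorem Walk.red {sV : X → Setoid S.LV} (hcl : S.Closed sV) {L L' : List (Fin 2 × Bool)}
    (h : FreeGroup.Red L L') {x : X} {l l' : S.LV} (hw : S.Walk sV L.reverse x l l') :
    S.Walk sV L'.reverse x l l' := by
  induction h with
  | refl => exact hw
  | tail _ hstep ih =>
    cases hstep with
    | @not L1 L2 s b =>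
      simp only [List.reverse_append, List.reverse_cons, List.append_assoc, List.singleton_append] at ih ⊢
      have := Walk.cancel (S := S) hcl (M1 := L2.reverse) (M2 := L1.reverse) (s := s) (b := !b)
        (x := x) (l := l) (l' := l') (by simpa using ih)
      exact this

variable (S)

theorem Conn.refl (sV : X → Setoid S.LV) (x : X) (l : S.LV) : S.Conn sV 1 x l l :=
  ⟨[], rfl, (sV x).refl l⟩

theorem Conn.trans (sV : X → Setoid S.LV) {g h : F2} {x : X} {l l' l'' : S.LV}
    (h1 : S.Conn sV g x l l') (h2 : S.Conn sV h (g • x) l' l'') :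
    S.Conn sV (h * g) x l l'' := by
  obtain ⟨w, hw, hw1⟩ := h1
  obtain ⟨w', hw', hw1'⟩ := h2
  refine ⟨w ++ w', ?_, ?_⟩
  · change gw (w ++ w') = _
    rw [gw_append]
    change FreeGroup.mk w'.reverse * FreeGroup.mk w.reverse = _
    rw [hw, hw']
  · refine Walk.append hw1 ?_
    change S.Walk sV w' (FreeGroup.mk w.reverse • x) l' l''
    rwa [hw]

theorem Conn.symm (sV : X → Setoid S.LV) {g : F2} {x : X} {l l' : S.LV}
    (h1 : S.Conn sV g x l l') : S.Conn sV g⁻¹ (g • x) l' l := by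
  obtain ⟨w, hw, hw1⟩ := h1
  obtain ⟨w', e, hw'⟩ := Walk.exists_symm hw1
  have hg : gw w = g := hw
  rw [hg] at e hw'
  exact ⟨w', e, hw'⟩

/-- Cancel adjacent inverse letters. -/
theorem conn_one_of_closed {sV : X → Setoid S.LV} (hcl : S.Closed sV) {x : X} {l l' : S.LV}
    (h : S.Conn sV 1 x l l') : sV x l l' := by
  obtain ⟨w, hw, hw1⟩ := h
  have h1 : FreeGroup.Red w.reverse [] := by
    have h2 : FreeGroup.mk w.reverse = FreeGroup.mk [] := hw
    rw [FreeGroup.Red.exact] at h2
    obtain ⟨L, h3, h4⟩ := h2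
    rw [FreeGroup.Red.nil_iff] at h4
    rw [h4] at h3
    exact h3
  have h2 := Walk.red hcl h1 (x := x) (l := l) (l' := l') (by rwa [List.reverse_reverse])
  exact h2

/-- One step along an edge sheet. -/
theorem conn_edge (sV : X → Setoid S.LV) {k : S.LE} {x : X} (hk : x ∈ S.PE k) :
    S.Conn sV (ge (S.ty k)) x (S.src k) (S.tgt k) :=
  ⟨[(S.ty k, true)], rfl, k, rfl, hk, (sV x).refl _, (sV _).refl _⟩

theorem conn_e0 (sV : X → Setoid S.LV) (x : X) :
    S.Conn sV (ge 0) x (S.v 1) (S.v 0) := by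
  have h := conn_edge S sV (k := S.e 0) (x := x) (by rw [S.PE_e]; trivial)
  rwa [S.ty_e, S.src_e, S.tgt_e] at h

theorem conn_e1 (sV : X → Setoid S.LV) (x : X) :
    S.Conn sV (ge 0) x (S.v 2) (S.v 1) := by
  have h := conn_edge S sV (k := S.e 1) (x := x) (by rw [S.PE_e]; trivial)
  rwa [S.ty_e, S.src_e, S.tgt_e] at h

theorem conn_e2 (sV : X → Setoid S.LV) (x : X) :
    S.Conn sV (ge 1) x (S.v 0) (S.v 0) := by
  have h := conn_edge S sV (k := S.e 2) (x := x) (by rw [S.PE_e]; trivial)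
  rwa [S.ty_e, S.src_e, S.tgt_e] at h

theorem conn_e3 (sV : X → Setoid S.LV) (x : X) :
    S.Conn sV (ge 1) x (S.v 2) (S.v 1) := by
  have h := conn_edge S sV (k := S.e 3) (x := x) (by rw [S.PE_e]; trivial)
  rwa [S.ty_e, S.src_e, S.tgt_e] at h

/-- Inverse step, started at an arbitrary point. -/
theorem Conn.symm' (sV : X → Setoid S.LV) {g : F2} {l l' : S.LV}
    (h1 : ∀ x, S.Conn sV g x l l') (x : X) : S.Conn sV g⁻¹ x l' l := by
  have := Conn.symm S sV (h1 (g⁻¹ • x))
  rwa [smul_inv_smul] at this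

/-- Main sheets realise the relation `R_C`: the sheet `v 0` over `x` is joined to `v 0` over `h • x`
for `h ∈ C`. -/
theorem conn_CC (sV : X → Setoid S.LV) {h : F2} (hh : h ∈ CC) (x : X) :
    S.Conn sV h x (S.v 0) (S.v 0) := by
  have key : ∀ h ∈ CC, ∀ x : X, S.Conn sV h x (S.v 0) (S.v 0) := by
    intro h hh
    induction hh using Subgroup.closure_induction with
    | mem g hg =>
      intro x
      rcases hg with rfl | rfl
      · have h1 := Conn.symm' S sV (conn_e0 S sV) x
        have h2 := Conn.symm' S sV (conn_e1 S sV) ((ge 0)⁻¹ • x)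
        have h3 := conn_e3 S sV ((ge 0)⁻¹ • (ge 0)⁻¹ • x)
        have h4 := conn_e0 S sV (ge 1 • (ge 0)⁻¹ • (ge 0)⁻¹ • x)
        have h12 := Conn.trans S sV h1 h2
        have h123 := Conn.trans S sV h12 (by rw [mul_smul]; exact h3)
        have h1234 := Conn.trans S sV h123 (by
          rw [mul_smul, mul_smul]; exact h4)
        have e : ge 0 * (ge 1 * ((ge 0)⁻¹ * (ge 0)⁻¹)) = gb := by
          unfold gb; group
        rwa [e] at h1234
      · exact conn_e2 S sV x
    | one => intro x; exact Conn.refl S sV x _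
    | mul g g' _ _ h1 h2 => intro x; exact Conn.trans S sV (h2 x) (h1 _)
    | inv g _ h1 => intro x; exact Conn.symm' S sV h1 x
  exact key h hh x

theorem facts_of_closed [FreeAct F2 X] (E : F2 → Set X)
    (hconn : ∀ (sV : X → Setoid S.LV) (g : F2), ∀ x ∈ E g, S.Conn sV g x (S.v 0) (S.v 0))
    {sV : X → Setoid S.LV} (hcl : S.Closed sV) {x : X}
    (hx : (RR CC univ ⊔ edge E) x (ge 0 • x)) : sV x (S.v 0) (S.v 1) := by
  have key : ∀ z w : X, (RR CC univ ⊔ edge E) z w →
      ∃ g : F2, w = g • z ∧ S.Conn sV g z (S.v 0) (S.v 0) := by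
    have hrefl : ∀ z : X, ∃ g : F2, z = g • z ∧ S.Conn sV g z (S.v 0) (S.v 0) := fun z =>
      ⟨1, (one_smul _ _).symm, Conn.refl S sV z _⟩
    have htrans : ∀ x y z : X, (∃ g : F2, y = g • x ∧ S.Conn sV g x (S.v 0) (S.v 0)) →
        (∃ g : F2, z = g • y ∧ S.Conn sV g y (S.v 0) (S.v 0)) →
        ∃ g : F2, z = g • x ∧ S.Conn sV g x (S.v 0) (S.v 0) := by
      rintro x y z ⟨g, rfl, h1⟩ ⟨h, rfl, h2⟩
      exact ⟨h * g, (mul_smul _ _ _).symm, Conn.trans S sV h1 h2⟩
    intro z w hzw
    refine sup_induction (r := RR CC univ) (s := edge E) hrefl htrans ?_ ?_ hzw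
    · rintro x y (rfl | ⟨-, -, h, hh, rfl⟩)
      · exact hrefl x
      · exact ⟨h, rfl, conn_CC S sV hh x⟩
    · intro x y hxy
      induction hxy with
      | rel x y h =>
        obtain ⟨g, hg, rfl⟩ := h
        exact ⟨g, rfl, hconn sV g x hg⟩
      | refl x => exact hrefl x
      | symm x y _ ih =>
        obtain ⟨g, rfl, h⟩ := ih
        exact ⟨g⁻¹, (inv_smul_smul _ _).symm, Conn.symm S sV h⟩
      | trans x y z _ _ h1 h2 => exact htrans x y z h1 h2
  obtain ⟨g, hg, hc⟩ := key _ _ hx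
  have hg' : g = ge 0 := (smul_left_cancel_free hg).symm
  subst hg'
  have h1 := Conn.symm S sV (conn_e0 S sV x)
  have h2 := Conn.trans S sV hc h1
  rw [inv_mul_cancel] at h2
  exact conn_one_of_closed S hcl h2

end Sheets

end Vale.Agent.P189
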