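/-
P189, Step B: assembly.
-/
import Vale.Agent.P189.Walk
import Vale.Agent.P189.SheetsOf
import Vale.Agent.P189.Process
import Vale.Agent.P189.Degree
import Vale.Agent.P189.Boundary

open MeasureTheory Set
open scoped Pointwise ENNReal

namespace Vale.Agent.P189

variable {X : Type} [MulAction F2 X] [MeasurableSpace X] [MeasurableConstSMul F2 X]

/-- If `R_C` and the arcs `E` generate all pairs `(x, a x)` then some set `K` with
`1/3 ≤ μ K ≤ 1/2` has boundary at most `2 cost E`. -/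
theorem stepB [FreeAct F2 X] (μ : Measure X) [IsProbabilityMeasure μ]
    [SMulInvariantMeasure F2 X μ]
    (hcover : ∃ Λ : ℕ → Set X, (∀ i, MeasurableSet (Λ i)) ∧ (∀ i, μ (Λ i) ≤ 1 / 12) ∧
      ∀ x, ∃ i, x ∈ Λ i)
    {E : F2 → Set X} (hE : ME E) (hgen : ∀ x, (RR CC univ ⊔ edge E) x (ge 0 • x)) :
    ∃ K : Set X, MeasurableSet K ∧ 1 / 3 ≤ μ K ∧ μ K ≤ 1 / 2 ∧
      μ ({x | ge 0 • x ∈ K ∨ ge 1 • x ∈ K} \ K) ≤ 2 * cost μ E := by
  classical
  obtain ⟨i, hi⟩ := exists_injective_nat F2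
  let En : ℕ → F2 → Set X := fun n g => {z | (g ≠ 1 ∧ i g ≤ n) ∧ z ∈ E g}
  have hEn : ∀ n, ME (En n) := fun n g => (MeasurableSet.const _).inter (hE g)
  have hsub : ∀ n g, En n g ⊆ E g := fun n g z hz => hz.2
  have hEmono : ∀ n n', n ≤ n' → ∀ g, En n g ⊆ En n' g :=
    fun n n' hnn g z hz => ⟨⟨hz.1.1, hz.1.2.trans hnn⟩, hz.2⟩
  have hmono : Monotone fun n => (RR CC (univ : Set X) ⊔ edge (En n)) := by
    intro n n' hnn
    exact sup_le_sup_left (edge_mono (hEmono n n' hnn)) _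
  have hle : RR CC (univ : Set X) ⊔ edge E ≤ ⨆ n, (RR CC (univ : Set X) ⊔ edge (En n)) := by
    refine sup_le (le_iSup_of_le 0 le_sup_left) (edge_le_iff.2 ?_)
    intro g z hz
    by_cases hg : g = 1
    · subst hg
      simp only [one_smul]
      exact Setoid.refl' _ z
    · have h1 : edge (En (i g)) ≤ ⨆ n, (RR CC (univ : Set X) ⊔ edge (En n)) :=
        le_iSup_of_le (i g) le_sup_right
      exact h1 (edge_of_mem (E := En (i g)) ⟨⟨hg, le_rfl⟩, hz⟩)
  have hFmono : Monotone fun n => {x | (RR CC (univ : Set X) ⊔ edge (En n)) x (ge 0 • x)} :=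
    fun n n' hnn x hx => hmono hnn hx
  have hun : (⋃ n, {x | (RR CC (univ : Set X) ⊔ edge (En n)) x (ge 0 • x)}) = univ := by
    refine eq_univ_of_forall fun x => ?_
    obtain ⟨n, hn⟩ := (iSup_mono_apply hmono x (ge 0 • x)).1 (hle (hgen x))
    exact mem_iUnion.2 ⟨n, hn⟩
  have hsup : 1 / 3 < ⨆ n, μ {x | (RR CC (univ : Set X) ⊔ edge (En n)) x (ge 0 • x)} := by
    rw [← hFmono.measure_iUnion, hun, measure_univ]
    exact ENNReal.div_lt_of_lt_mul (by norm_num)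
  obtain ⟨n, hn⟩ := lt_iSup_iff.1 hsup
  have hfin : {g : F2 | i g ≤ n}.Finite := (finite_Iic n).preimage hi.injOn
  obtain ⟨S, hconn, hcount⟩ := exists_sheets μ (hEn n) ⟨hfin.toFinset, fun g hg => by
    ext z
    simp only [mem_empty_iff_false, iff_false]
    rintro ⟨⟨_, h2⟩, _⟩
    exact hg (hfin.mem_toFinset.2 h2)⟩ (by
    ext z
    simp only [mem_empty_iff_false, iff_false]
    rintro ⟨⟨h1, _⟩, _⟩
    exact h1 rfl)
  obtain ⟨st, hinv, h1, h2⟩ := S.process μ hcover hn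
    (fun sV hcl x hx => S.facts_of_closed (En n) hconn hcl hx)
  refine ⟨{x | st.sV x (S.v 0) (S.v 1)}, hinv.measV _ _, h1, h2, ?_⟩
  refine le_trans (S.boundary_le μ st hinv (κ := cost μ (En n)) hcount.le) ?_
  gcongr
  exact cost_mono μ (hsub n)

end Vale.Agent.P189
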