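/-
P189: the lower bound for a free action with a spectral gap.
-/
import Vale.Agent.P189.GData
import Vale.Agent.P189.Step0
import Vale.Agent.P189.Split
import Vale.Agent.P189.StepB

open MeasureTheory Set
open scoped Pointwise ENNReal

namespace Vale.Agent.P189

variable {Γ : Type} [Group Γ] [Countable Γ] {X : Type} [MeasurableSpace X] [MulAction Γ X]
  [MeasurableConstSMul Γ X]

/-- Step B for the subgroup generated by a free pair in `Γ`. -/
theorem stepB' [FreeAct Γ X] (μ : Measure X) [IsProbabilityMeasure μ]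
    [SMulInvariantMeasure Γ X μ] {a c : Γ}
    (hfree : Function.Injective (FreeGroup.lift ![a, c] : FreeGroup (Fin 2) →* Γ))
    (hcover : ∃ Λ : ℕ → Set X, (∀ i, MeasurableSet (Λ i)) ∧ (∀ i, μ (Λ i) ≤ 1 / 12) ∧
      ∀ x, ∃ i, x ∈ Λ i)
    {E : Γ → Set X} (hE : ME E) (hEA : ∀ g, g ∉ Subgroup.closure {a, c} → E g = ∅)
    (hgen : ∀ x, (RR (Subgroup.closure {a * c * a⁻¹ * a⁻¹, c}) univ ⊔ edge E) x (a • x)) :
    ∃ K : Set X, MeasurableSet K ∧ 1 / 3 ≤ μ K ∧ μ K ≤ 1 / 2 ∧
      μ ({x | a • x ∈ K ∨ c • x ∈ K} \ K) ≤ 2 * cost μ E := by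
  let φ : F2 →* Γ := FreeGroup.lift ![a, c]
  letI inst : MulAction F2 X := MulAction.compHom X φ
  have hsm : ∀ (w : F2) (x : X), w • x = φ w • x := fun _ _ => rfl
  have hφa : φ (ge 0) = a := by simp [φ]
  have hφc : φ (ge 1) = c := by simp [φ]
  have hφb : φ gb = a * c * a⁻¹ * a⁻¹ := by simp [gb, hφa, hφc]
  haveI : MeasurableConstSMul F2 X := ⟨fun w => measurable_const_smul (φ w)⟩
  haveI : SMulInvariantMeasure F2 X μ :=
    ⟨fun w s hs => measure_preimage_smul_of_nullMeasurableSet hs.nullMeasurableSet (φ w)⟩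
  haveI : FreeAct F2 X := ⟨fun w x h => by
    have := FreeAct.free (𝒢 := Γ) (Z := X) (φ w) x h
    exact hfree (by simpa [φ] using this)⟩
  let E' : F2 → Set X := fun w => E (φ w)
  have hE' : ME E' := fun w => hE (φ w)
  have hcost : cost μ E' ≤ cost μ E :=
    ENNReal.tsum_comp_le_tsum_of_injective hfree (fun g => μ (E g))
  have hrange : ∀ g ∈ Subgroup.closure {a, c}, ∃ w : F2, φ w = g := by
    intro g hg
    have : Subgroup.closure {a, c} ≤ φ.range := by
      rw [Subgroup.closure_le]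
      rintro x (rfl | rfl)
      · exact ⟨ge 0, hφa⟩
      · exact ⟨ge 1, hφc⟩
    exact this hg
  have hrangeC : ∀ g ∈ Subgroup.closure {a * c * a⁻¹ * a⁻¹, c}, ∃ w ∈ CC, φ w = g := by
    intro g hg
    have : Subgroup.closure {a * c * a⁻¹ * a⁻¹, c} ≤ CC.map φ := by
      rw [Subgroup.closure_le]
      rintro x (rfl | rfl)
      · exact ⟨gb, Subgroup.subset_closure (by simp), hφb⟩
      · exact ⟨ge 1, Subgroup.subset_closure (by simp), hφc⟩
    exact this hg
  have hle : RR (Subgroup.closure {a * c * a⁻¹ * a⁻¹, c}) univ ⊔ edge E ≤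
      RR (𝒢 := F2) CC univ ⊔ edge E' := by
    refine sup_le ?_ ?_
    · refine le_trans ?_ le_sup_left
      rintro z w (rfl | ⟨-, -, h, hh, rfl⟩)
      · exact Or.inl rfl
      · obtain ⟨u, hu, rfl⟩ := hrangeC h hh
        exact Or.inr ⟨mem_univ _, mem_univ _, u, hu, rfl⟩
    · refine le_trans ?_ le_sup_right
      rw [edge_le_iff]
      intro g z hz
      by_cases hg : g ∈ Subgroup.closure {a, c}
      · obtain ⟨w, rfl⟩ := hrange g hg
        exact edge_of_mem (E := E') (g := w) hz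
      · rw [hEA g hg] at hz
        exact absurd hz (notMem_empty _)
  obtain ⟨K, hK, h1, h2, h3⟩ := stepB (X := X) μ hcover hE' (fun x => by
    have := hle (hgen x)
    rwa [hsm, hφa])
  refine ⟨K, hK, h1, h2, ?_⟩
  have : {x | a • x ∈ K ∨ c • x ∈ K} = {x | ge 0 • x ∈ K ∨ ge 1 • x ∈ K} := by
    ext x; simp only [mem_setOf_eq, hsm, hφa, hφc]
  rw [this]
  exact h3.trans (by gcongr)

theorem lower_bound [FreeAct Γ X] (D : GData Γ) (μ : Measure X) [IsProbabilityMeasure μ]
    [SMulInvariantMeasure Γ X μ]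
    {lam : X → ℝ≥0∞} (hlam : Measurable lam) (hfin : ∀ x, lam x ≠ ∞)
    (hinj : ∀ (g : Γ) x, lam (g • x) = lam x → g = 1)
    {η : ℝ≥0∞}
    (hgap : ∀ K : Set X, MeasurableSet K → 1 / 3 ≤ μ K → μ K ≤ 1 / 2 →
      η ≤ μ ({x | D.a • x ∈ K ∨ D.c • x ∈ K} \ K))
    {E : Γ → Set X} (hE : ME E) (hgen : ∀ (x : X) (g : Γ), edge E x (g • x)) :
    1 + η / 2 ≤ cost μ E := by
  set A : Subgroup Γ := Subgroup.closure {D.a, D.c} with hA
  set G : Subgroup Γ := Subgroup.closure {D.a * D.c * D.a⁻¹ * D.a⁻¹, D.c, D.t} with hG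
  have ha : D.a ∈ A := Subgroup.subset_closure (by simp)
  have hc : D.c ∈ A := Subgroup.subset_closure (by simp)
  have htG : D.t ∈ G := Subgroup.subset_closure (by simp)
  have hcG : D.c ∈ G := Subgroup.subset_closure (by simp)
  have hAG : A ⊔ G = ⊤ := by
    rw [eq_top_iff, ← D.gen, Subgroup.closure_le]
    rintro x (rfl | rfl | rfl)
    · exact (le_sup_left : A ≤ A ⊔ G) ha
    · exact (le_sup_left : A ≤ A ⊔ G) hc
    · exact (le_sup_right : G ≤ A ⊔ G) htG
  have haG : Subgroup.closure (insert D.a (G : Set Γ)) = ⊤ := by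
    rw [eq_top_iff, ← D.gen, Subgroup.closure_le]
    rintro x (rfl | rfl | rfl)
    · exact Subgroup.subset_closure (by simp)
    · exact Subgroup.subset_closure (by simp [hcG])
    · exact Subgroup.subset_closure (by simp [htG])
  have ha1 : D.a ≠ 1 := by
    intro h
    have h1 : D.θ D.a = 1 := by rw [h, map_one]
    rw [D.θa] at h1
    have h2 : (1 : ℤ) = 0 := Multiplicative.ofAdd.injective h1
    exact absurd h2 one_ne_zero
  have key : ∀ ε : ℝ≥0∞, ε ≠ 0 → ε ≠ ∞ → 1 + η / 2 ≤ cost μ E + 3 * ε := by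
    intro ε hε hεt
    obtain ⟨E1, hE1, hc1, hg1⟩ := step0 (Z := X) μ hlam hfin hinj htG D.ht hE hgen hε
    obtain ⟨E2, hE2, hF2, h12, hc2, hg2⟩ := finite_reduction (Z := X) μ ha1 haG hE1 hg1 hε
    obtain ⟨E3, hE3, hA3, hc3, hg3⟩ :=
      relative_le (X := X) μ hlam hfin hinj D.nf hAG hE2 hF2 h12 hg2 hε
    have hcov := exists_small_cover (Z := X) μ hlam hfin hinj D.ht
      (ε := 1 / 12) (by simp)
    obtain ⟨K, hK, h1, h2, h3⟩ := stepB' (X := X) μ D.free hcov hE3 hA3 (fun x => by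
      have := hg3 x D.a ha
      rwa [D.inter] at this)
    have h4 := (hgap K hK h1 h2).trans h3
    have h5 : η / 2 ≤ cost μ E3 := by
      rw [ENNReal.div_le_iff (by simp) (by simp), mul_comm]
      exact h4
    calc 1 + η / 2 ≤ 1 + (cost μ E1 + ε + ε) := by
          gcongr
          exact h5.trans (hc3.trans (by gcongr))
      _ = (cost μ E1 + 1) + (ε + ε) := by ring
      _ ≤ (cost μ E + ε) + (ε + ε) := by gcongr
      _ = cost μ E + 3 * ε := by ring
  by_cases hinf : cost μ E = ∞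
  · rw [hinf]; exact le_top
  refine ENNReal.le_of_forall_pos_le_add ?_
  intro δ hδ _
  have := key (δ / 3) (by simp [hδ.ne', ENNReal.div_eq_zero_iff]) (by
    exact (ENNReal.div_lt_top (by simp) (by simp)).ne)
  refine this.trans ?_
  gcongr
  rw [ENNReal.mul_div_cancel (by simp) (by simp)]

end Vale.Agent.P189
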