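import Vale.Agent.P189.Defs

/-!
# P189: passing to an everywhere free, everywhere generated model
-/

namespace Vale.Agent.P189

open MeasureTheory
open scoped ENNReal

/-- One step of the arc system `E`: `x — g • x` for `x ∈ E g`. -/
def ArcStep {G X : Type} [SMul G X] (E : G → Set X) (x y : X) : Prop :=
  ∃ g : G, x ∈ E g ∧ y = g • x

section

variable {Γ : Type} [Group Γ] {X : Type} [MulAction Γ X]

/-- The action on an invariant set. -/
@[reducible] def subAction (X0 : Set X) (hinv : ∀ (g : Γ) (x : X), x ∈ X0 → g • x ∈ X0) :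
    MulAction Γ X0 where
  smul g x := ⟨g • x.1, hinv g x.1 x.2⟩
  one_smul x := Subtype.ext (one_smul Γ x.1)
  mul_smul g h x := Subtype.ext (mul_smul g h x.1)

variable [Countable Γ] [MeasurableSpace X] {μ : Measure X}

/-- There is an invariant conull Borel set on which the action is free and `Φ` generates. -/
theorem exists_free_set (hp : IsPmp Γ μ) (hf : EssFree Γ μ)
    {Φ : ℕ → PartialAut μ} (hgen : Generates Γ Φ) :
    ∃ X0 : Set X, MeasurableSet X0 ∧ (∀ (g : Γ) (x : X), x ∈ X0 → g • x ∈ X0) ∧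
      μ X0ᶜ = 0 ∧ (∀ x ∈ X0, ∀ g : Γ, g • x = x → g = 1) ∧
      (∀ x ∈ X0, ∀ g : Γ, Relation.EqvGen (Step Φ) x (g • x)) := by
  classical
  let N : Set X := {x | ¬ ∀ g : Γ, Relation.EqvGen (Step Φ) x (g • x)}
    ∪ ⋃ (g : Γ) (_ : g ≠ 1), {x | g • x = x}
  have hN : μ N = 0 := by
    refine measure_union_null hgen ?_
    refine measure_iUnion_null fun g => measure_iUnion_null fun hg => hf g hg
  let M : Set X := toMeasurable μ N
  have hM : μ M = 0 := by rw [measure_toMeasurable]; exact hN
  have hMm : MeasurableSet M := measurableSet_toMeasurable _ _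
  let P : Set X := ⋃ g : Γ, (fun x : X => g • x) ⁻¹' M
  have hPm : MeasurableSet P := MeasurableSet.iUnion fun g => (hp g).measurable hMm
  have hP0 : μ P = 0 := by
    refine measure_iUnion_null fun g => ?_
    rw [(hp g).measure_preimage hMm.nullMeasurableSet]
    exact hM
  have hsub : ∀ x ∉ P, x ∉ N := by
    intro x hx hxN
    apply hx
    refine Set.mem_iUnion.mpr ⟨1, ?_⟩
    show (1 : Γ) • x ∈ M
    rw [one_smul]
    exact subset_toMeasurable μ N hxN
  refine ⟨Pᶜ, hPm.compl, ?_, ?_, ?_, ?_⟩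
  · intro g x hx hgx
    apply hx
    obtain ⟨h, hh⟩ := Set.mem_iUnion.mp hgx
    refine Set.mem_iUnion.mpr ⟨h * g, ?_⟩
    show (h * g) • x ∈ M
    rw [mul_smul]
    exact hh
  · rw [compl_compl]; exact hP0
  · intro x hx g hg
    by_contra hne
    exact hsub x hx (Or.inr (Set.mem_iUnion₂.mpr ⟨g, hne, hg⟩))
  · intro x hx
    by_contra hne
    exact hsub x hx (Or.inl hne)

end

section

variable {Γ : Type} [Group Γ] [Countable Γ] {X : Type} [MeasurableSpace X]
  [StandardBorelSpace X] [MulAction Γ X] {μ : Measure X} [IsProbabilityMeasure μ]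

/-- **Restriction lemma.**  A lower bound for arc systems of everywhere free, everywhere generated
actions (which inherit the set inequalities `gap` from `X`) is a lower bound for the cost. -/
theorem le_cost_of_arc_bound (hp : IsPmp Γ μ) (hf : EssFree Γ μ) (a c : Γ) (η β : ℝ≥0∞)
    (gap : ∀ K : Set X, MeasurableSet K → 1 / 3 ≤ μ K → μ K ≤ 1 / 2 →
      μ K + η ≤ μ (K ∪ (fun x => a • x) ⁻¹' K ∪ (fun x => c • x) ⁻¹' K))
    (LB : ∀ (Y : Type) [MeasurableSpace Y] [MulAction Γ Y] [MeasurableConstSMul Γ Y]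
      (ν : Measure Y) [IsProbabilityMeasure ν] [SMulInvariantMeasure Γ Y ν]
      (lam : Y → ℝ≥0∞) (_ : Measurable lam) (_ : ∀ x, lam x < ⊤)
      (_ : ∀ (g : Γ) (x : Y), lam (g • x) = lam x → g = 1)
      (_ : ∀ K : Set Y, MeasurableSet K → 1 / 3 ≤ ν K → ν K ≤ 1 / 2 →
        ν K + η ≤ ν (K ∪ (fun x => a • x) ⁻¹' K ∪ (fun x => c • x) ⁻¹' K))
      (E : Γ → Set Y) (_ : ∀ g, MeasurableSet (E g))
      (_ : ∀ (x : Y) (g : Γ), Relation.EqvGen (ArcStep E) x (g • x)),
      β ≤ ∑' g, ν (E g)) :
    β ≤ Cost Γ μ := by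
  classical
  refine le_iInf fun Φ => le_iInf fun hΦ => le_iInf fun hgen => ?_
  obtain ⟨X0, hX0, hinv, hnull, hfree, hconn⟩ := exists_free_set hp hf hgen
  letI : MulAction Γ X0 := subAction X0 hinv
  have hval : ∀ (g : Γ) (x : X0), ((g • x : X0) : X) = g • (x : X) := fun g x => rfl
  have hemb : MeasurableEmbedding (Subtype.val : X0 → X) := MeasurableEmbedding.subtype_coe hX0
  let ν : Measure X0 := μ.comap Subtype.val
  have hν : ∀ S : Set X0, ν S = μ (Subtype.val '' S) := fun S => hemb.comap_apply μ S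
  have hν1 : ∀ S : Set X, ν (Subtype.val ⁻¹' S) = μ S := by
    intro S
    rw [hν, Subtype.image_preimage_coe]
    have h1 : μ (X0 ∩ S) ≤ μ S := measure_mono Set.inter_subset_right
    refine le_antisymm h1 ?_
    calc μ S ≤ μ ((X0 ∩ S) ∪ X0ᶜ) := measure_mono (by
            intro x hx
            by_cases h : x ∈ X0
            · exact Or.inl ⟨h, hx⟩
            · exact Or.inr h)
      _ ≤ μ (X0 ∩ S) + μ X0ᶜ := measure_union_le _ _
      _ = μ (X0 ∩ S) := by rw [hnull, add_zero]
  haveI : IsProbabilityMeasure ν := ⟨by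
    have := hν1 Set.univ
    rw [Set.preimage_univ] at this
    rw [this]; exact measure_univ⟩
  haveI : MeasurableConstSMul Γ X0 := ⟨fun g => by
    refine Measurable.subtype_mk ?_
    exact (hp g).measurable.comp measurable_subtype_coe⟩
  haveI : SMulInvariantMeasure Γ X0 ν := ⟨fun g S hS => by
    have hS' : MeasurableSet (Subtype.val '' S) := hemb.measurableSet_image.mpr hS
    have h1 : (fun x : X0 => g • x) ⁻¹' S = Subtype.val ⁻¹' ((fun x : X => g • x) ⁻¹' (Subtype.val '' S)) := by
      ext x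
      constructor
      · intro hx
        exact ⟨g • x, hx, rfl⟩
      · rintro ⟨y, hy, hxy⟩
        have : y = g • x := Subtype.ext hxy
        show g • x ∈ S
        rw [← this]; exact hy
    rw [h1, hν1, (hp g).measure_preimage hS'.nullMeasurableSet, hν]⟩
  let lam : X0 → ℝ≥0∞ := fun x => ENNReal.ofReal (Real.exp (embeddingReal X (x : X)))
  have hlam : Measurable lam := by
    refine ENNReal.measurable_ofReal.comp (Real.measurable_exp.comp ?_)
    exact (measurableEmbedding_embeddingReal X).measurable.comp measurable_subtype_coe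
  have hlamfree : ∀ (g : Γ) (x : X0), lam (g • x) = lam x → g = 1 := by
    intro g x h
    have h1 : Real.exp (embeddingReal X ((g • x : X0) : X)) = Real.exp (embeddingReal X (x : X)) := by
      have := congrArg ENNReal.toReal h
      simpa [lam, ENNReal.toReal_ofReal, Real.exp_nonneg] using this
    have h2 := (measurableEmbedding_embeddingReal X).injective (Real.exp_injective h1)
    exact hfree x x.2 g h2
  have hgapν : ∀ K : Set X0, MeasurableSet K → 1 / 3 ≤ ν K → ν K ≤ 1 / 2 →
        ν K + η ≤ ν (K ∪ (fun x => a • x) ⁻¹' K ∪ (fun x => c • x) ⁻¹' K) := by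
    intro K hK h1 h2
    have hK' : MeasurableSet (Subtype.val '' K) := hemb.measurableSet_image.mpr hK
    have h3 := gap (Subtype.val '' K) hK' (by rwa [hν] at h1) (by rwa [hν] at h2)
    rw [← hν, ← hν1 (_ ∪ _ ∪ _)] at h3
    refine h3.trans (measure_mono ?_)
    rintro x ((⟨y, hy, hxy⟩ | ⟨y, hy, hxy⟩) | ⟨y, hy, hxy⟩)
    · left; left
      rwa [← Subtype.ext hxy]
    · left; right
      have : y = a • x := Subtype.ext hxy
      show a • x ∈ K
      rwa [← this]
    · right
      have : y = c • x := Subtype.ext hxy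
      show c • x ∈ K
      rwa [← this]
  -- the arc system
  let F : Γ → ℕ → Set X := fun g i => {x | x ∈ (Φ i).dom ∧ (Φ i).map x = g • x}
  have hFm : ∀ g i, MeasurableSet (F g i) := by
    intro g i
    exact (Φ i).dom_meas.inter (measurableSet_eq_fun (Φ i).preserving.measurable (hp g).measurable)
  let E : Γ → Set X0 := fun g => ⋃ i, (Subtype.val ⁻¹' F g i)
  have hE : ∀ g, MeasurableSet (E g) := fun g =>
    MeasurableSet.iUnion fun i => measurable_subtype_coe (hFm g i)
  have hEgen : ∀ (x : X0) (g : Γ), Relation.EqvGen (ArcStep E) x (g • x) := by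
    have key : ∀ x y : X, Relation.EqvGen (Step Φ) x y →
        (x ∈ X0 ↔ y ∈ X0) ∧ ∀ (hx : x ∈ X0) (hy : y ∈ X0),
          Relation.EqvGen (ArcStep E) (⟨x, hx⟩ : X0) ⟨y, hy⟩ := by
      intro x y hxy
      induction hxy with
      | rel x y h =>
        obtain ⟨i, hi, hxy⟩ := h
        obtain ⟨g, hg⟩ := hΦ i x hi
        have hyg : y = g • x := by rw [← hxy, hg]
        refine ⟨⟨fun hx => by rw [hyg]; exact hinv g x hx, fun hy => ?_⟩, fun hx hy => ?_⟩
        · have := hinv g⁻¹ y hy
          rwa [hyg, inv_smul_smul] at this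
        · refine Relation.EqvGen.rel _ _ ⟨g, Set.mem_iUnion.mpr ⟨i, hi, hg⟩, Subtype.ext hyg⟩
      | refl x => exact ⟨Iff.rfl, fun hx hy => Relation.EqvGen.refl _⟩
      | symm x y _ ih =>
        exact ⟨ih.1.symm, fun hx hy => Relation.EqvGen.symm _ _ (ih.2 hy hx)⟩
      | trans x y z _ _ ih1 ih2 =>
        exact ⟨ih1.1.trans ih2.1, fun hx hz =>
          Relation.EqvGen.trans _ _ _ (ih1.2 hx (ih1.1.mp hx)) (ih2.2 (ih1.1.mp hx) hz)⟩
    intro x g
    exact (key x (g • x) (hconn x x.2 g)).2 x.2 (g • x).2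
  refine (LB X0 ν lam hlam (fun x => ENNReal.ofReal_lt_top) hlamfree hgapν E hE hEgen).trans ?_
  calc ∑' g, ν (E g) ≤ ∑' g, ∑' i, ν (Subtype.val ⁻¹' F g i) :=
        ENNReal.tsum_le_tsum fun g => measure_iUnion_le _
    _ = ∑' i, ∑' g, ν (Subtype.val ⁻¹' F g i) := ENNReal.tsum_comm
    _ = ∑' i, ν (⋃ g, (Subtype.val ⁻¹' F g i)) := by
        congr 1; ext i
        rw [measure_iUnion]
        · intro g h hgh
          rw [Function.onFun, Set.disjoint_left]
          rintro x ⟨_, hxg⟩ ⟨_, hxh⟩
          apply hgh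
          have h1 : (h⁻¹ * g) • (x : X) = x := by
            rw [mul_smul, ← hxg, hxh, inv_smul_smul]
          have := hfree x x.2 _ h1
          exact (inv_mul_eq_one.mp this).symm
        · intro g
          exact measurable_subtype_coe (hFm g i)
    _ ≤ ∑' i, ν (Subtype.val ⁻¹' (Φ i).dom) := by
        refine ENNReal.tsum_le_tsum fun i => measure_mono ?_
        refine Set.iUnion_subset fun g => ?_
        intro x hx
        exact hx.1
    _ = graphingCost Φ := by
        unfold graphingCost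
        congr 1; ext i
        exact hν1 _

end

end Vale.Agent.P189
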