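import Vale.Agent.P189.LowerBound
import Vale.Agent.P189.Gap
import Vale.Agent.P189.Restrict
import Vale.Agent.P189.Cheap

/-!
# P189: assembly
-/

namespace Vale.Agent.P189

open MeasureTheory
open scoped ENNReal

variable {Γ : Type} [Group Γ]

theorem lift_bool_injective {a c : Γ}
    (h : Function.Injective (FreeGroup.lift ![a, c] : FreeGroup (Fin 2) →* Γ)) :
    Function.Injective (FreeGroup.lift (fun b : Bool => cond b a c) : FreeGroup Bool →* Γ) := by
  let e : Bool ≃ Fin 2 :=
    { toFun := fun b => cond b 0 1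
      invFun := fun i => if i = 0 then true else false
      left_inv := by intro b; cases b <;> simp
      right_inv := by intro i; fin_cases i <;> simp }
  have h1 : (FreeGroup.lift (fun b : Bool => cond b a c) : FreeGroup Bool →* Γ)
      = (FreeGroup.lift ![a, c] : FreeGroup (Fin 2) →* Γ).comp
        (FreeGroup.freeGroupCongr e).toMonoidHom := by
    ext b
    cases b <;> simp [e]
  rw [h1]
  exact h.comp (FreeGroup.freeGroupCongr e).injective

theorem GData.infinite (D : GData Γ) : Infinite Γ := by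
  refine Infinite.of_injective (fun n : ℕ => D.t ^ n) ?_
  rw [injective_pow_iff_not_isOfFinOrder, isOfFinOrder_iff_zpow_eq_one]
  rintro ⟨n, hn, h⟩
  exact D.ht n hn h

/-- The Bernoulli shift has cost at least `1 + 1/216`. -/
theorem bern_cost_ge [Countable Γ] (D : GData Γ) :
    letI := shiftAction (Γ := Γ)
    1 + (1 / 108) / 2 ≤ Cost Γ (bern Γ) := by
  letI := shiftAction (Γ := Γ)
  haveI := D.infinite
  refine le_cost_of_arc_bound shift_isPmp shift_essFree D.a D.c (1 / 108) _
    (bern_gap D.a D.c (lift_bool_injective D.free)) ?_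
  intro Y _ _ _ ν _ _ lam hlam hfin hinj hgap E hE hgen
  haveI : FreeAct Γ Y := ⟨fun g z h => hinj g z (by rw [h])⟩
  refine lower_bound D ν hlam (fun x => (hfin x).ne) hinj ?_ hE hgen
  intro K hK h1 h2
  have h3 := hgap K hK h1 h2
  have h4 : ν (K ∪ (fun x => D.a • x) ⁻¹' K ∪ (fun x => D.c • x) ⁻¹' K)
      ≤ ν K + ν ({x | D.a • x ∈ K ∨ D.c • x ∈ K} \ K) := by
    refine (measure_mono ?_).trans (measure_union_le _ _)
    rintro x ((hx | hx) | hx)
    · exact Or.inl hx
    · by_cases hk : x ∈ K
      · exact Or.inl hk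
      · exact Or.inr ⟨Or.inl hx, hk⟩
    · by_cases hk : x ∈ K
      · exact Or.inl hk
      · exact Or.inr ⟨Or.inr hx, hk⟩
  exact (ENNReal.add_le_add_iff_left (measure_ne_top ν K)).mp (h3.trans h4)

/-- The product action has cost at most `1`. -/
theorem circle_cost_le (D : GData Γ) (τ : Γ →* Multiplicative ℤ)
    (hτ : τ D.t = Multiplicative.ofAdd 1) :
    letI := shiftAction (Γ := Γ)
    letI := circleAction (X := Γ → Bool) D.θ τ
    Cost Γ (circleMeasure (bern Γ)) ≤ 1 := by
  letI := shiftAction (Γ := Γ)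
  exact cheap shift_isPmp D.a D.c D.t D.gen D.comm_c D.comm_b D.θ τ D.θa D.θc hτ

/-- Every essentially free p.m.p. action of such a group has cost at least `1`. -/
theorem one_le_Cost [Countable Γ] (D : GData Γ) {X : Type} [MeasurableSpace X]
    [StandardBorelSpace X] [MulAction Γ X] {μ : Measure X} [IsProbabilityMeasure μ]
    (hp : IsPmp Γ μ) (hf : EssFree Γ μ) : 1 ≤ Cost Γ μ := by
  refine le_cost_of_arc_bound hp hf 1 1 0 1 (fun K _ _ _ => ?_) ?_
  · rw [add_zero]
    exact measure_mono (fun x hx => Or.inl (Or.inl hx))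
  · intro Y _ _ _ ν _ _ lam hlam hfin hinj _ E hE hgen
    haveI : FreeAct Γ Y := ⟨fun g z h => hinj g z (by rw [h])⟩
    refine ENNReal.le_of_forall_pos_le_add fun ε hε _ => ?_
    obtain ⟨E', _, h1, _⟩ := step0 (Z := Y) ν hlam (fun x => (hfin x).ne) hinj
      (Subgroup.mem_top D.t) D.ht (E := E) hE hgen (ε := (ε : ℝ≥0∞)) (by simpa using hε.ne')
    exact le_add_self.trans h1

/-- The product action has cost exactly `1`. -/
theorem circle_cost_eq [Countable Γ] (D : GData Γ) (τ : Γ →* Multiplicative ℤ)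
    (hτ : τ D.t = Multiplicative.ofAdd 1) :
    letI := shiftAction (Γ := Γ)
    letI := circleAction (X := Γ → Bool) D.θ τ
    Cost Γ (circleMeasure (bern Γ)) = 1 := by
  haveI := D.infinite
  haveI := circle_prob
  letI act1 := shiftAction (Γ := Γ)
  letI act2 := circleAction (X := Γ → Bool) D.θ τ
  exact le_antisymm (circle_cost_le D τ hτ)
    (one_le_Cost D (circle_isPmp shift_isPmp D.θ τ) (circle_essFree shift_essFree D.θ τ))

/-- **A group with such data does not have fixed price.** -/
theorem not_fixedPrice [Countable Γ] (D : GData Γ) (τ : Γ →* Multiplicative ℤ)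
    (hτ : τ D.t = Multiplicative.ofAdd 1) : ¬ FixedPrice Γ := by
  intro hfp
  haveI := D.infinite
  haveI := circle_prob
  letI act1 := shiftAction (Γ := Γ)
  letI act2 := circleAction (X := Γ → Bool) D.θ τ
  have h := hfp (Γ → Bool) ((Γ → Bool) × UnitAddCircle × UnitAddCircle)
    (bern Γ) (circleMeasure (bern Γ)) shift_isPmp (circle_isPmp shift_isPmp D.θ τ)
    shift_essFree (circle_essFree shift_essFree D.θ τ)
  have h1 := bern_cost_ge D
  have h2 := circle_cost_le D τ hτ
  rw [h] at h1
  have h3 := h1.trans h2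
  have h4 : (1 : ℝ≥0∞) < 1 + (1 / 108) / 2 := by
    refine ENNReal.lt_add_right (by norm_num) ?_
    simp [ENNReal.div_eq_zero_iff]
  exact absurd (h4.trans_le h3) (lt_irrefl _)

end Vale.Agent.P189
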