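import Mathlib

/-!
# P189: the ping-pong inequality for free actions of the free group on two generators
-/

namespace Vale.Agent.P189

open FreeGroup

/-- For a free action there is an equivariant map to the group. -/
theorem exists_equivariant {S : Type*} {G : Type*} [Group G] [MulAction G S]
    (hfree : ∀ (g : G) (s : S), g • s = s → g = 1) :
    ∃ W : S → G, ∀ g s, W (g • s) = g * W s := by
  classical
  letI : Setoid S := MulAction.orbitRel G S
  have key : ∀ s : S, ∃ g : G,
      g • (Quotient.out (Quotient.mk (MulAction.orbitRel G S) s) : S) = s := by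
    intro s
    have h := Quotient.exact (Quotient.out_eq (Quotient.mk (MulAction.orbitRel G S) s))
    exact (MulAction.orbitRel G S).symm h
  choose W hW using key
  refine ⟨W, fun g s => ?_⟩
  have h1 := hW (g • s)
  have hq : (Quotient.mk (MulAction.orbitRel G S) (g • s))
      = (Quotient.mk (MulAction.orbitRel G S) s) := by
    apply Quotient.sound
    exact ⟨g, rfl⟩
  rw [hq] at h1
  have h2 := hW s
  set r := (Quotient.out (Quotient.mk (MulAction.orbitRel G S) s) : S) with hr
  have h3 : (W (g • s))⁻¹ • ((g * W s) • r) = r := by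
    rw [mul_smul, h2, inv_smul_eq_iff, h1]
  have h4 := hfree ((W (g • s))⁻¹ * (g * W s)) r (by rw [mul_smul, h3])
  have : g * W s = W (g • s) := by
    have := congrArg (fun z => W (g • s) * z) h4
    simpa using this
  exact this.symm

/-- **Ping-pong inequality.** -/
theorem pingpong {S : Type*} [MulAction (FreeGroup Bool) S]
    (hfree : ∀ (g : FreeGroup Bool) (s : S), g • s = s → g = 1)
    (φ : S → ℝ) (hφ : Summable fun s => φ s ^ 2) :
    ∑' s, φ s ^ 2 ≤ 6 * (∑' s, (φ (of true • s) - φ s) ^ 2
      + ∑' s, (φ (of false • s) - φ s) ^ 2) := by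
  classical
  obtain ⟨W, hW⟩ := exists_equivariant hfree
  -- sets
  let U : Bool × Bool → Set S := fun w => {s | W s ∈ startsWith w}
  have hdisj : ∀ w w' : Bool × Bool, w ≠ w' → Disjoint (U w) (U w') := by
    intro w w' hne
    rw [Set.disjoint_left]
    intro s hs hs'
    have := startsWith.disjoint_iff_ne.mpr hne
    exact (Set.disjoint_left.mp this) hs hs'
  let q : S → ℝ := fun s => φ s ^ 2
  have hq0 : ∀ s, 0 ≤ q s := fun s => sq_nonneg _
  have hsum_ind : ∀ T : Set S, Summable (T.indicator q) := fun T => hφ.indicator T
  -- translation invariance of sums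
  have htrans : ∀ (g : FreeGroup Bool) (f : S → ℝ), ∑' s, f (g • s) = ∑' s, f s := by
    intro g f
    exact (MulAction.toPerm g).tsum_eq f
  have hstrans : ∀ (g : FreeGroup Bool) (f : S → ℝ), Summable f → Summable (fun s => f (g • s)) := by
    intro g f hf
    exact (MulAction.toPerm g).summable_iff.mpr hf
  -- main inequality for one generator
  have main : ∀ x : Bool, ∑' s, q s ≤ (4/3) * (∑' s, (U (x, true)).indicator q s
      + ∑' s, (U (x, false)).indicator q s) + 4 * ∑' s, (φ (of x • s) - φ s) ^ 2 := by
    intro x
    have hd : Summable (fun s => (φ (of x • s) - φ s) ^ 2) := by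
      refine Summable.of_nonneg_of_le (fun s => sq_nonneg _) (fun s => ?_)
        (((hstrans (of x) q hφ).mul_left 2).add (hφ.mul_left 2))
      have : (φ (of x • s) - φ s) ^ 2 ≤ 2 * φ (of x • s) ^ 2 + 2 * φ s ^ 2 := by
        nlinarith [sq_nonneg (φ (of x • s) + φ s)]
      exact this
    -- complement of U (x,false): s with of x • s in U (x,true)
    have hmem : ∀ s, s ∉ U (x, false) → (of x) • s ∈ U (x, true) := by
      intro s hs
      have : mk [(x, true)] * W s ∈ startsWith (x, true) :=
        startsWith_mk_mul (W s) hs
      show W (of x • s) ∈ startsWith (x, true)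
      rw [hW]
      exact this
    have h1 : ∀ s, q s ≤ (U (x, false)).indicator q s
        + ((4/3) * (U (x, true)).indicator q (of x • s) + 4 * (φ (of x • s) - φ s) ^ 2) := by
      intro s
      by_cases hs : s ∈ U (x, false)
      · rw [Set.indicator_of_mem hs]
        have : 0 ≤ (U (x, true)).indicator q (of x • s) := Set.indicator_nonneg (fun _ _ => hq0 _) _
        nlinarith [sq_nonneg (φ (of x • s) - φ s)]
      · rw [Set.indicator_of_notMem hs, Set.indicator_of_mem (hmem s hs)]
        show φ s ^ 2 ≤ 0 + ((4/3) * φ (of x • s) ^ 2 + 4 * (φ (of x • s) - φ s) ^ 2)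
        nlinarith [sq_nonneg (4 * φ (of x • s) - 3 * φ s)]
    have hS1 : Summable (fun s => (U (x, true)).indicator q (of x • s)) :=
      hstrans (of x) _ (hsum_ind _)
    have h2 : ∑' s, q s ≤ ∑' s, ((U (x, false)).indicator q s
        + ((4/3) * (U (x, true)).indicator q (of x • s) + 4 * (φ (of x • s) - φ s) ^ 2)) := by
      refine Summable.tsum_le_tsum h1 hφ ?_
      exact (hsum_ind _).add ((hS1.mul_left _).add (hd.mul_left _))
    rw [Summable.tsum_add (hsum_ind _) ((hS1.mul_left _).add (hd.mul_left _)),
      Summable.tsum_add (hS1.mul_left _) (hd.mul_left _), tsum_mul_left, tsum_mul_left,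
      htrans (of x) ((U (x, true)).indicator q)] at h2
    have h3 : 0 ≤ ∑' s, (U (x, false)).indicator q s :=
      tsum_nonneg fun s => Set.indicator_nonneg (fun _ _ => hq0 _) _
    linarith
  have hall : ∑' s, (U (true, true)).indicator q s + ∑' s, (U (true, false)).indicator q s
      + (∑' s, (U (false, true)).indicator q s + ∑' s, (U (false, false)).indicator q s)
      ≤ ∑' s, q s := by
    rw [← Summable.tsum_add (hsum_ind _) (hsum_ind _), ← Summable.tsum_add (hsum_ind _) (hsum_ind _),
      ← Summable.tsum_add ((hsum_ind _).add (hsum_ind _)) ((hsum_ind _).add (hsum_ind _))]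
    refine Summable.tsum_le_tsum (fun s => ?_)
      (((hsum_ind _).add (hsum_ind _)).add ((hsum_ind _).add (hsum_ind _))) hφ
    have hd : ∀ w w' : Bool × Bool, w ≠ w' → s ∈ U w → s ∉ U w' := fun w w' hne hs =>
      Set.disjoint_left.mp (hdisj w w' hne) hs
    by_cases h1 : s ∈ U (true, true)
    · rw [Set.indicator_of_mem h1, Set.indicator_of_notMem (hd _ _ (by decide) h1),
        Set.indicator_of_notMem (hd _ _ (by decide) h1),
        Set.indicator_of_notMem (hd _ _ (by decide) h1)]
      simp
    · rw [Set.indicator_of_notMem h1]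
      by_cases h2 : s ∈ U (true, false)
      · rw [Set.indicator_of_mem h2,
          Set.indicator_of_notMem (hd _ _ (by decide) h2),
          Set.indicator_of_notMem (hd _ _ (by decide) h2)]
        simp
      · rw [Set.indicator_of_notMem h2]
        by_cases h3 : s ∈ U (false, true)
        · rw [Set.indicator_of_mem h3,
            Set.indicator_of_notMem (hd _ _ (by decide) h3)]
          simp
        · rw [Set.indicator_of_notMem h3]
          have := Set.indicator_le_self' (s := U (false, false)) (f := q) (fun _ _ => hq0 _) s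
          simpa using this
  have m1 := main true
  have m2 := main false
  have hN : ∑' s, φ s ^ 2 = ∑' s, q s := rfl
  rw [hN]
  have hN0 : 0 ≤ ∑' s, q s := tsum_nonneg hq0
  linarith

end Vale.Agent.P189
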