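import Vale.Agent.P189.Bernoulli
import Vale.Agent.P189.PingPong

/-!
# P189: Walsh expansion and the spectral gap of the Bernoulli shift of a free subgroup
-/

namespace Vale.Agent.P189

open MeasureTheory
open scoped ENNReal

/-- The sign of a bit. -/
def sgn (b : Bool) : ℝ := if b then -1 else 1

theorem sgn_eq (b c : Bool) : 1 + sgn b * sgn c = if b = c then 2 else 0 := by
  cases b <;> cases c <;> norm_num [sgn]

theorem abs_sgn (b : Bool) : |sgn b| = 1 := by cases b <;> simp [sgn]

variable {Γ : Type} [Group Γ]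

/-- Walsh functions. -/
def walsh (S : Finset Γ) (x : Γ → Bool) : ℝ := ∏ h ∈ S, sgn (x h)

omit [Group Γ] in
theorem walsh_measurable (S : Finset Γ) : Measurable (walsh S) := by
  unfold walsh
  refine Finset.measurable_prod _ fun h _ => ?_
  exact (measurable_of_countable sgn).comp (measurable_pi_apply h)

omit [Group Γ] in
theorem abs_walsh (S : Finset Γ) (x : Γ → Bool) : |walsh S x| = 1 := by
  unfold walsh
  rw [Finset.abs_prod]
  exact Finset.prod_eq_one fun h _ => abs_sgn _

/-- `f` depends only on the coordinates in `s`. -/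
def Dep (f : (Γ → Bool) → ℝ) (s : Finset Γ) : Prop :=
  ∀ x y : Γ → Bool, (∀ h ∈ s, x h = y h) → f x = f y

/-- Walsh coefficients. -/
noncomputable def four (f : (Γ → Bool) → ℝ) (S : Finset Γ) : ℝ :=
  ∫ x, f x * walsh S x ∂(bern Γ)

omit [Group Γ] in
theorem integrable_of_bdd {f : (Γ → Bool) → ℝ} (hf : Measurable f) {C : ℝ}
    (hC : ∀ x, |f x| ≤ C) : Integrable f (bern Γ) :=
  Integrable.of_bound hf.aestronglyMeasurable C (Filter.Eventually.of_forall hC)

omit [Group Γ] in
theorem integrable_mul_walsh {f : (Γ → Bool) → ℝ} (hf : Measurable f) {C : ℝ}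
    (hC : ∀ x, |f x| ≤ C) (S : Finset Γ) : Integrable (fun x => f x * walsh S x) (bern Γ) := by
  refine integrable_of_bdd (hf.mul (walsh_measurable S)) (C := C) fun x => ?_
  rw [abs_mul, abs_walsh, mul_one]; exact hC x

/-- The Walsh expansion of a function of finitely many coordinates. -/
theorem expand {f : (Γ → Bool) → ℝ} (hf : Measurable f) {C : ℝ} (hC : ∀ x, |f x| ≤ C)
    {s : Finset Γ} (hs : Dep f s) (x : Γ → Bool) :
    f x = ∑ S ∈ s.powerset, four f S * walsh S x := by
  classical
  have h1 : ∑ S ∈ s.powerset, four f S * walsh S x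
      = ∫ y, f y * ∏ h ∈ s, (1 + sgn (y h) * sgn (x h)) ∂(bern Γ) := by
    have h2 : ∀ y : Γ → Bool, f y * ∏ h ∈ s, (1 + sgn (y h) * sgn (x h))
        = ∑ S ∈ s.powerset, f y * walsh S y * walsh S x := by
      intro y
      rw [Finset.prod_one_add, Finset.mul_sum]
      refine Finset.sum_congr rfl fun S _ => ?_
      rw [mul_assoc]
      unfold walsh
      rw [Finset.prod_mul_distrib]
    simp_rw [h2]
    rw [integral_finsetSum _ (fun S _ => (integrable_mul_walsh hf hC S).mul_const _)]
    refine Finset.sum_congr rfl fun S _ => ?_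
    rw [integral_mul_const]
    rfl
  rw [h1]
  let cyl : Set (Γ → Bool) := Set.pi s (fun h => {x h})
  have hcyl : MeasurableSet cyl :=
    MeasurableSet.pi s.countable_toSet fun h _ => measurableSet_singleton _
  have h3 : ∀ y : Γ → Bool, f y * ∏ h ∈ s, (1 + sgn (y h) * sgn (x h))
      = cyl.indicator (fun _ => f x * 2 ^ s.card) y := by
    intro y
    by_cases hy : y ∈ cyl
    · rw [Set.indicator_of_mem hy]
      have hy' : ∀ h ∈ s, y h = x h := fun h hh => hy h hh
      rw [hs y x hy', Finset.prod_congr rfl (g := fun _ => (2 : ℝ))]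
      · rw [Finset.prod_const]
      · intro h hh
        rw [sgn_eq, if_pos (hy' h hh)]
    · rw [Set.indicator_of_notMem hy]
      have : ∃ h ∈ s, y h ≠ x h := by
        by_contra hcon
        push Not at hcon
        exact hy fun h hh => hcon h hh
      obtain ⟨h, hh, hne⟩ := this
      rw [Finset.prod_eq_zero hh (by rw [sgn_eq, if_neg hne]), mul_zero]
  simp_rw [h3]
  rw [integral_indicator_const _ hcyl]
  have h4 : (bern Γ).real cyl = (2⁻¹ : ℝ) ^ s.card := by
    rw [Measure.real, bern_pi, Finset.prod_congr rfl (g := fun _ => (2⁻¹ : ℝ≥0∞))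
      (fun h _ => coin_singleton _), Finset.prod_const, ENNReal.toReal_pow, ENNReal.toReal_inv]
    simp
  rw [h4, smul_eq_mul]
  have : (2⁻¹ : ℝ) ^ s.card * 2 ^ s.card = 1 := by rw [← mul_pow]; norm_num
  calc f x = f x * ((2⁻¹ : ℝ) ^ s.card * 2 ^ s.card) := by rw [this, mul_one]
    _ = _ := by ring

/-- Parseval for functions of finitely many coordinates. -/
theorem parseval {f : (Γ → Bool) → ℝ} (hf : Measurable f) {C : ℝ} (hC : ∀ x, |f x| ≤ C)
    {s : Finset Γ} (hs : Dep f s) :
    ∑ S ∈ s.powerset, four f S ^ 2 = ∫ x, f x ^ 2 ∂(bern Γ) := by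
  have h1 : ∀ x, f x ^ 2 = ∑ S ∈ s.powerset, four f S * (f x * walsh S x) := by
    intro x
    calc f x ^ 2 = f x * f x := by ring
      _ = f x * ∑ S ∈ s.powerset, four f S * walsh S x := by rw [← expand hf hC hs x]
      _ = _ := by
        rw [Finset.mul_sum]
        exact Finset.sum_congr rfl fun S _ => by ring
  simp_rw [h1]
  rw [integral_finsetSum _ (fun S _ => (integrable_mul_walsh hf hC S).const_mul _)]
  refine Finset.sum_congr rfl fun S _ => ?_
  rw [integral_const_mul, sq]
  rfl

theorem four_eq_zero {f : (Γ → Bool) → ℝ} (hf : Measurable f) {C : ℝ} (hC : ∀ x, |f x| ≤ C)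
    {s : Finset Γ} (hs : Dep f s) (S : Finset Γ) (hS : S ∉ s.powerset) : four f S = 0 := by
  classical
  have hs' : Dep f (s ∪ S) := fun x y h => hs x y fun k hk => h k (Finset.mem_union_left _ hk)
  have h1 := parseval hf hC hs
  have h2 := parseval hf hC hs'
  have hsub : insert S s.powerset ⊆ (s ∪ S).powerset := by
    intro T hT
    rw [Finset.mem_insert, Finset.mem_powerset] at hT
    rw [Finset.mem_powerset]
    rcases hT with rfl | hT
    · exact Finset.subset_union_right
    · exact hT.trans Finset.subset_union_left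
  have h3 := Finset.sum_le_sum_of_subset_of_nonneg (f := fun T => four f T ^ 2) hsub
    (fun _ _ _ => sq_nonneg _)
  rw [Finset.sum_insert hS, h1, h2] at h3
  have : four f S ^ 2 ≤ 0 := by linarith
  have h4 := sq_nonneg (four f S)
  exact pow_eq_zero_iff (two_ne_zero) |>.mp (le_antisymm this h4)

theorem tsum_four {f : (Γ → Bool) → ℝ} (hf : Measurable f) {C : ℝ} (hC : ∀ x, |f x| ≤ C)
    {s : Finset Γ} (hs : Dep f s) :
    HasSum (fun S : Finset Γ => four f S ^ 2) (∫ x, f x ^ 2 ∂(bern Γ)) := by
  rw [← parseval hf hC hs]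
  exact hasSum_sum_of_ne_finset_zero fun S hS => by rw [four_eq_zero hf hC hs S hS]; ring

/-- Nonempty finite subsets. -/
abbrev NeFin (Γ : Type) : Type := {S : Finset Γ // S.Nonempty}

/-- Left translation on nonempty finite subsets through `ρ`. -/
@[reducible] def nfAction (ρ : FreeGroup Bool →* Γ) : MulAction (FreeGroup Bool) (NeFin Γ) where
  smul g S := ⟨S.1.map (Equiv.mulLeft (ρ g)).toEmbedding, S.2.map⟩
  one_smul S := by
    apply Subtype.ext
    show S.1.map (Equiv.mulLeft (ρ 1)).toEmbedding = S.1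
    ext k
    simp only [Finset.mem_map, Equiv.coe_toEmbedding, Equiv.coe_mulLeft, map_one, one_mul,
      exists_eq_right]
  mul_smul g h S := by
    apply Subtype.ext
    show S.1.map (Equiv.mulLeft (ρ (g * h))).toEmbedding
      = (S.1.map (Equiv.mulLeft (ρ h)).toEmbedding).map (Equiv.mulLeft (ρ g)).toEmbedding
    ext k
    simp only [Finset.mem_map, Equiv.coe_toEmbedding, Equiv.coe_mulLeft, map_mul, mul_assoc]
    constructor
    · rintro ⟨u, hu, rfl⟩
      exact ⟨_, ⟨u, hu, rfl⟩, rfl⟩
    · rintro ⟨_, ⟨u, hu, rfl⟩, rfl⟩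
      exact ⟨u, hu, rfl⟩

theorem nf_free (ρ : FreeGroup Bool →* Γ) (hρ : Function.Injective ρ) :
    letI := nfAction ρ
    ∀ (g : FreeGroup Bool) (S : NeFin Γ), g • S = S → g = 1 := by
  letI := nfAction ρ
  intro g S hS
  have hmem : ∀ k ∈ S.1, ρ g * k ∈ S.1 := by
    intro k hk
    have h1 : S.1.map (Equiv.mulLeft (ρ g)).toEmbedding = S.1 := congrArg Subtype.val hS
    rw [← h1]
    exact Finset.mem_map.mpr ⟨k, hk, rfl⟩
  obtain ⟨k, hk⟩ := S.2
  have hpow : ∀ n : ℕ, (ρ g) ^ n * k ∈ S.1 := by
    intro n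
    induction n with
    | zero => simpa using hk
    | succ n ih =>
      rw [pow_succ', mul_assoc]
      exact hmem _ ih
  have hninj : ¬ Function.Injective (fun n : ℕ => (⟨(ρ g) ^ n * k, hpow n⟩ : S.1)) :=
    not_injective_infinite_finite _
  unfold Function.Injective at hninj
  push Not at hninj
  obtain ⟨m, n, hmn, hne⟩ := hninj
  have h2 : (ρ g) ^ m = (ρ g) ^ n := by
    have := congrArg Subtype.val hmn
    simpa using this
  rw [← map_pow, ← map_pow] at h2
  have h3 := hρ h2
  by_contra hg
  have : ¬ IsOfFinOrder g := by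
    rw [isOfFinOrder_iff_eq_one]
    exact hg
  exact hne (injective_pow_iff_not_isOfFinOrder.mpr this h3)

/-- Walsh coefficients of a translated function. -/
theorem four_shift (f : (Γ → Bool) → ℝ) (g : Γ) (S : Finset Γ) :
    letI := shiftAction (Γ := Γ)
    four (fun x => f (g • x)) S = four f (S.map (Equiv.mulLeft g).toEmbedding) := by
  letI := shiftAction (Γ := Γ)
  unfold four
  have hg := shift_isPmp (Γ := Γ) g
  have hg' := shift_isPmp (Γ := Γ) g⁻¹
  let e : (Γ → Bool) ≃ᵐ (Γ → Bool) :=
    { toEquiv := MulAction.toPerm g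
      measurable_toFun := hg.measurable
      measurable_invFun := hg'.measurable }
  have h1 := (show MeasurePreserving e (bern Γ) (bern Γ) from hg).integral_comp'
    (g := fun y => f y * walsh (S.map (Equiv.mulLeft g).toEmbedding) y)
  rw [← h1]
  refine integral_congr_ae (Filter.Eventually.of_forall fun x => ?_)
  show f (g • x) * walsh S x = f (g • x) * walsh (S.map (Equiv.mulLeft g).toEmbedding) (g • x)
  congr 1
  unfold walsh
  rw [Finset.prod_map]
  refine Finset.prod_congr rfl fun h _ => ?_
  show sgn (x h) = sgn (x (g⁻¹ * (g * h)))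
  rw [inv_mul_cancel_left]

/-- **Gap inequality for functions of finitely many coordinates.** -/
theorem gap_fun (a c : Γ)
    (hfree : Function.Injective (FreeGroup.lift (fun b : Bool => cond b a c)))
    {f : (Γ → Bool) → ℝ} (hf : Measurable f) {C : ℝ} (hC : ∀ x, |f x| ≤ C)
    {s : Finset Γ} (hs : Dep f s) :
    letI := shiftAction (Γ := Γ)
    ∫ x, f x ^ 2 ∂(bern Γ) - (∫ x, f x ∂(bern Γ)) ^ 2
      ≤ 6 * (∫ x, (f (a • x) - f x) ^ 2 ∂(bern Γ) + ∫ x, (f (c • x) - f x) ^ 2 ∂(bern Γ)) := by
  classical
  letI := shiftAction (Γ := Γ)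
  set ρ : FreeGroup Bool →* Γ := FreeGroup.lift (fun b : Bool => cond b a c) with hρ
  letI := nfAction ρ
  have hfr := nf_free ρ hfree
  have hsum := tsum_four hf hC hs
  -- split off the empty set
  have hinj : Function.Injective (Subtype.val : NeFin Γ → Finset Γ) := Subtype.val_injective
  have hsumNF : Summable (fun S : NeFin Γ => four f S.1 ^ 2) := hsum.summable.comp_injective hinj
  have hsplit : ∫ x, f x ^ 2 ∂(bern Γ) ≤ four f ∅ ^ 2 + ∑' S : NeFin Γ, four f S.1 ^ 2 := by
    have h1 : ∀ S : Finset Γ, four f S ^ 2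
        ≤ (if S = ∅ then four f ∅ ^ 2 else 0)
          + (Set.range (Subtype.val : NeFin Γ → Finset Γ)).indicator (fun S => four f S ^ 2) S := by
      intro S
      by_cases hS : S = ∅
      · subst hS
        simp only [if_true]
        have : 0 ≤ (Set.range (Subtype.val : NeFin Γ → Finset Γ)).indicator
          (fun S => four f S ^ 2) ∅ := Set.indicator_nonneg (fun _ _ => sq_nonneg _) _
        linarith
      · rw [if_neg hS, Set.indicator_of_mem, zero_add]
        exact ⟨⟨S, Finset.nonempty_iff_ne_empty.mpr hS⟩, rfl⟩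
    have hs1 : Summable (fun S : Finset Γ => if S = ∅ then four f ∅ ^ 2 else 0) :=
      summable_of_ne_finset_zero (s := {∅}) (fun S hS => by
        rw [if_neg (by simpa using hS)])
    have hs2 : Summable ((Set.range (Subtype.val : NeFin Γ → Finset Γ)).indicator
        (fun S => four f S ^ 2)) := hsum.summable.indicator _
    have h2 := Summable.tsum_le_tsum h1 hsum.summable (hs1.add hs2)
    rw [hsum.tsum_eq, Summable.tsum_add hs1 hs2, tsum_ite_eq, ← tsum_subtype,
      ← tsum_range (g := Subtype.val) (f := fun S => four f S ^ 2) hinj] at *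
    exact h2
  have h0 : four f ∅ = ∫ x, f x ∂(bern Γ) := by
    unfold four walsh; simp
  rw [h0] at hsplit
  have hpp := pingpong hfr (fun S : NeFin Γ => four f S.1) hsumNF
  -- translated functions
  have htr : ∀ (b : Bool) (g : Γ), ρ (FreeGroup.of b) = g →
      ∑' S : NeFin Γ, (four f (FreeGroup.of b • S).1 - four f S.1) ^ 2
        ≤ ∫ x, (f (g • x) - f x) ^ 2 ∂(bern Γ) := by
    intro b g hg
    have hgm := (shift_isPmp (Γ := Γ) g).measurable
    have hfg : Measurable (fun x => f (g • x)) := hf.comp hgm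
    have hF : Measurable (fun x => f (g • x) - f x) := hfg.sub hf
    have hFC : ∀ x, |f (g • x) - f x| ≤ C + C := fun x =>
      (abs_sub _ _).trans (add_le_add (hC _) (hC _))
    have hFs : Dep (fun x => f (g • x) - f x)
        (s ∪ s.map (Equiv.mulLeft g⁻¹).toEmbedding) := by
      intro x y hxy
      show f (g • x) - f x = f (g • y) - f y
      rw [hs x y fun h hh => hxy h (Finset.mem_union_left _ hh), hs (g • x) (g • y)]
      intro h hh
      show x (g⁻¹ * h) = y (g⁻¹ * h)
      exact hxy _ (Finset.mem_union_right _ (Finset.mem_map.mpr ⟨h, hh, rfl⟩))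
    have hT := tsum_four hF hFC hFs
    have hterm : ∀ S : NeFin Γ, (four f (FreeGroup.of b • S).1 - four f S.1) ^ 2
        = four (fun x => f (g • x) - f x) S.1 ^ 2 := by
      intro S
      congr 1
      have h1 : four (fun x => f (g • x) - f x) S.1
          = four (fun x => f (g • x)) S.1 - four f S.1 := by
        unfold four
        rw [← integral_sub (integrable_mul_walsh hfg (fun x => hC _) _)
          (integrable_mul_walsh hf hC _)]
        refine integral_congr_ae (Filter.Eventually.of_forall fun x => ?_)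
        show (f (g • x) - f x) * walsh S.1 x = f (g • x) * walsh S.1 x - f x * walsh S.1 x
        ring
      rw [h1, four_shift f g S.1]
      congr 2
      show S.1.map (Equiv.mulLeft (ρ (FreeGroup.of b))).toEmbedding = _
      rw [hg]
    simp_rw [hterm]
    rw [← hT.tsum_eq]
    exact Summable.tsum_le_tsum_of_inj Subtype.val hinj (fun _ _ => sq_nonneg _)
      (fun _ => le_rfl) (hT.summable.comp_injective hinj) hT.summable
  have ha := htr true a (by simp [hρ])
  have hc := htr false c (by simp [hρ])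
  have : (∑' S : NeFin Γ, four f S.1 ^ 2)
      ≤ 6 * (∫ x, (f (a • x) - f x) ^ 2 ∂(bern Γ) + ∫ x, (f (c • x) - f x) ^ 2 ∂(bern Γ)) := by
    refine hpp.trans ?_
    gcongr
  linarith

end Vale.Agent.P189
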